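import Vale.Agent.P323.Over

/-! P323: the amalgamation theorem. -/

namespace Vale.Agent.P323

open Filter

/-- The amalgam: new elements of `r` go below the elements of `s` through the common part, and
all of `s` is put below the filter `U` of `r`. -/
def Raw.amal (s r : Raw) (U : Set At) : Raw where
  le x y := s.le x y ∨ r.le x y ∨ (∃ μ, r.le x μ ∧ s.le μ y) ∨ (s.E x ∧ y ∈ U)
  lab z w c := s.lab z w c ∨ r.lab z w c
  g x c e := s.g x c e ∨ r.g x c e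
  code x d := s.code x d ∨ r.code x d
  prom Λ T O := s.prom Λ T O ∨ r.prom Λ T O
  ent k b c x := s.ent k b c x ∨ r.ent k b c x

/-- Hypotheses of the amalgamation theorem. -/
structure AmH (s r : Raw) (B U : Set At) : Prop where
  hs : s.OK
  hr : r.OK
  one : ∀ β ∈ B, s.le z1 β
  over : ∀ β ∈ B, s.Over β r
  inter : ∀ x, s.E x → r.E x → ∃ β ∈ B, s.le x β
  h0 : ∀ β ∈ B, ∀ β' ∈ B, ∀ δ, s.IsMeet δ β β' → ∀ y, r.le y β → r.le y β' → r.le y δ
  side : ∀ z, r.E z → ∃ β ∈ B, ∀ y, r.le y z → ∀ β' ∈ B, r.le y β' → r.le y β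
  U_up : ∀ y ∈ U, ∀ w, r.le y w → w ∈ U
  U_meet : ∀ y ∈ U, ∀ y' ∈ U, ∀ m, r.IsMeet m y y' → m ∈ U
  U_k : ∀ y ∈ U, ∃ k, (∀ β ∈ B, r.le β k ∧ ¬ r.le k β) ∧ ∀ y ∈ U, r.le k y

theorem Raw.Ord.anti_le {p : Raw} (h : p.Ord) {T : ℕ → At} (ha : ∀ n, p.le (T (n + 1)) (T n))
    {n m : ℕ} (hn : n ≤ m) : p.le (T m) (T n) := by
  induction hn with
  | refl => exact h.right (ha n)
  | step _ ih => exact h.trans (ha _) ih

theorem Raw.OExt.of_le {q p : Raw} (h : q.OExt p) (hp : p.Ord) {x y : At} (hxy : p.le x y) :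
    q.le x y := (h.le_iff (hp.left hxy) (hp.right hxy)).2 hxy

/-- `Germ` at an old point persists. -/
theorem Raw.OExt.germ {q p : Raw} (h : q.OExt p) (hp : p.Ord) (hq : q.Ord) {T : ℕ → At}
    {O : Set At} {b : At} (hb : p.E b) (hT : ∀ n, p.E (T n)) (hg : p.Germ T O b) :
    q.Germ T O b := by
  rcases hg with ⟨n, h1⟩ | ⟨n, o, ho, h1⟩
  · exact Or.inl ⟨n, h.of_le hp h1⟩
  · obtain ⟨m, hm⟩ := hp.meet hb (hT n)
    exact Or.inr ⟨n, o, ho, fun y hy hy' =>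
      hq.trans ((h.meet hm).2.2 y hy hy') (h.of_le hp (h1 m hm.1 hm.2.1))⟩

namespace AmH

variable {s r : Raw} {B U : Set At} (h : AmH s r B U)
include h

theorem down {β x y : At} (hβ : β ∈ B) (hy : s.le y β) (hxy : s.le x y) : r.le x y :=
  ((h.over β hβ).le_iff (h.hs.trans hxy hy) hy).2 hxy

theorem le_base {β x : At} (hβ : β ∈ B) (hx : s.le x β) : r.le x β :=
  h.down hβ (h.hs.right hx) hx

theorem agree' {x y : At} (hy : r.E y) (hxy : s.le x y) : r.le x y := by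
  obtain ⟨β, hβ, h1⟩ := h.inter y (h.hs.right hxy) hy
  exact h.down hβ h1 hxy

theorem U_E {y : At} (hy : y ∈ U) : r.E y := by
  obtain ⟨k, _, h1⟩ := h.U_k y hy
  exact h.hr.right (h1 y hy)

theorem notU_le {y μ : At} (hy : y ∈ U) (h1 : r.le y μ) (h2 : s.E μ) : False := by
  obtain ⟨k, h3, h4⟩ := h.U_k y hy
  obtain ⟨β, hβ, h5⟩ := h.inter μ h2 (h.hr.right h1)
  exact (h3 β hβ).2 (h.hr.trans (h4 y hy) (h.hr.trans h1 (h.le_base hβ h5)))

theorem notU {y : At} (hy : y ∈ U) (h2 : s.E y) : False := h.notU_le hy (h.U_E hy) h2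

theorem le_U {x μ y : At} (hy : y ∈ U) (h1 : r.le x μ) (h2 : s.E μ) : r.le x y := by
  obtain ⟨k, h3, h4⟩ := h.U_k y hy
  obtain ⟨β, hβ, h5⟩ := h.inter μ h2 (h.hr.right h1)
  exact h.hr.trans h1 (h.hr.trans (h.le_base hβ h5) (h.hr.trans (h3 β hβ).1 (h4 y hy)))

theorem agree {x y : At} (hx : s.E x) (hy : s.E y) (hxy : r.le x y) : s.le x y := by
  obtain ⟨β, hβ, h1⟩ := h.inter x hx (h.hr.left hxy)
  obtain ⟨β', hβ', h2⟩ := h.inter y hy (h.hr.right hxy)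
  obtain ⟨δ, hδ⟩ := h.hs.meet (h.hs.right h1) (h.hs.right h2)
  have h3 := h.h0 β hβ β' hβ' δ hδ x (h.le_base hβ h1) (h.hr.trans hxy (h.le_base hβ' h2))
  have h4 := ((h.over β hβ).le_iff h1 hδ.1).1 h3
  exact ((h.over β' hβ').le_iff (h.hs.trans h4 hδ.2.1) h2).1 hxy

theorem lift {y μ w β m : At} (hβ : β ∈ B) (h1 : r.le y μ) (h2 : s.le μ w) (h3 : r.le y β)
    (hm : s.IsMeet m β w) : r.le y m := by
  obtain ⟨β', hβ', h4⟩ := h.inter μ (h.hs.left h2) (h.hr.right h1)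
  obtain ⟨δ, hδ⟩ := h.hs.meet (h.hs.right hm.1) (h.hs.right h4)
  have h5 := h.h0 β hβ β' hβ' δ hδ y h3 (h.hr.trans h1 (h.le_base hβ' h4))
  obtain ⟨ν, hν⟩ := h.hs.meet (h.hs.left hδ.1) (h.hs.left h2)
  have h6 := (h.over β' hβ').meet hδ.2.1 h4 hν h5 h1
  exact h.hr.trans h6 (h.down hβ hm.1 (hm.2.2 ν (h.hs.trans hν.1 hδ.1) (h.hs.trans hν.2.1 h2)))

/-- Using the side of `z`. -/
theorem side' {z : At} (hz : r.E z) : ∃ β ∈ B, ∀ y μ, r.le y z → r.le y μ → s.E μ → r.le y β := by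
  obtain ⟨β, hβ, h1⟩ := h.side z hz
  refine ⟨β, hβ, fun y μ h2 h3 h4 => ?_⟩
  obtain ⟨β', hβ', h5⟩ := h.inter μ h4 (h.hr.right h3)
  exact h1 y h2 β' hβ' (h.hr.trans h3 (h.le_base hβ' h5))

theorem le_r {y z : At} (hz : r.E z) (hU : z ∉ U) (h1 : (s.amal r U).le y z) : r.le y z := by
  rcases h1 with h1 | h1 | ⟨μ, h1, h2⟩ | ⟨_, h1⟩
  · exact h.agree' hz h1
  · exact h1
  · exact h.hr.trans h1 (h.agree' hz h2)
  · exact (hU h1).elim

theorem le_r' {y z : At} (hy : r.E y) (hz : r.E z) (h1 : (s.amal r U).le y z) : r.le y z := by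
  by_cases hU : z ∈ U
  · rcases h1 with h1 | h1 | ⟨μ, h1, h2⟩ | ⟨h1, _⟩
    · exact h.agree' hz h1
    · exact h1
    · exact h.hr.trans h1 (h.agree' hz h2)
    · exact h.le_U hU hy h1
  · exact h.le_r hz hU h1

theorem le_s {y w : At} (hw : s.E w) (h1 : (s.amal r U).le y w) :
    s.le y w ∨ ∃ μ, r.le y μ ∧ s.le μ w := by
  rcases h1 with h1 | h1 | h1 | ⟨_, h1⟩
  · exact Or.inl h1
  · exact Or.inr ⟨w, h1, hw⟩
  · exact Or.inr h1
  · exact (h.notU h1 hw).elim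

theorem le_rs {y w : At} (hy : r.E y) (hw : s.E w) (h1 : (s.amal r U).le y w) :
    ∃ μ, r.le y μ ∧ s.le μ w := by
  rcases h.le_s hw h1 with h1 | h1
  · exact ⟨y, hy, h1⟩
  · exact h1

theorem le_s' {y w : At} (hy : s.E y) (hw : s.E w) (h1 : (s.amal r U).le y w) : s.le y w := by
  rcases h.le_s hw h1 with h1 | ⟨μ, h1, h2⟩
  · exact h1
  · exact h.hs.trans (h.agree hy (h.hs.left h2) h1) h2

theorem left {x y : At} (h1 : (s.amal r U).le x y) : s.E x ∨ r.E x := by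
  rcases h1 with h1 | h1 | ⟨μ, h1, _⟩ | ⟨h1, _⟩
  exacts [Or.inl (h.hs.left h1), Or.inr (h.hr.left h1), Or.inr (h.hr.left h1), Or.inl h1]

theorem right {x y : At} (h1 : (s.amal r U).le x y) : s.E y ∨ r.E y := by
  rcases h1 with h1 | h1 | ⟨μ, _, h1⟩ | ⟨_, h1⟩
  exacts [Or.inl (h.hs.right h1), Or.inr (h.hr.right h1), Or.inl (h.hs.right h1),
    Or.inr (h.U_E h1)]

omit h in
theorem E_of {x : At} (h1 : s.E x ∨ r.E x) : (s.amal r U).E x :=
  h1.elim Or.inl fun h1 => Or.inr (Or.inl h1)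

theorem trans {x y z : At} (h1 : (s.amal r U).le x y) (h2 : (s.amal r U).le y z) :
    (s.amal r U).le x z := by
  by_cases hy : s.E y
  · rcases h.le_s hy h1 with h1 | ⟨μ, h1, h1'⟩
    · rcases h2 with h2 | h2 | ⟨ν, h2, h3⟩ | ⟨_, h2⟩
      · exact Or.inl (h.hs.trans h1 h2)
      · exact Or.inr (Or.inl (h.hr.trans (h.agree' (h.hr.left h2) h1) h2))
      · exact Or.inr (Or.inr (Or.inl ⟨ν, h.hr.trans (h.agree' (h.hr.left h2) h1) h2, h3⟩))
      · exact Or.inr (Or.inr (Or.inr ⟨h.hs.left h1, h2⟩))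
    · rcases h2 with h2 | h2 | ⟨ν, h2, h3⟩ | ⟨_, h2⟩
      · exact Or.inr (Or.inr (Or.inl ⟨μ, h1, h.hs.trans h1' h2⟩))
      · exact Or.inr (Or.inl (h.hr.trans h1 (h.hr.trans (h.agree' (h.hr.left h2) h1') h2)))
      · exact Or.inr (Or.inr (Or.inl
          ⟨ν, h.hr.trans h1 (h.hr.trans (h.agree' (h.hr.left h2) h1') h2), h3⟩))
      · exact Or.inr (Or.inl (h.le_U h2 h1 (h.hs.left h1')))
  · rcases h1 with h1 | h1 | ⟨μ, _, h1⟩ | ⟨h1, h1'⟩
    · exact (hy (h.hs.right h1)).elim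
    · rcases h2 with h2 | h2 | ⟨ν, h2, h3⟩ | ⟨h2, _⟩
      · exact (hy (h.hs.left h2)).elim
      · exact Or.inr (Or.inl (h.hr.trans h1 h2))
      · exact Or.inr (Or.inr (Or.inl ⟨ν, h.hr.trans h1 h2, h3⟩))
      · exact (hy h2).elim
    · exact (hy (h.hs.right h1)).elim
    · rcases h2 with h2 | h2 | ⟨ν, h2, h3⟩ | ⟨h2, _⟩
      · exact (hy (h.hs.left h2)).elim
      · exact Or.inr (Or.inr (Or.inr ⟨h1, h.U_up y h1' z h2⟩))
      · exact (h.notU_le h1' h2 (h.hs.left h3)).elim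
      · exact (hy h2).elim

/-- An element of `s` outside `r` is below an element of `r` only through `U`. -/
theorem mem_U {x y : At} (hx : ¬ r.E x) (hy : r.E y) (h1 : (s.amal r U).le x y) : y ∈ U := by
  by_contra hU
  exact hx (h.hr.left (h.le_r hy hU h1))

theorem antisymm {x y : At} (h1 : (s.amal r U).le x y) (h2 : (s.amal r U).le y x) : x = y := by
  have key : ∀ {x y : At}, ¬ r.E x → r.E y → (s.amal r U).le x y → (s.amal r U).le y x → False :=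
    fun hx hy h1 h2 => by
      obtain ⟨μ, h3, h4⟩ := h.le_rs hy ((h.left h1).resolve_right hx) h2
      exact h.notU_le (h.mem_U hx hy h1) h3 (h.hs.left h4)
  by_cases hx : r.E x <;> by_cases hy : r.E y
  · exact h.hr.antisymm (h.le_r' hx hy h1) (h.le_r' hy hx h2)
  · exact (key hy hx h2 h1).elim
  · exact (key hx hy h1 h2).elim
  · have hx' := (h.left h1).resolve_right hx
    have hy' := (h.left h2).resolve_right hy
    exact h.hs.antisymm (h.le_s' hx' hy' h1) (h.le_s' hy' hx' h2)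

theorem oext_s : (s.amal r U).OExt s := by
  refine ⟨fun hx hy => ⟨h.le_s' hx hy, Or.inl⟩, fun {m x y} hm =>
    ⟨Or.inl hm.1, Or.inl hm.2.1, fun u h1 h2 => ?_⟩⟩
  have hx := h.hs.right hm.1
  have hy := h.hs.right hm.2.1
  rcases h.left h1 with hu | hu
  · exact Or.inl (hm.2.2 u (h.le_s' hu hx h1) (h.le_s' hu hy h2))
  · obtain ⟨μ1, a1, a2⟩ := h.le_rs hu hx h1
    obtain ⟨μ2, a3, a4⟩ := h.le_rs hu hy h2
    obtain ⟨β, hβ, a5⟩ := h.inter μ1 (h.hs.left a2) (h.hr.right a1)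
    obtain ⟨m2, hm2⟩ := h.hs.meet (h.hs.right a5) hy
    have a6 := h.lift hβ a3 a4 (h.hr.trans a1 (h.le_base hβ a5)) hm2
    obtain ⟨ν, hν⟩ := h.hs.meet (h.hs.left a2) (h.hs.left hm2.1)
    exact Or.inr (Or.inr (Or.inl ⟨ν, (h.over β hβ).meet a5 hm2.1 hν a1 a6,
      hm.2.2 ν (h.hs.trans hν.1 a2) (h.hs.trans hν.2.1 hm2.2.1)⟩))

theorem oext_r : (s.amal r U).OExt r := by
  refine ⟨fun hx hy => ⟨h.le_r' hx hy, fun a => Or.inr (Or.inl a)⟩, fun {m x y} hm =>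
    ⟨Or.inr (Or.inl hm.1), Or.inr (Or.inl hm.2.1), fun u h1 h2 => ?_⟩⟩
  have hx := h.hr.right hm.1
  have hy := h.hr.right hm.2.1
  by_cases hu : r.E u
  · exact Or.inr (Or.inl (hm.2.2 u (h.le_r' hu hx h1) (h.le_r' hu hy h2)))
  · exact Or.inr (Or.inr (Or.inr ⟨(h.left h1).resolve_right hu,
      h.U_meet x (h.mem_U hu hx h1) y (h.mem_U hu hy h2) m hm⟩))

theorem meet_mixed {w z : At} (hw : s.E w) (hz : r.E z) : ∃ m, (s.amal r U).IsMeet m w z := by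
  by_cases hU : z ∈ U
  · exact ⟨w, Or.inl hw, Or.inr (Or.inr (Or.inr ⟨hw, hU⟩)), fun u h1 _ => h1⟩
  · obtain ⟨β, hβ, h1⟩ := h.side' hz
    obtain ⟨m1, hm1⟩ := h.hs.meet (h.hs.right (h.one β hβ)) hw
    obtain ⟨m, hm⟩ := h.hr.meet hz (h.hr.left (h.le_base hβ hm1.1))
    refine ⟨m, Or.inr (Or.inr (Or.inl ⟨m1, hm.2.1, hm1.2.1⟩)), Or.inr (Or.inl hm.1),
      fun u a1 a2 => ?_⟩
    have a3 := h.le_r hz hU a2
    obtain ⟨μ, a4, a5⟩ := h.le_rs (h.hr.left a3) hw a1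
    exact Or.inr (Or.inl (hm.2.2 u a3 (h.lift hβ a4 a5 (h1 u μ a3 a4 (h.hs.left a5)) hm1)))

theorem ord : (s.amal r U).Ord where
  cnt := (h.hs.cnt.union h.hr.cnt).mono fun _ hx => h.left hx
  left h1 := E_of (h.left h1)
  right h1 := E_of (h.right h1)
  trans := h.trans
  antisymm := h.antisymm
  bot hx := (h.left hx).elim (fun a => Or.inl (h.hs.bot a)) fun a => Or.inr (Or.inl (h.hr.bot a))
  e1 := Or.inl h.hs.e1
  meet {x y} hx hy := by
    rcases h.left hx with hx | hx <;> rcases h.left hy with hy | hy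
    · exact (h.hs.meet hx hy).imp fun _ => h.oext_s.meet
    · exact h.meet_mixed hx hy
    · obtain ⟨m, a1, a2, a3⟩ := h.meet_mixed hy hx
      exact ⟨m, a2, a1, fun u b1 b2 => a3 u b2 b1⟩
    · exact (h.hr.meet hx hy).imp fun _ => h.oext_r.meet

/-- Elements of `s` below an element of `r` are below its side in `s`. -/
theorem side_s {z : At} (hz : r.E z) : ∃ β ∈ B, (∀ y μ, r.le y z → r.le y μ → s.E μ → r.le y β) ∧
    ∀ y, s.E y → r.le y z → s.le y β := by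
  obtain ⟨β, hβ, h1⟩ := h.side' hz
  exact ⟨β, hβ, h1, fun y hy h2 =>
    h.agree hy (h.hs.right (h.one β hβ)) (h1 y y h2 (h.hr.left h2) hy)⟩

theorem code_s {x : At} {d : ℕ → At} (hc : s.code x d) : (s.amal r U).CodeOK x d := by
  have hd := h.hs.code_ok hc
  have hx := h.hs.left (hd.below 0)
  refine ⟨fun n => Or.inl (hd.one n), fun n => Or.inl (hd.below n), fun n => Or.inl (hd.anti n),
    fun b h1 h2 => ?_⟩
  rcases h.right h1 with hb | hb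
  · exact (hd.cof b (h.le_s' h.hs.e1 hb h1) (h.le_s' hx hb h2)).imp fun _ => Or.inl
  · by_cases hU : b ∈ U
    · exact ⟨0, Or.inr (Or.inr (Or.inr ⟨h.hs.right (hd.one 0), hU⟩))⟩
    · have h3 := h.le_r hb hU h2
      obtain ⟨β, hβ, _, h4⟩ := h.side_s hb
      obtain ⟨d', hd', e⟩ := (h.over β hβ).code hc (h4 x hx h3)
      obtain ⟨n, hn⟩ := (h.hr.code_ok hd').cof b (h.le_r hb hU h1) h3
      obtain ⟨m, hm, e'⟩ := ((eventually_ge_atTop n).and e).exists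
      refine ⟨m, Or.inr (Or.inl ?_)⟩
      rw [e']
      exact h.hr.trans (h.hr.toOrd.anti_le (h.hr.code_ok hd').anti hm) hn

theorem code_r {x : At} {d : ℕ → At} (hc : r.code x d) : (s.amal r U).CodeOK x d := by
  have hd := h.hr.code_ok hc
  have hx := h.hr.left (hd.below 0)
  refine ⟨fun n => Or.inr (Or.inl (hd.one n)), fun n => Or.inr (Or.inl (hd.below n)),
    fun n => Or.inr (Or.inl (hd.anti n)), fun b h1 h2 => ?_⟩
  rcases h.right h1 with hb | hb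
  · obtain ⟨μ, h3, h4⟩ := h.le_rs hx hb h2
    obtain ⟨β, hβ, h5⟩ := h.inter μ (h.hs.left h4) (h.hr.right h3)
    obtain ⟨m, hm⟩ := h.hs.meet (h.hs.right h5) hb
    have h6 := hm.2.2 z1 (h.one β hβ) (h.le_s' h.hs.e1 hb h1)
    obtain ⟨n, hn⟩ := hd.cof m (h.down hβ hm.1 h6)
      (h.lift hβ h3 h4 (h.hr.trans h3 (h.le_base hβ h5)) hm)
    exact ⟨n, Or.inr (Or.inr (Or.inl ⟨m, hn, hm.2.1⟩))⟩
  · exact (hd.cof b (h.le_r' h.hr.e1 hb h1) (h.le_r' hx hb h2)).imp fun _ a => Or.inr (Or.inl a)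

theorem code_both {x : At} {d : ℕ → At} (hc : s.code x d) (hx : r.E x) :
    ∃ d', r.code x d' ∧ ∀ᶠ n in atTop, d n = d' n := by
  obtain ⟨β, hβ, h1⟩ := h.inter x (h.hs.left ((h.hs.code_ok hc).below 0)) hx
  exact (h.over β hβ).code hc h1

theorem sep_s {x x' : At} (hx : s.E x) (hx' : s.E x')
    (h1 : ∃ b, s.le z1 b ∧ ¬ (s.le x b ↔ s.le x' b)) :
    ∃ b, (s.amal r U).le z1 b ∧ ¬ ((s.amal r U).le x b ↔ (s.amal r U).le x' b) := by
  obtain ⟨b, h1, h2⟩ := h1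
  exact ⟨b, Or.inl h1, by
    rwa [h.oext_s.le_iff hx (h.hs.right h1), h.oext_s.le_iff hx' (h.hs.right h1)]⟩

theorem sep_r {x x' : At} (hx : r.E x) (hx' : r.E x')
    (h1 : ∃ b, r.le z1 b ∧ ¬ (r.le x b ↔ r.le x' b)) :
    ∃ b, (s.amal r U).le z1 b ∧ ¬ ((s.amal r U).le x b ↔ (s.amal r U).le x' b) := by
  obtain ⟨b, h1, h2⟩ := h1
  exact ⟨b, Or.inr (Or.inl h1), by
    rwa [h.oext_r.le_iff hx (h.hr.right h1), h.oext_r.le_iff hx' (h.hr.right h1)]⟩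

theorem sep_mixed {x x' : At} {d d' : ℕ → At} (hc : s.code x d) (hc' : r.code x' d')
    (hne : x ≠ x') :
    ∃ b, (s.amal r U).le z1 b ∧ ¬ ((s.amal r U).le x b ↔ (s.amal r U).le x' b) := by
  have hd := h.hs.code_ok hc
  have hd' := h.hr.code_ok hc'
  have hx' := h.hr.left (hd'.below 0)
  by_cases hx : r.E x
  · obtain ⟨d2, h1, _⟩ := h.code_both hc hx
    exact h.sep_r hx hx' (h.hr.code_sep h1 hc' hne)
  · by_cases hU : ∀ n, d' n ∈ U
    · refine ⟨d 0, Or.inl (hd.one 0), fun e => ?_⟩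
      obtain ⟨n, hn⟩ := (h.code_r hc').cof (d 0) (Or.inl (hd.one 0)) (e.1 (Or.inl (hd.below 0)))
      obtain ⟨μ, h1, h2⟩ := h.le_rs (h.hr.right (hd'.one n)) (h.hs.right (hd.one 0)) hn
      exact h.notU_le (hU n) h1 (h.hs.left h2)
    · obtain ⟨n, hn⟩ := not_forall.1 hU
      exact ⟨d' n, Or.inr (Or.inl (hd'.one n)), fun e =>
        hn (h.mem_U hx (h.hr.right (hd'.one n)) (e.2 (Or.inr (Or.inl (hd'.below n)))))⟩

theorem prom_s {Λ : Set At} {T : ℕ → At} {O : Set At} (hp : s.prom Λ T O) :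
    (s.amal r U).PromOK Λ T O := by
  have hP := h.hs.prom_ok hp
  have hT : ∀ n, s.E (T n) := fun n => h.hs.right (hP.anti n)
  have hΛ : ∀ z ∈ Λ, s.E z := fun z hz => h.hs.left (hP.low z hz 0)
  refine ⟨fun z hz n => Or.inl (hP.low z hz n), fun n => Or.inl (hP.anti n),
    fun o ho => Or.inl (hP.out o ho), fun b hb hl => ?_, fun b hl hbT => ?_⟩
  · rcases h.left hb with hb | hb
    · exact h.oext_s.germ h.hs.toOrd h.ord hb hT
        (hP.germ b hb fun z hz => h.le_s' (hΛ z hz) hb (hl z hz))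
    · by_cases hU : b ∈ U
      · exact Or.inl ⟨0, Or.inr (Or.inr (Or.inr ⟨hT 0, hU⟩))⟩
      · obtain ⟨β, hβ, h1, h2⟩ := h.side_s hb
        have hl' : ∀ z ∈ Λ, r.le z b := fun z hz => h.le_r hb hU (hl z hz)
        have hβ' : ∀ z ∈ Λ, s.le z β := fun z hz => h2 z (hΛ z hz) (hl' z hz)
        rcases hP.germ β (h.hs.right (h.one β hβ)) hβ' with ⟨n0, h3⟩ | ⟨n, o, ho, h3⟩
        · rcases (h.over β hβ).germ hp hβ' b hb hl' n0 h3 with ⟨n, _, h4⟩ | ⟨n, hn, o, ho, m, h4, _, h6⟩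
          · exact Or.inl ⟨n, Or.inr (Or.inl h4)⟩
          · refine Or.inr ⟨n, o, ho, fun y a1 a2 => Or.inr (Or.inr (Or.inl ⟨m, ?_, h4⟩))⟩
            have a3 := h.le_r hb hU a1
            exact h6 y a3 (h.le_r' (h.hr.left a3) (h.hr.left
              (h.le_base hβ (h.hs.trans (h.hs.toOrd.anti_le hP.anti hn) h3))) a2)
        · obtain ⟨m, hm⟩ := h.hs.meet (h.hs.right (h.one β hβ)) (hT n)
          refine Or.inr ⟨n, o, ho, fun y a1 a2 =>
            Or.inr (Or.inr (Or.inl ⟨m, ?_, h3 m hm.1 hm.2.1⟩))⟩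
          have a3 := h.le_r hb hU a1
          obtain ⟨μ, a4, a5⟩ := h.le_rs (h.hr.left a3) (hT n) a2
          exact h.lift hβ a4 a5 (h1 y μ a3 a4 (h.hs.left a5)) hm
  · rcases h.left (hbT 0) with hb | hb
    · obtain ⟨z, hz, h1⟩ := hP.gap b (fun z hz => h.le_s' (hΛ z hz) hb (hl z hz))
        fun n => h.le_s' hb (hT n) (hbT n)
      exact ⟨z, hz, Or.inl h1⟩
    · have hU : b ∉ U := fun hU => by
        obtain ⟨μ, a4, a5⟩ := h.le_rs hb (hT 0) (hbT 0)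
        exact h.notU_le hU a4 (h.hs.left a5)
      obtain ⟨β, hβ, h1, h2⟩ := h.side_s hb
      have hl' : ∀ z ∈ Λ, r.le z b := fun z hz => h.le_r hb hU (hl z hz)
      obtain ⟨z, hz, h3⟩ := (h.over β hβ).gap hp (fun z hz => h2 z (hΛ z hz) (hl' z hz)) b hl'
        fun n => by
          obtain ⟨m, hm⟩ := h.hs.meet (h.hs.right (h.one β hβ)) (hT n)
          obtain ⟨μ, a4, a5⟩ := h.le_rs hb (hT n) (hbT n)
          exact ⟨m, hm.2.1, hm.1, h.lift hβ a4 a5 (h1 b μ hb a4 (h.hs.left a5)) hm⟩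
      exact ⟨z, hz, Or.inr (Or.inl h3)⟩

theorem prom_r {Λ : Set At} {T : ℕ → At} {O : Set At} (hp : r.prom Λ T O) :
    (s.amal r U).PromOK Λ T O := by
  have hP := h.hr.prom_ok hp
  have hT : ∀ n, r.E (T n) := fun n => h.hr.right (hP.anti n)
  have hΛ : ∀ z ∈ Λ, r.E z := fun z hz => h.hr.left (hP.low z hz 0)
  have hn1 : ∀ b, s.E b → (∀ z ∈ Λ, (s.amal r U).le z b) → ∃ n, T n ∉ U := fun b hb hl => by
    by_contra hU
    have hU' : ∀ n, T n ∈ U := fun n => by_contra fun a => hU ⟨n, a⟩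
    obtain ⟨k, h1, h2⟩ := h.U_k _ (hU' 0)
    have h3 : ∀ z ∈ Λ, ∃ β ∈ B, r.le z β := fun z hz => by
      obtain ⟨μ, a4, a5⟩ := h.le_rs (hΛ z hz) hb (hl z hz)
      obtain ⟨β, hβ, a6⟩ := h.inter μ (h.hs.left a5) (h.hr.right a4)
      exact ⟨β, hβ, h.hr.trans a4 (h.le_base hβ a6)⟩
    obtain ⟨z, hz, h4⟩ := hP.gap k (fun z hz => by
      obtain ⟨β, hβ, a⟩ := h3 z hz
      exact h.hr.trans a (h1 β hβ).1) fun n => h2 _ (hU' n)
    obtain ⟨β, hβ, a⟩ := h3 z hz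
    exact (h1 β hβ).2 (h.hr.trans h4 a)
  refine ⟨fun z hz n => Or.inr (Or.inl (hP.low z hz n)), fun n => Or.inr (Or.inl (hP.anti n)),
    fun o ho => Or.inr (Or.inl (hP.out o ho)), fun b hb hl => ?_, fun b hl hbT => ?_⟩
  · rcases h.left hb with hb | hb
    · obtain ⟨n1, hn1⟩ := hn1 b hb hl
      obtain ⟨β, hβ, h1⟩ := h.side' (hT 0)
      obtain ⟨m, hm⟩ := h.hs.meet (h.hs.right (h.one β hβ)) hb
      have key : ∀ y, r.le y (T 0) → (s.amal r U).le y b → r.le y m := fun y a1 a2 => by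
        obtain ⟨μ, a4, a5⟩ := h.le_rs (h.hr.left a1) hb a2
        exact h.lift hβ a4 a5 (h1 y μ a1 a4 (h.hs.left a5)) hm
      rcases hP.germ m (h.hr.left (h.le_base hβ hm.1))
        (fun z hz => key z (hP.low z hz 0) (hl z hz)) with ⟨n, h2⟩ | ⟨n, o, ho, h2⟩
      · exact Or.inl ⟨n, Or.inr (Or.inr (Or.inl ⟨m, h2, hm.2.1⟩))⟩
      · refine Or.inr ⟨max n n1, o, ho, fun y a1 a2 => Or.inr (Or.inl ?_)⟩
        have a3 := h.le_r (hT _)
          (fun a => hn1 (h.U_up _ a _ (h.hr.toOrd.anti_le hP.anti (le_max_right n n1)))) a2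
        exact h2 y (key y (h.hr.trans a3 (h.hr.toOrd.anti_le hP.anti (Nat.zero_le _))) a1)
          (h.hr.trans a3 (h.hr.toOrd.anti_le hP.anti (le_max_left n n1)))
    · exact h.oext_r.germ h.hr.toOrd h.ord hb hT
        (hP.germ b hb fun z hz => h.le_r' (hΛ z hz) hb (hl z hz))
  · have hb : r.E b := by
      rcases h.left (hbT 0) with hb | hb
      · obtain ⟨n1, hn1⟩ := hn1 b hb hl
        exact h.hr.left (h.le_r (hT n1) hn1 (hbT n1))
      · exact hb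
    obtain ⟨z, hz, h1⟩ := hP.gap b (fun z hz => h.le_r' (hΛ z hz) hb (hl z hz))
      fun n => h.le_r' hb (hT n) (hbT n)
    exact ⟨z, hz, Or.inr (Or.inl h1)⟩

omit h in
theorem ent_E {p : Raw} (hp : p.Ord) {k b x : At} (he : p.EntOK k b x) :
    p.E k ∧ p.E b ∧ p.E x := by
  obtain ⟨w, h1, h2⟩ := he.ub
  exact ⟨hp.left h1, hp.left h2, hp.left ((he.same w h1).1 h2)⟩

theorem ent_s {k b x : At} {c : Set ℕ} (he : s.ent k b c x) : (s.amal r U).EntOK k b x := by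
  have hE := h.hs.ent_ok he
  obtain ⟨ek, eb, ex⟩ := ent_E h.hs.toOrd hE
  refine ⟨Or.inl hE.one, hE.ub.imp fun w a => ⟨Or.inl a.1, Or.inl a.2⟩, fun w hw => ?_⟩
  rcases h.right hw with ew | ew
  · rw [h.oext_s.le_iff eb ew, h.oext_s.le_iff ex ew]
    exact hE.same w (h.le_s' ek ew hw)
  · by_cases hU : w ∈ U
    · exact iff_of_true (Or.inr (Or.inr (Or.inr ⟨eb, hU⟩))) (Or.inr (Or.inr (Or.inr ⟨ex, hU⟩)))
    · obtain ⟨β, hβ, _, h2⟩ := h.side_s ew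
      have h3 := h.le_r ew hU hw
      have h4 := h2 k ek h3
      refine ⟨fun a => ?_, fun a => ?_⟩
      · have a1 := h.le_r ew hU a
        exact Or.inr (Or.inl
          (((h.hr.ent_ok ((h.over β hβ).ent he h4 (h2 b eb a1))).same w h3).1 a1))
      · have a1 := h.le_r ew hU a
        exact Or.inr (Or.inl (((h.hr.ent_ok
          ((h.over β hβ).ent he h4 ((hE.same β h4).2 (h2 x ex a1)))).same w h3).2 a1))

theorem ent_r {k b x : At} {c : Set ℕ} (he : r.ent k b c x) : (s.amal r U).EntOK k b x := by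
  have hE := h.hr.ent_ok he
  obtain ⟨ek, eb, ex⟩ := ent_E h.hr.toOrd hE
  refine ⟨Or.inr (Or.inl hE.one), hE.ub.imp fun w a => ⟨Or.inr (Or.inl a.1), Or.inr (Or.inl a.2)⟩,
    fun w hw => ?_⟩
  rcases h.right hw with ew | ew
  · obtain ⟨w0, a1, a2⟩ := hE.ub
    obtain ⟨β, hβ, h1⟩ := h.side' (h.hr.right a1)
    obtain ⟨m, hm⟩ := h.hs.meet (h.hs.right (h.one β hβ)) ew
    have key : ∀ y, r.le y w0 → (s.amal r U).le y w → r.le y m := fun y b1 b2 => by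
      obtain ⟨μ, a4, a5⟩ := h.le_rs (h.hr.left b1) ew b2
      exact h.lift hβ a4 a5 (h1 y μ b1 a4 (h.hs.left a5)) hm
    have hk := hE.same m (key k a1 hw)
    exact ⟨fun a => Or.inr (Or.inr (Or.inl ⟨m, hk.1 (key b a2 a), hm.2.1⟩)),
      fun a => Or.inr (Or.inr (Or.inl ⟨m, hk.2 (key x ((hE.same w0 a1).1 a2) a), hm.2.1⟩))⟩
  · rw [h.oext_r.le_iff eb ew, h.oext_r.le_iff ex ew]
    exact hE.same w (h.le_r' ek ew hw)

theorem ent_fun_mixed {k b x x' : At} {c : Set ℕ} (he : s.ent k b c x) (he' : r.ent k b c x') :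
    x = x' := by
  obtain ⟨ek, eb, _⟩ := ent_E h.hs.toOrd (h.hs.ent_ok he)
  obtain ⟨w0, a1, a2⟩ := (h.hr.ent_ok he').ub
  obtain ⟨β, hβ, _, h2⟩ := h.side_s (h.hr.right a1)
  exact h.hr.ent_fun ((h.over β hβ).ent he (h2 k ek a1) (h2 b eb a2)) he'

theorem ent_inj_mixed {k b b' x : At} {c c' : Set ℕ} (he : s.ent k b c x)
    (he' : r.ent k b' c' x) : b = b' := by
  obtain ⟨ek, _, ex⟩ := ent_E h.hs.toOrd (h.hs.ent_ok he)
  obtain ⟨w0, a1, a2⟩ := (h.hr.ent_ok he').ub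
  obtain ⟨β, hβ, _, h2⟩ := h.side_s (h.hr.right a1)
  have a3 := h2 k ek a1
  have a4 := h2 x ex (((h.hr.ent_ok he').same w0 a1).1 a2)
  exact h.hr.ent_inj ((h.over β hβ).ent he a3 (((h.hs.ent_ok he).same β a3).2 a4)) he'

theorem lab_both {z w : At} {c : Set ℕ} (hl : s.lab z w c) (hw : r.E w) : r.lab z w c := by
  obtain ⟨β, hβ, h1⟩ := h.inter w (h.hs.right (h.hs.lab_le hl)) hw
  exact (h.over β hβ).lab hl h1

theorem g_both {x : At} {c : Set ℕ} {e : Bool} (hl : s.g x c e) (hx : r.E x) : r.g x c e := by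
  obtain ⟨β, hβ, h1⟩ := h.inter x (h.hs.g_E hl) hx
  exact (h.over β hβ).g hl h1

theorem ok : (s.amal r U).OK where
  toOrd := h.ord
  used_cnt := (h.hs.used_cnt.union h.hr.used_cnt).mono (by
    rintro c (⟨z, w, hc | hc⟩ | ⟨x, e, hc | hc⟩ | ⟨k, b, x, hc | hc⟩)
    exacts [Or.inl (Or.inl ⟨_, _, hc⟩), Or.inr (Or.inl ⟨_, _, hc⟩),
      Or.inl (Or.inr (Or.inl ⟨_, _, hc⟩)), Or.inr (Or.inr (Or.inl ⟨_, _, hc⟩)),
      Or.inl (Or.inr (Or.inr ⟨_, _, _, hc⟩)), Or.inr (Or.inr (Or.inr ⟨_, _, _, hc⟩))])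
  lab_le hl := hl.elim (fun a => Or.inl (h.hs.lab_le a)) fun a => Or.inr (Or.inl (h.hr.lab_le a))
  lab_inj := by
    rintro z z' w c (h1 | h1) (h2 | h2)
    · exact h.hs.lab_inj h1 h2
    · exact h.hr.lab_inj (h.lab_both h1 (h.hr.right (h.hr.lab_le h2))) h2
    · exact h.hr.lab_inj h1 (h.lab_both h2 (h.hr.right (h.hr.lab_le h1)))
    · exact h.hr.lab_inj h1 h2
  g_E hl := E_of (hl.imp h.hs.g_E h.hr.g_E)
  g_fun := by
    rintro x c e e' (h1 | h1) (h2 | h2)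
    · exact h.hs.g_fun h1 h2
    · exact h.hr.g_fun (h.g_both h1 (h.hr.g_E h2)) h2
    · exact h.hr.g_fun h1 (h.g_both h2 (h.hr.g_E h1))
    · exact h.hr.g_fun h1 h2
  code_ok hc := hc.elim h.code_s h.code_r
  code_fun := by
    rintro x d d' (h1 | h1) (h2 | h2)
    · exact h.hs.code_fun h1 h2
    · obtain ⟨d2, a1, a2⟩ := h.code_both h1 (h.hr.left ((h.hr.code_ok h2).below 0))
      exact (a2.and (h.hr.code_fun a1 h2)).mono fun n e => e.1.trans e.2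
    · obtain ⟨d2, a1, a2⟩ := h.code_both h2 (h.hr.left ((h.hr.code_ok h1).below 0))
      exact (a2.and (h.hr.code_fun h1 a1)).mono fun n e => e.2.trans e.1.symm
    · exact h.hr.code_fun h1 h2
  code_sep := by
    rintro x d x' d' (h1 | h1) (h2 | h2) hne
    · exact h.sep_s (h.hs.left ((h.hs.code_ok h1).below 0)) (h.hs.left ((h.hs.code_ok h2).below 0))
        (h.hs.code_sep h1 h2 hne)
    · exact h.sep_mixed h1 h2 hne
    · obtain ⟨b, a1, a2⟩ := h.sep_mixed h2 h1 hne.symm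
      exact ⟨b, a1, fun e => a2 e.symm⟩
    · exact h.sep_r (h.hr.left ((h.hr.code_ok h1).below 0)) (h.hr.left ((h.hr.code_ok h2).below 0))
        (h.hr.code_sep h1 h2 hne)
  prom_ok hp := hp.elim h.prom_s h.prom_r
  ent_ok he := he.elim h.ent_s h.ent_r
  ent_fun := by
    rintro k b c x x' (h1 | h1) (h2 | h2)
    · exact h.hs.ent_fun h1 h2
    · exact h.ent_fun_mixed h1 h2
    · exact (h.ent_fun_mixed h2 h1).symm
    · exact h.hr.ent_fun h1 h2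
  ent_inj := by
    rintro k b b' c c' x (h1 | h1) (h2 | h2)
    · exact h.hs.ent_inj h1 h2
    · exact h.ent_inj_mixed h1 h2
    · exact (h.ent_inj_mixed h2 h1).symm
    · exact h.hr.ent_inj h1 h2

end AmH

theorem AmH.main {s r : Raw} {B U : Set At} (h : AmH s r B U) :
    (s.amal r U).OK ∧ (s.amal r U).Ext s ∧ (s.amal r U).Ext r :=
  ⟨h.ok, ⟨h.oext_s, Or.inl, Or.inl, Or.inl, Or.inl, Or.inl⟩,
    ⟨h.oext_r, Or.inr, Or.inr, Or.inr, Or.inr, Or.inr⟩⟩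

end Vale.Agent.P323
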