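import Vale.Agent.P323.Supp

/-! P323: every name has a canonical one-atom support. -/

namespace Vale.Agent.P323

/-- The supports of `y` above `z1` are generated by a descending chain, for ever.
Plan: `exists_in`, then `closure` to get `q` such that every `z ∈ E q` satisfies
(i) `q.le z1 z → In q z y ∨ ∀ r ≤ q, ¬ In r z y` and
(ii) `(∃ b, q.le z1 b ∧ In q b y ∧ ¬ q.le z b) ∨ ∀ r ≤ q, ∀ b, r.le z1 b → In r b y → r.le z b`
(put `q.E z` into the monotone predicate). The set `𝓕 = {b | q.le z1 b ∧ In q b y}` is countable,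
nonempty and closed under meets (`in_meet` and (i)); let `T` be a descending cofinal chain in it,
`O = {o | q.le z1 o ∧ ∀ r ≤ q, ¬ In r o y}`,
`Λ = {z | q.E z ∧ ∀ r ≤ q, ∀ b, r.le z1 b → In r b y → r.le z b}` (contains `z1`). The promise
holds in `q` by (i), (ii); `add_prom`. Later, if `In r' b y` then `Λ ≤ b`, and the second
alternative of `Germ` is impossible by `in_meet` and `in_up`. -/
theorem exists_chain (p : Cond) {y : Nm Cond} (hy : HS y) :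
    ∃ q, q ≤ p ∧ ∃ T : ℕ → At, (∀ n, q.le z1 (T n)) ∧ (∀ n, q.le (T (n + 1)) (T n)) ∧
      (∀ n, In q (T n) y) ∧
      ∀ r, r ≤ q → ∀ b, r.le z1 b → In r b y → ∃ n, r.le (T n) b := by
  obtain ⟨p1, hp1, b0, hb0, hb0'⟩ := exists_in p hy
  obtain ⟨q, hq, hR⟩ := closure p1 (fun z q => q.E z ∧
      (q.le z1 z → In q z y ∨ ∀ r, r ≤ q → ¬ In r z y) ∧
      ((∃ b, q.le z1 b ∧ In q b y ∧ ¬ q.le z b) ∨
        ∀ r, r ≤ q → ∀ b, r.le z1 b → In r b y → r.le z b))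
    (by
      rintro z q r hr ⟨h0, h1, h2⟩
      refine ⟨Cond.E_of_le hr h0, fun h => (h1 (Cond.le_back hr q.ok.e1 h0 h)).imp
        (fun a => a.mono hr) fun a s hs => a s (hs.trans hr), h2.imp ?_ fun a s hs => a s (hs.trans hr)⟩
      rintro ⟨b, a1, a2, a3⟩
      exact ⟨b, Cond.le_of_le hr a1, a2.mono hr,
        fun a => a3 (Cond.le_back hr h0 (q.ok.right a1) a)⟩)
    (by
      intro z q _ hz
      have h1 : ∃ q1, q1 ≤ q ∧ (In q1 z y ∨ ∀ r, r ≤ q1 → ¬ In r z y) := by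
        by_cases h : ∃ r, r ≤ q ∧ In r z y
        · obtain ⟨r, hr, h⟩ := h
          exact ⟨r, hr, Or.inl h⟩
        · exact ⟨q, le_rfl, Or.inr fun r hr a => h ⟨r, hr, a⟩⟩
      obtain ⟨q1, hq1, h1⟩ := h1
      by_cases h : ∃ r, r ≤ q1 ∧ ∃ b, r.le z1 b ∧ In r b y ∧ ¬ r.le z b
      · obtain ⟨r, hr, h⟩ := h
        exact ⟨r, hr.trans hq1, Cond.E_of_le (hr.trans hq1) hz,
          fun _ => h1.imp (fun a => a.mono hr) fun a s hs => a s (hs.trans hr), Or.inl h⟩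
      · exact ⟨q1, hq1, Cond.E_of_le hq1 hz, fun _ => h1,
          Or.inr fun r hr b a1 a2 => by_contra fun a3 => h ⟨r, hr, b, a1, a2, a3⟩⟩)
  have hcnt : {b | q.le z1 b ∧ In q b y}.Countable := q.ok.cnt.mono fun b hb => q.ok.right hb.1
  obtain ⟨f, hf⟩ := hcnt.exists_eq_range ⟨b0, Cond.le_of_le hq hb0, hb0'.mono hq⟩
  have hdir : ∀ a b : {b | q.le z1 b ∧ In q b y}, ∃ d : {b | q.le z1 b ∧ In q b y},
      q.le d.1 a.1 ∧ q.le d.1 b.1 := by
    rintro ⟨a, a1, a2⟩ ⟨b, b1, b2⟩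
    obtain ⟨d, hd⟩ := q.ok.meet (q.ok.right a1) (q.ok.right b1)
    have d1 := hd.2.2 z1 a1 b1
    obtain ⟨r, hr, h⟩ := in_meet hy a1 b1 hd a2 b2
    exact ⟨⟨d, d1, ((hR d (q.ok.right d1)).2.1 d1).resolve_right fun a => a r hr h⟩, hd.1, hd.2.1⟩
  choose m hm1 hm2 using hdir
  have hfm : ∀ n, f n ∈ {b | q.le z1 b ∧ In q b y} := fun n => hf ▸ Set.mem_range_self n
  let T : ℕ → {b | q.le z1 b ∧ In q b y} := fun n =>
    Nat.rec ⟨f 0, hfm 0⟩ (fun n t => m t ⟨f (n + 1), hfm (n + 1)⟩) n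
  have hanti : ∀ n, q.le (T (n + 1)).1 (T n).1 := fun n => hm1 _ _
  have hcof : ∀ b, q.le z1 b → In q b y → ∃ n, q.le (T n).1 b := by
    intro b b1 b2
    have hb : b ∈ Set.range f := hf ▸ (⟨b1, b2⟩ : b ∈ {b | q.le z1 b ∧ In q b y})
    obtain ⟨n, rfl⟩ := hb
    refine ⟨n, ?_⟩
    rcases n with _ | n
    · exact q.ok.right b1
    · exact hm2 _ ⟨f (n + 1), hfm (n + 1)⟩
  have hz1 : z1 ∈ {z | q.E z ∧ ∀ r, r ≤ q → ∀ b, r.le z1 b → In r b y → r.le z b} :=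
    ⟨q.ok.e1, fun _ _ _ a _ => a⟩
  obtain ⟨q', hq', hP⟩ := add_prom q
    (Λ := {z | q.E z ∧ ∀ r, r ≤ q → ∀ b, r.le z1 b → In r b y → r.le z b})
    (T := fun n => (T n).1) (O := {o | q.le z1 o ∧ ∀ r, r ≤ q → ¬ In r o y})
    ⟨fun z hz n => hz.2 q le_rfl _ (T n).2.1 (T n).2.2, hanti, fun o ho => q.ok.right ho.1,
      fun b hb hl => ((hR b hb).2.1 (hl z1 hz1)).imp (hcof b (hl z1 hz1))
        fun a => ⟨0, b, ⟨hl z1 hz1, a⟩, fun _ a1 _ => a1⟩,
      fun b _ hT => by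
        have hb := q.ok.left (hT 0)
        rcases (hR b hb).2.2 with ⟨b', a1, a2, a3⟩ | a
        · obtain ⟨n, hn⟩ := hcof b' a1 a2
          exact (a3 (q.ok.trans (hT n) hn)).elim
        · exact ⟨b, ⟨hb, a⟩, hb⟩⟩
  refine ⟨q', hq'.trans (hq.trans hp1), fun n => (T n).1, fun n => Cond.le_of_le hq' (T n).2.1,
    fun n => Cond.le_of_le hq' (hanti n), fun n => (T n).2.2.mono hq', fun r hr b b1 b2 => ?_⟩
  have hrq := hr.trans hq'
  rcases (r.ok.prom_ok ((Cond.ext_of_le hr).prom hP)).germ b (r.ok.right b1)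
    (fun z hz => hz.2 r hrq b b1 b2) with h | ⟨n, o, ho, h⟩
  · exact h
  · have t1 := Cond.le_of_le hrq (T n).2.1
    obtain ⟨d, hd⟩ := r.ok.meet (r.ok.right b1) (r.ok.right t1)
    obtain ⟨r', hr', a1⟩ := in_meet hy b1 t1 hd b2 ((T n).2.2.mono hrq)
    obtain ⟨r'', hr'', a2⟩ := in_up a1 (Cond.le_of_le hr' (h d hd.1 hd.2.1))
    exact (ho.2 r'' (hr''.trans (hr'.trans hrq)) a2).elim

/-- `x` is the canonical support of `y`. -/
def Code (p : Cond) (x : At) (y : Nm Cond) : Prop :=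
  (∃ d, p.code x d) ∧ ∀ q, q ≤ p → ∀ b, q.le z1 b → (q.le x b ↔ ∃ r, r ≤ q ∧ In r b y)

theorem Code.mono {p q : Cond} {x : At} {y : Nm Cond} (h : Code p x y) (hq : q ≤ p) :
    Code q x y := by
  exact ⟨h.1.imp fun _ a => (Cond.ext_of_le hq).code a, fun r hr => h.2 r (hr.trans hq)⟩

theorem Code.congr {p : Cond} {x : At} {y y' : Nm Cond} (h : Code p x y) (e : Eqv p y y') :
    Code p x y' := by
  refine ⟨h.1, fun q hq b hb => (h.2 q hq b hb).trans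
    (exists_congr fun r => and_congr_right fun hr => ?_)⟩
  exact ⟨fun a => a.congr (e.mono (hr.trans hq)), fun a => a.congr (e.mono (hr.trans hq)).symm⟩

theorem Code.smul {p : Cond} {x : At} {y : Nm Cond} (h : Code p x y) (π : Gam) :
    Code (π • p) (π • x) (π • y) := by
  obtain ⟨d, hd⟩ := h.1
  refine ⟨⟨_, Cond.smul_code_smul.2 hd⟩, fun q hq b hb => ?_⟩
  obtain ⟨q, rfl⟩ : ∃ q', q = π • q' := ⟨π⁻¹ • q, (smul_inv_smul π q).symm⟩
  obtain ⟨b, rfl⟩ : ∃ b', b = π • b' := ⟨π⁻¹ • b, (smul_inv_smul π b).symm⟩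
  rw [smul_le_smul_iff'] at hq
  rw [← smul_z1 π, Cond.smul_le_smul] at hb
  rw [Cond.smul_le_smul, h.2 q hq b hb]
  refine ⟨fun ⟨r, hr, a⟩ => ⟨π • r, Sys.smul_mono π hr, a.smul π⟩,
    fun ⟨r, hr, a⟩ => ⟨π⁻¹ • r, (le_smul_iff' π).1 hr, ?_⟩⟩
  have a' := a.smul π⁻¹
  rwa [inv_smul_smul, inv_smul_smul] at a'

theorem Code.E {p : Cond} {x : At} {y : Nm Cond} (h : Code p x y) : p.E x := by
  obtain ⟨d, hd⟩ := h.1
  exact p.ok.left ((p.ok.code_ok hd).below 0)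

/-- Plan: `code_sep`. -/
theorem Code.unique {p : Cond} {x x' : At} {y : Nm Cond} (h : Code p x y) (h' : Code p x' y) :
    x = x' := by
  obtain ⟨d, hd⟩ := h.1
  obtain ⟨d', hd'⟩ := h'.1
  by_contra hne
  obtain ⟨b, hb, hn⟩ := p.ok.code_sep hd hd' hne
  exact hn ((h.2 p le_rfl b hb).trans (h'.2 p le_rfl b hb).symm)

/-- Plan: `exists_chain`, `add_code`, `label_all`; then `In q (d n) y` for all `n`
(`in_of_sym` applied to the witness for `T m`). `mixing` with `{x}`: if `π` fixes `x` and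
`t ≤ q, π • q` then `code_fun` in `t` gives `n` with `π • d n = d n`. -/
theorem exists_code (p : Cond) {y : Nm Cond} (hy : HS y) :
    ∃ q, q ≤ p ∧ ∃ x, Code q x y ∧ In q x y := by
  obtain ⟨q1, hq1, T, t1, t2, t3, t4⟩ := exists_chain p hy
  obtain ⟨q2, hq2, x, d, hc, hx, hd⟩ := add_code q1 T t1 t2
  obtain ⟨q3, hq3, hl⟩ := label_all q2
  have h31 := hq3.trans hq2
  have hc3 := (Cond.ext_of_le hq3).code hc
  have hin : ∀ n, In q3 (d n) y := fun n => by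
    obtain ⟨m, hm⟩ := hd n
    obtain ⟨τ, a1, a2, a3⟩ := t3 m
    exact (in_of_sym a1 a2 fun z hz => by
      rw [Set.mem_singleton_iff.1 hz]; exact hl _ _ hm).congr (a3.mono h31).symm
  refine ⟨q3, h31.trans hq1, x, ⟨⟨d, hc3⟩, fun q hq b hb => ⟨fun a => ?_, ?_⟩⟩,
    mixing hy (Set.countable_singleton x) fun π hπ t ht ht' => ?_⟩
  · obtain ⟨n, hn⟩ := (q.ok.code_ok ((Cond.ext_of_le hq).code hc3)).cof b hb a
    exact in_up ((hin n).mono hq) hn
  · rintro ⟨r, hr, a⟩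
    obtain ⟨n, hn⟩ := t4 r (hr.trans (hq.trans h31)) b (Cond.le_of_le hr hb) a
    have a1 := Cond.le_of_le (hq.trans hq3) (hx n)
    exact Cond.le_back hr (q.ok.left a1) (q.ok.right hb) (r.ok.trans (Cond.le_of_le hr a1) hn)
  · have a1 := (Cond.ext_of_le ht').code (Cond.smul_code_smul.2 hc3)
    rw [hπ x rfl] at a1
    obtain ⟨n, hn⟩ := (t.ok.code_fun ((Cond.ext_of_le ht).code hc3) a1).exists
    obtain ⟨τ, -, a2, a3⟩ := hin n
    exact ((a3.smul π).mono ht').trans ((a2 π (fun a ha => by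
      rw [Set.mem_singleton_iff.1 ha]; exact hn.symm) t).trans (a3.mono ht).symm)

end Vale.Agent.P323
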