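import Vale.Agent.P323.Names
import Mathlib.Order.Filter.AtTopBot.Basic
import Mathlib.Algebra.Group.Subgroup.Actions
import Mathlib.Algebra.Group.Action.End
import Mathlib.GroupTheory.Perm.Basic
import Mathlib.SetTheory.Cardinal.Arithmetic

/-! P323: the forcing conditions.

A condition is a countable meet-semilattice on a set of atoms (`le x x` says that `x` is in the
field `E`), with bottom `z0` and a marked element `z1`, together with
* labels `lab z w c` (the atom `z ≤ w` is the `c`-th atom below `w`),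
* a Cohen-type function `g`,
* codes `code x d` (the atom `x` lies below exactly those `b ≥ z1` that lie above some `d n`),
* promises `prom Λ T O` (no new element above `Λ` gets a new position relative to the chain `T`),
* entries `ent k b c x` (above `k`, the atom `x` has the same upper bounds as `b`). -/

namespace Vale.Agent.P323

open Filter

/-- Atoms. -/
structure At : Type where
  val : Set ℕ

def z0 : At := ⟨∅⟩
def z1 : At := ⟨Set.univ⟩

theorem z0_ne_z1 : z0 ≠ z1 := fun h => by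
  have : (0 : ℕ) ∈ z1.val := trivial
  rw [← h] at this
  exact this

theorem not_countable_univ_set : ¬ (Set.univ : Set (Set ℕ)).Countable := by
  intro h
  obtain ⟨f, hf⟩ := (Set.countable_univ_iff.1 h).exists_injective_nat
  exact Function.cantor_injective f hf

theorem exists_fresh_label {S : Set (Set ℕ)} (h : S.Countable) : ∃ c, c ∉ S := by
  by_contra h'
  exact not_countable_univ_set (h.mono fun c _ => by_contra fun hc => h' ⟨c, hc⟩)

theorem exists_fresh {S : Set At} (h : S.Countable) : ∃ x, x ∉ S := by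
  obtain ⟨c, hc⟩ := exists_fresh_label (h.image At.val)
  exact ⟨⟨c⟩, fun hx => hc ⟨_, hx, rfl⟩⟩

/-- The group: permutations of the atoms fixing `z0` and `z1`. -/
def GamS : Subgroup (Equiv.Perm At) where
  carrier := {π | π z0 = z0 ∧ π z1 = z1}
  mul_mem' := fun {a b} ha hb => by
    simp only [Set.mem_ofPred_eq, Equiv.Perm.coe_mul, Function.comp_apply] at *
    rw [hb.1, hb.2]; exact ha
  one_mem' := ⟨rfl, rfl⟩
  inv_mem' := fun {a} ha => by
    simp only [Set.mem_ofPred_eq] at *
    exact ⟨Equiv.Perm.inv_eq_iff_eq.2 ha.1.symm, Equiv.Perm.inv_eq_iff_eq.2 ha.2.symm⟩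

def Gam : Type := GamS

instance : Group Gam := inferInstanceAs (Group GamS)
instance : MulAction Gam At := inferInstanceAs (MulAction GamS At)

@[simp] theorem smul_z0 (π : Gam) : π • z0 = z0 := π.2.1
@[simp] theorem smul_z1 (π : Gam) : π • z1 = z1 := π.2.2

/-- Raw data of a condition. -/
@[ext] structure Raw : Type where
  le : At → At → Prop
  lab : At → At → Set ℕ → Prop
  g : At → Set ℕ → Bool → Prop
  code : At → (ℕ → At) → Prop
  prom : Set At → (ℕ → At) → Set At → Prop
  ent : At → At → Set ℕ → At → Prop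

namespace Raw

/-- The field of the order. -/
def E (p : Raw) (x : At) : Prop := p.le x x

def IsMeet (p : Raw) (m x y : At) : Prop :=
  p.le m x ∧ p.le m y ∧ ∀ u, p.le u x → p.le u y → p.le u m

/-- The labels used by `p`. -/
def used (p : Raw) : Set (Set ℕ) :=
  {c | (∃ z w, p.lab z w c) ∨ (∃ x e, p.g x c e) ∨ ∃ k b x, p.ent k b c x}

def Germ (p : Raw) (T : ℕ → At) (O : Set At) (b : At) : Prop :=
  (∃ n, p.le (T n) b) ∨ ∃ n, ∃ o ∈ O, ∀ y, p.le y b → p.le y (T n) → p.le y o

def Gap (p : Raw) (Λ : Set At) (T : ℕ → At) (b : At) : Prop :=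
  (∀ n, p.le b (T n)) → ∃ z ∈ Λ, p.le b z

/-- The order part of being a condition. -/
structure Ord (p : Raw) : Prop where
  cnt : {x | p.E x}.Countable
  left : ∀ {x y}, p.le x y → p.E x
  right : ∀ {x y}, p.le x y → p.E y
  trans : ∀ {x y z}, p.le x y → p.le y z → p.le x z
  antisymm : ∀ {x y}, p.le x y → p.le y x → x = y
  bot : ∀ {x}, p.E x → p.le z0 x
  e1 : p.E z1
  meet : ∀ {x y}, p.E x → p.E y → ∃ m, p.IsMeet m x y

/-- The code `(x, d)` is correct in `p`. -/
structure CodeOK (p : Raw) (x : At) (d : ℕ → At) : Prop where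
  one : ∀ n, p.le z1 (d n)
  below : ∀ n, p.le x (d n)
  anti : ∀ n, p.le (d (n + 1)) (d n)
  cof : ∀ b, p.le z1 b → p.le x b → ∃ n, p.le (d n) b

/-- The promise `(Λ, T, O)` holds in `p`. -/
structure PromOK (p : Raw) (Λ : Set At) (T : ℕ → At) (O : Set At) : Prop where
  low : ∀ z ∈ Λ, ∀ n, p.le z (T n)
  anti : ∀ n, p.le (T (n + 1)) (T n)
  out : ∀ o ∈ O, p.E o
  germ : ∀ b, p.E b → (∀ z ∈ Λ, p.le z b) → p.Germ T O b
  gap : ∀ b, (∀ z ∈ Λ, p.le z b) → p.Gap Λ T b

/-- The entry `(k, b, x)` is correct in `p`. -/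
structure EntOK (p : Raw) (k b x : At) : Prop where
  one : p.le z1 k
  ub : ∃ w, p.le k w ∧ p.le b w
  same : ∀ w, p.le k w → (p.le b w ↔ p.le x w)

/-- Being a condition. -/
structure OK (p : Raw) : Prop extends p.Ord where
  used_cnt : p.used.Countable
  lab_le : ∀ {z w c}, p.lab z w c → p.le z w
  lab_inj : ∀ {z z' w c}, p.lab z w c → p.lab z' w c → z = z'
  g_E : ∀ {x c e}, p.g x c e → p.E x
  g_fun : ∀ {x c e e'}, p.g x c e → p.g x c e' → e = e'
  code_ok : ∀ {x d}, p.code x d → p.CodeOK x d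
  code_fun : ∀ {x d d'}, p.code x d → p.code x d' → ∀ᶠ n in atTop, d n = d' n
  code_sep : ∀ {x d x' d'}, p.code x d → p.code x' d' → x ≠ x' →
    ∃ b, p.le z1 b ∧ ¬ (p.le x b ↔ p.le x' b)
  prom_ok : ∀ {Λ T O}, p.prom Λ T O → p.PromOK Λ T O
  ent_ok : ∀ {k b c x}, p.ent k b c x → p.EntOK k b x
  ent_fun : ∀ {k b c x x'}, p.ent k b c x → p.ent k b c x' → x = x'
  ent_inj : ∀ {k b b' c c' x}, p.ent k b c x → p.ent k b' c' x → b = b'

/-- The order of `q` extends that of `p`, preserving meets. -/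
structure OExt (q p : Raw) : Prop where
  le_iff : ∀ {x y}, p.E x → p.E y → (q.le x y ↔ p.le x y)
  meet : ∀ {m x y}, p.IsMeet m x y → q.IsMeet m x y

/-- `q` extends `p`. -/
structure Ext (q p : Raw) : Prop extends q.OExt p where
  lab : ∀ {z w c}, p.lab z w c → q.lab z w c
  g : ∀ {x c e}, p.g x c e → q.g x c e
  code : ∀ {x d}, p.code x d → q.code x d
  prom : ∀ {Λ T O}, p.prom Λ T O → q.prom Λ T O
  ent : ∀ {k b c x}, p.ent k b c x → q.ent k b c x

instance : SMul Gam Raw where
  smul π p :=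
    { le := fun x y => p.le (π⁻¹ • x) (π⁻¹ • y)
      lab := fun z w c => p.lab (π⁻¹ • z) (π⁻¹ • w) c
      g := fun x c e => p.g (π⁻¹ • x) c e
      code := fun x d => p.code (π⁻¹ • x) (fun n => π⁻¹ • d n)
      prom := fun Λ T O => p.prom {z | π • z ∈ Λ} (fun n => π⁻¹ • T n) {z | π • z ∈ O}
      ent := fun k b c x => p.ent (π⁻¹ • k) (π⁻¹ • b) c (π⁻¹ • x) }

variable {π : Gam} {p q : Raw}

theorem smul_le {x y} : (π • p).le x y ↔ p.le (π⁻¹ • x) (π⁻¹ • y) := Iff.rfl
theorem smul_E {x} : (π • p).E x ↔ p.E (π⁻¹ • x) := Iff.rfl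
theorem smul_lab {z w c} : (π • p).lab z w c ↔ p.lab (π⁻¹ • z) (π⁻¹ • w) c := Iff.rfl
theorem smul_g {x c e} : (π • p).g x c e ↔ p.g (π⁻¹ • x) c e := Iff.rfl
theorem smul_code {x d} : (π • p).code x d ↔ p.code (π⁻¹ • x) (fun n => π⁻¹ • d n) := Iff.rfl
theorem smul_prom {Λ T O} : (π • p).prom Λ T O ↔
    p.prom {z | π • z ∈ Λ} (fun n => π⁻¹ • T n) {z | π • z ∈ O} := Iff.rfl
theorem smul_ent {k b c x} : (π • p).ent k b c x ↔ p.ent (π⁻¹ • k) (π⁻¹ • b) c (π⁻¹ • x) :=
  Iff.rfl

instance : MulAction Gam Raw where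
  one_smul p := by
    ext <;> simp [smul_le, smul_lab, smul_g, smul_code, smul_prom, smul_ent]
  mul_smul π ρ p := by
    ext <;> simp [smul_le, smul_lab, smul_g, smul_code, smul_prom, smul_ent, mul_smul]

theorem smul_isMeet {m x y} : (π • p).IsMeet m x y ↔ p.IsMeet (π⁻¹ • m) (π⁻¹ • x) (π⁻¹ • y) := by
  refine and_congr_right fun _ => and_congr_right fun _ => ⟨fun h u h1 h2 => ?_, fun h u => h _⟩
  simpa [smul_le] using h (π • u) (by simpa [smul_le] using h1) (by simpa [smul_le] using h2)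

theorem Ord.smul (h : p.Ord) (π : Gam) : (π • p).Ord where
  cnt := Set.Countable.mono (s₂ := (fun x => π • x) '' {x | p.E x})
    (fun x hx => ⟨π⁻¹ • x, hx, smul_inv_smul π x⟩) (h.cnt.image _)
  left := h.left
  right := h.right
  trans := h.trans
  antisymm h1 h2 := by simpa using h.antisymm h1 h2
  bot hx := by simpa [smul_le] using h.bot hx
  e1 := by simpa [smul_E] using h.e1
  meet hx hy := by
    obtain ⟨m, hm⟩ := h.meet hx hy
    exact ⟨π • m, by simpa [smul_isMeet] using hm⟩

theorem OK.smul (h : p.OK) (π : Gam) : (π • p).OK where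
  toOrd := h.toOrd.smul π
  used_cnt := h.used_cnt.mono (by
    rintro c (⟨z, w, hc⟩ | ⟨x, e, hc⟩ | ⟨k, b, x, hc⟩)
    exacts [Or.inl ⟨_, _, hc⟩, Or.inr (Or.inl ⟨_, _, hc⟩), Or.inr (Or.inr ⟨_, _, _, hc⟩)])
  lab_le hl := h.lab_le hl
  lab_inj h1 h2 := by simpa using h.lab_inj h1 h2
  g_E hg := h.g_E hg
  g_fun h1 h2 := h.g_fun h1 h2
  code_ok hc := by
    have := h.code_ok hc
    refine ⟨fun n => by simpa [smul_le] using this.one n, this.below, this.anti, fun b h1 h2 => ?_⟩
    exact this.cof _ (by simpa [smul_le] using h1) h2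
  code_fun h1 h2 := (h.code_fun h1 h2).mono fun n e => by simpa using e
  code_sep h1 h2 hx := by
    obtain ⟨b, hb, hn⟩ := h.code_sep h1 h2 (by simpa using hx)
    exact ⟨π • b, by simpa [smul_le] using hb, by simpa [smul_le] using hn⟩
  prom_ok {Λ T O} hp := by
    have := h.prom_ok hp
    have hl : ∀ {b}, (∀ z ∈ Λ, (π • p).le z b) → ∀ z ∈ {z | π • z ∈ Λ}, p.le z (π⁻¹ • b) :=
      fun hb z hz => by simpa [smul_le] using hb _ hz
    refine ⟨fun z hz n => this.low _ (by simpa using hz) n, this.anti,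
      fun o ho => this.out _ (by simpa using ho), fun b hb hΛ => ?_, fun b hΛ hT => ?_⟩
    · rcases this.germ _ hb (hl hΛ) with h1 | ⟨n, o, ho, h1⟩
      · exact Or.inl h1
      · exact Or.inr ⟨n, π • o, ho, fun y hy hy' => by simpa [smul_le] using h1 _ hy hy'⟩
    · obtain ⟨z, hz, h1⟩ := this.gap _ (hl hΛ) hT
      exact ⟨π • z, hz, by simpa [smul_le] using h1⟩
  ent_ok he := by
    have := h.ent_ok he
    obtain ⟨w, h1, h2⟩ := this.ub
    exact ⟨by simpa [smul_le] using this.one,
      ⟨π • w, by simpa [smul_le] using h1, by simpa [smul_le] using h2⟩, fun w hw => this.same _ hw⟩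
  ent_fun h1 h2 := by simpa using h.ent_fun h1 h2
  ent_inj h1 h2 := by simpa using h.ent_inj h1 h2

theorem OExt.refl (p : Raw) : p.OExt p := ⟨fun _ _ => Iff.rfl, id⟩

theorem OExt.E (h : q.OExt p) {x} (hx : p.E x) : q.E x := (h.le_iff hx hx).2 hx

theorem OExt.trans {r : Raw} (h : r.OExt q) (h' : q.OExt p) : r.OExt p :=
  ⟨fun hx hy => (h.le_iff (h'.E hx) (h'.E hy)).trans (h'.le_iff hx hy), fun hm => h.meet (h'.meet hm)⟩

theorem Ext.refl (p : Raw) : p.Ext p := ⟨OExt.refl p, id, id, id, id, id⟩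

theorem Ext.trans {r : Raw} (h : r.Ext q) (h' : q.Ext p) : r.Ext p :=
  ⟨h.toOExt.trans h'.toOExt, fun a => h.lab (h'.lab a), fun a => h.g (h'.g a),
    fun a => h.code (h'.code a), fun a => h.prom (h'.prom a), fun a => h.ent (h'.ent a)⟩

theorem Ext.smul (h : q.Ext p) (π : Gam) : (π • q).Ext (π • p) :=
  ⟨⟨fun hx hy => h.le_iff hx hy, fun hm => smul_isMeet.2 (h.meet (smul_isMeet.1 hm))⟩,
    fun a => h.lab a, fun a => h.g a, fun a => h.code a, fun a => h.prom a, fun a => h.ent a⟩

/-- The trivial condition. -/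
def top : Raw where
  le x y := (x = z0 ∧ (y = z0 ∨ y = z1)) ∨ (x = z1 ∧ y = z1)
  lab _ _ _ := False
  g _ _ _ := False
  code _ _ := False
  prom _ _ _ := False
  ent _ _ _ _ := False

theorem top_E {x} : top.E x ↔ x = z0 ∨ x = z1 := by
  simp only [E, top]; tauto

theorem top_ok : top.OK where
  cnt := ((Set.finite_singleton z1).insert z0).countable.mono fun _ hx => top_E.1 hx
  left h := top_E.2 (by simp only [top] at h; tauto)
  right h := top_E.2 (by simp only [top] at h; tauto)
  trans h1 h2 := by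
    have := z0_ne_z1
    simp only [top] at *
    grind
  antisymm h1 h2 := by
    have := z0_ne_z1
    simp only [top] at *
    grind
  bot h := Or.inl ⟨rfl, top_E.1 h⟩
  e1 := top_E.2 (Or.inr rfl)
  meet {x y} hx hy := by
    have := z0_ne_z1
    rw [top_E] at hx hy
    by_cases h : x = z1 ∧ y = z1
    · exact ⟨z1, by simp only [IsMeet, top]; grind⟩
    · exact ⟨z0, by simp only [IsMeet, top]; grind⟩
  used_cnt := Set.countable_empty.mono (by simp [used, top])
  lab_le := False.elim
  lab_inj := False.elim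
  g_E := False.elim
  g_fun := False.elim
  code_ok := False.elim
  code_fun := False.elim
  code_sep := False.elim
  prom_ok := False.elim
  ent_ok := False.elim
  ent_fun := False.elim
  ent_inj := False.elim

theorem Ord.z01 (h : p.Ord) : p.le z0 z1 := h.bot h.e1

theorem Ord.e0 (h : p.Ord) : p.E z0 := h.left h.z01

theorem Ord.not_z10 (h : p.Ord) : ¬ p.le z1 z0 := fun h' => z0_ne_z1 (h.antisymm h.z01 h')

theorem ext_top (h : p.Ord) : p.Ext top := by
  have h0 := z0_ne_z1
  have h1 := h.z01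
  have h2 : p.le z0 z0 := h.e0
  have h3 : p.le z1 z1 := h.e1
  have h4 := h.not_z10
  refine ⟨⟨fun hx hy => ?_, fun {m x y} hm => ?_⟩, False.elim, False.elim, False.elim, False.elim,
    False.elim⟩
  · rw [top_E] at hx hy
    simp only [top]
    grind
  · have a1 := hm.1
    have a2 := hm.2.1
    have a3 := hm.2.2 z1
    simp only [top] at a1 a2 a3
    refine ⟨by grind, by grind, fun u b1 b2 => by grind⟩

theorem smul_top (π : Gam) : π • top = top := by
  ext <;> simp [smul_le, smul_lab, smul_g, smul_code, smul_prom, smul_ent, top, inv_smul_eq_iff]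

end Raw

/-- Conditions. -/
structure Cond : Type extends Raw where
  ok : toRaw.OK

namespace Cond

instance : Preorder Cond where
  le q p := q.toRaw.Ext p.toRaw
  le_refl _ := Raw.Ext.refl _
  le_trans _ _ _ := Raw.Ext.trans

instance : OrderTop Cond where
  top := ⟨Raw.top, Raw.top_ok⟩
  le_top p := Raw.ext_top p.ok.toOrd

instance : SMul Gam Cond := ⟨fun π p => ⟨π • p.toRaw, p.ok.smul π⟩⟩

theorem smul_toRaw (π : Gam) (p : Cond) : (π • p).toRaw = π • p.toRaw := rfl

theorem ext' {p q : Cond} (h : p.toRaw = q.toRaw) : p = q := by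
  cases p; cases q; congr

instance : MulAction Gam Cond where
  one_smul p := ext' (one_smul _ _)
  mul_smul π ρ p := ext' (mul_smul π ρ p.toRaw)

instance : Sys Cond Gam where
  smul_mono π _ _ h := Raw.Ext.smul h π
  smul_top π := ext' (Raw.smul_top π)

instance : Atoms Cond At where

variable {p q : Cond} {π : Gam}

theorem le_def : q ≤ p ↔ q.toRaw.Ext p.toRaw := Iff.rfl

theorem ext_of_le (h : q ≤ p) : q.toRaw.Ext p.toRaw := h

theorem le_of_le (h : q ≤ p) {x y} (hxy : p.le x y) : q.le x y :=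
  ((ext_of_le h).le_iff (p.ok.left hxy) (p.ok.right hxy)).2 hxy

theorem E_of_le (h : q ≤ p) {x} (hx : p.E x) : q.E x := le_of_le h hx

theorem le_back (h : q ≤ p) {x y} (hx : p.E x) (hy : p.E y) (hxy : q.le x y) : p.le x y :=
  ((ext_of_le h).le_iff hx hy).1 hxy

theorem smul_le_smul {x y} : (π • p).le (π • x) (π • y) ↔ p.le x y := by
  simp [smul_toRaw, Raw.smul_le]

theorem smul_E_smul {x} : (π • p).E (π • x) ↔ p.E x := smul_le_smul

theorem smul_isMeet_smul {m x y} :
    (π • p).IsMeet (π • m) (π • x) (π • y) ↔ p.IsMeet m x y := by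
  simp [smul_toRaw, Raw.smul_isMeet]

theorem smul_lab_smul {z w c} : (π • p).lab (π • z) (π • w) c ↔ p.lab z w c := by
  simp [smul_toRaw, Raw.smul_lab]

theorem smul_g_smul {x c e} : (π • p).g (π • x) c e ↔ p.g x c e := by
  simp [smul_toRaw, Raw.smul_g]

theorem smul_code_smul {x d} : (π • p).code (π • x) (fun n => π • d n) ↔ p.code x d := by
  simp [smul_toRaw, Raw.smul_code]

theorem smul_ent_smul {k b c x} : (π • p).ent (π • k) (π • b) c (π • x) ↔ p.ent k b c x := by
  simp [smul_toRaw, Raw.smul_ent]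

end Cond

end Vale.Agent.P323
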