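import Vale.Agent.P323.Amalg

/-! P323: amalgamation with a fresh copy. -/

namespace Vale.Agent.P323

theorem Raw.Ord.meet_self {p : Raw} (h : p.Ord) {δ β : At} (hm : p.IsMeet δ β β) : δ = β :=
  h.antisymm hm.1 (hm.2.2 β (h.right hm.1) (h.right hm.1))

theorem Raw.Ord.meet_unique {p : Raw} (h : p.Ord) {δ δ' x y : At} (hm : p.IsMeet δ x y)
    (hm' : p.IsMeet δ' x y) : δ = δ' :=
  h.antisymm (hm'.2.2 δ hm.1 hm.2.1) (hm.2.2 δ' hm'.1 hm'.2.1)

theorem Raw.IsMeet.swap {p : Raw} {δ x y : At} (hm : p.IsMeet δ x y) : p.IsMeet δ y x :=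
  ⟨hm.2.1, hm.1, fun u h1 h2 => hm.2.2 u h2 h1⟩

theorem Cond.cnt_below (q : Cond) (a : At) : {z | q.le z a}.Countable :=
  q.ok.cnt.mono fun _ hz => q.ok.left hz

/-- A copy of `q` over `a`, amalgamated with an extension `r` of `q` and put below `U`.
Plan: `exists_gam` with `S = {z | q.le z a}`, `K = E q`, `N = E r`, `f = id`; `AmH` with
`s = π • q`, `B = {a}`, `over_of_fix`. -/
theorem copy_pl {q r : Cond} {a k : At} (hr : r ≤ q) (ha : q.le z1 a) (U : Set At)
    (up : ∀ y ∈ U, ∀ w, r.le y w → w ∈ U)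
    (mt : ∀ y ∈ U, ∀ y' ∈ U, ∀ m, r.IsMeet m y y' → m ∈ U)
    (hk : ∀ y ∈ U, r.le a k ∧ ¬ r.le k a ∧ r.le k y) :
    ∃ (π : Gam) (t : Cond), (∀ z, q.le z a → π • z = z) ∧
      (∀ z, q.E z → r.E (π • z) → q.le z a) ∧ t ≤ r ∧ t ≤ π • q ∧
      t.toRaw = (π • q).toRaw.amal r.toRaw U := by
  obtain ⟨π, hfix, hout⟩ := exists_gam (q.cnt_below a) q.ok.cnt r.ok.cnt id (Set.injOn_id _)
    (q.ok.bot (q.ok.right ha)) ha rfl rfl
  have hfr : ∀ z, q.E z → r.E (π • z) → q.le z a := fun z hz hz' =>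
    by_contra fun h => hout z hz h hz'
  have haa : π • a = a := hfix a (q.ok.right ha)
  have H : AmH (π • q).toRaw r.toRaw {a} U :=
    { hs := (π • q).ok
      hr := r.ok
      one := by
        rintro _ rfl
        have := (Cond.smul_le_smul (π := π)).2 ha
        rwa [smul_z1, haa] at this
      over := by
        rintro _ rfl
        exact over_of_fix ha hr hfix
      inter := fun x hx hx' => ⟨a, rfl, by
        have := (Cond.smul_le_smul (π := π)).2 (hfr (π⁻¹ • x) hx (by rwa [smul_inv_smul]))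
        rwa [smul_inv_smul, haa] at this⟩
      h0 := by
        rintro _ rfl _ rfl δ hδ y hy _
        rwa [(π • q).ok.toOrd.meet_self hδ]
      side := fun _ _ => ⟨a, rfl, by
        rintro y _ _ rfl hy
        exact hy⟩
      U_up := up
      U_meet := mt
      U_k := fun y hy => ⟨k, by
        rintro _ rfl
        exact ⟨(hk y hy).1, (hk y hy).2.1⟩, fun y' hy' => (hk y' hy').2.2⟩ }
  exact ⟨π, ⟨_, H.main.1⟩, hfix, hfr, H.main.2.2, H.main.2.1, rfl⟩

/-- The case `U = ∅`. Plan: `copy_pl` and unfolding `Raw.amal`; an element of both fields is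
below `a` in `π • q` and in `r`. -/
theorem copy_am {q r : Cond} {a : At} (hr : r ≤ q) (ha : q.le z1 a) :
    ∃ (π : Gam) (t : Cond), (∀ z, q.le z a → π • z = z) ∧
      (∀ z, q.E z → r.E (π • z) → q.le z a) ∧ t ≤ r ∧ t ≤ π • q ∧
      (∀ y z, t.le y z → r.E z → r.le y z) ∧
      (∀ y z, t.le y z → r.E y → (π • q).E z → r.le y a) ∧
      ∀ z, t.E z → r.E z ∨ (π • q).E z := by
  obtain ⟨π, t, hfix, hfr, h1, h2, ht⟩ := copy_pl (k := a) hr ha ∅ (by simp) (by simp) (by simp)
  have hinv : ∀ x, q.le (π⁻¹ • x) a → π⁻¹ • x = x := fun x hx => by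
    have := hfix _ hx
    rw [smul_inv_smul] at this
    exact this.symm
  have hboth : ∀ x, (π • q).E x → r.E x → q.le (π⁻¹ • x) a := fun x hx hx' =>
    hfr _ hx (by rwa [smul_inv_smul])
  have hA : ∀ x, (π • q).E x → r.E x → r.le x a := fun x hx hx' => by
    have := hboth x hx hx'
    rw [hinv x this] at this
    exact Cond.le_of_le hr this
  have hB : ∀ y z, (π • q).le y z → r.E z → r.le y z := fun y z hyz hz => by
    have h3 := hboth z ((π • q).ok.right hyz) hz
    have h4 : q.le (π⁻¹ • y) (π⁻¹ • z) := hyz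
    rw [hinv y (q.ok.trans h4 h3), hinv z h3] at h4
    exact Cond.le_of_le hr h4
  have hle : ∀ y z, t.le y z →
      (π • q).le y z ∨ r.le y z ∨ ∃ μ, r.le y μ ∧ (π • q).le μ z := fun y z h => by
    rw [ht] at h
    rcases h with h | h | h | h
    exacts [Or.inl h, Or.inr (Or.inl h), Or.inr (Or.inr h), h.2.elim]
  refine ⟨π, t, hfix, hfr, h1, h2, fun y z h hz => ?_, fun y z h hy hz => ?_, fun z h => ?_⟩
  · rcases hle y z h with h | h | ⟨μ, h, h'⟩
    exacts [hB y z h hz, h, r.ok.trans h (hB μ z h' hz)]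
  · rcases hle y z h with h | h | ⟨μ, h, h'⟩
    exacts [hA y ((π • q).ok.left h) hy, r.ok.trans h (hA z hz (r.ok.right h)),
      r.ok.trans h (hA μ ((π • q).ok.left h') (r.ok.right h))]
  · rcases hle z z h with h | h | ⟨μ, h, _⟩
    exacts [Or.inr h, Or.inl h, Or.inl (r.ok.left h)]

/-- Two-sided copy: the combinatorial heart of finite intersection of supports. If `b` and
`ρ • b` are independent over `d = b ∧ b'` in a common extension `t` of `q` and `ρ • q`, there are
copies `σ₁ • q` over `b` and `σ₂ • q` over `ρ • b` sharing the same copy of `b'`.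
Plan: `copy_am` for `(q, t, b)` gives `σ₁` and `u₁`. By `exists_gam` take `σ₂` equal to `ρ` on
`{z | q.le z b}`, to `σ₁` on `{z | q.le z b'}` (both fix the part below `d`; injective since
`ρ • z` lies in `E t` while `σ₁ • z'` does so only for `z' ≤ b`), moving the rest of `E q` out of
`E u₁`. Apply `AmH.main` with `s = σ₂ • q`, `r = u₁`, `B = {ρ • b, σ₁ • b'}`, `U = ∅`,
`over_of_le` twice. `h0`: the `s`-meet of the two points is `d`; if `y` is below both in `u₁` then
`y ∈ E t`, so `y ≤ b`, so `y ≤ d` (meet in `σ₁ • q`). `side`: for `z ∈ E t` take `ρ • b`, otherwise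
take `σ₁ • b'` and use `hm`. -/
theorem copy_two {q t : Cond} {b b' d : At} {ρ : Gam} (hb : q.le z1 b) (hb' : q.le z1 b')
    (hd : q.IsMeet d b b') (hρ : ∀ z, q.le z d → ρ • z = z) (h1 : t ≤ q) (h2 : t ≤ ρ • q)
    (hm : t.IsMeet d b (ρ • b)) :
    ∃ (σ₁ σ₂ : Gam) (u : Cond), u ≤ t ∧ u ≤ σ₁ • q ∧ u ≤ σ₂ • q ∧ σ₁ • b = b ∧ σ₂ • b = ρ • b ∧
      σ₂ • b' = σ₁ • b' := by
  classical
  obtain ⟨σ₁, u₁, fix1, fr1, hu1, hu2, A5, A6, A7⟩ := copy_am h1 hb
  have Eb : q.E b := q.ok.right hb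
  have Eb' : q.E b' := q.ok.right hb'
  have hEρ : ∀ z, q.E z → t.E (ρ • z) := fun z hz => Cond.E_of_le h2 (Cond.smul_E_smul.2 hz)
  obtain ⟨σ₂, hf, hout⟩ := exists_gam (S := {z | q.le z b} ∪ {z | q.le z b'})
    ((q.cnt_below b).union (q.cnt_below b')) q.ok.cnt u₁.ok.cnt
    (fun z => if q.le z b then ρ • z else σ₁ • z) (by
      have key : ∀ z z', q.le z b → z' ∈ {z | q.le z b} ∪ {z | q.le z b'} → ρ • z = σ₁ • z' →
          q.le z' b := fun z z' hz hz' e =>
        fr1 z' (hz'.elim q.ok.left q.ok.left) (e ▸ hEρ z (q.ok.left hz))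
      intro z hz z' hz' e
      dsimp only at e
      split_ifs at e with c1 c2 c2
      · exact smul_left_cancel ρ e
      · exact absurd (key z z' c1 hz' e) c2
      · exact absurd (key z' z c2 hz e.symm) c1
      · exact smul_left_cancel σ₁ e)
    (Or.inl (q.ok.bot Eb)) (Or.inl hb) (by simp) (by simp)
  have hσb : ∀ z, q.le z b → σ₂ • z = ρ • z := fun z hz => by
    rw [hf z (Or.inl hz), if_pos hz]
  have hσb' : ∀ z, q.le z b' → σ₂ • z = σ₁ • z := fun z hz => by
    rw [hf z (Or.inr hz)]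
    split_ifs with c
    · rw [hρ z (hd.2.2 z c hz), fix1 z c]
    · rfl
  have e1 := hσb b Eb
  have e2 := hσb' b' Eb'
  have ed : σ₂ • d = d := by rw [hσb d hd.1, hρ d (q.ok.left hd.1)]
  have ed1 : σ₁ • d = d := fix1 d hd.1
  have key : ∀ y z, u₁.le y (ρ • b) → u₁.le y z → (σ₁ • q).E z → u₁.le y d := fun y z hy hz hE => by
    have h3 := A5 y _ hy (hEρ b Eb)
    exact Cond.le_of_le hu1 (hm.2.2 y (A6 y z hz (t.ok.left h3) hE) h3)
  have Es : (σ₁ • q).E (σ₁ • b') := Cond.smul_E_smul.2 Eb'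
  have hms : (σ₂ • q).IsMeet d (σ₂ • b) (σ₂ • b') := ed ▸ Cond.smul_isMeet_smul.2 hd
  have hm1 : u₁.IsMeet d b (σ₁ • b') := by
    have := (Cond.ext_of_le hu2).meet ((Cond.smul_isMeet_smul (π := σ₁)).2 hd)
    rwa [ed1, fix1 b Eb] at this
  have H : AmH (σ₂ • q).toRaw u₁.toRaw {σ₂ • b, σ₂ • b'} ∅ :=
    { hs := (σ₂ • q).ok
      hr := u₁.ok
      one := by
        rintro _ (rfl | rfl)
        · have := (Cond.smul_le_smul (π := σ₂)).2 hb
          rwa [smul_z1] at this
        · have := (Cond.smul_le_smul (π := σ₂)).2 hb'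
          rwa [smul_z1] at this
      over := by
        rintro _ (rfl | rfl)
        exacts [over_of_le hb (hu1.trans h2) hσb, over_of_le hb' hu2 hσb']
      inter := fun x hx hx' => by
        have h3 : σ₂⁻¹ • x ∈ {z | q.le z b} ∪ {z | q.le z b'} :=
          by_contra fun h => hout _ hx h (by rwa [smul_inv_smul])
        rcases h3 with h3 | h3
        · have := (Cond.smul_le_smul (π := σ₂)).2 h3
          rw [smul_inv_smul] at this
          exact ⟨_, Or.inl rfl, this⟩
        · have := (Cond.smul_le_smul (π := σ₂)).2 h3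
          rw [smul_inv_smul] at this
          exact ⟨_, Or.inr rfl, this⟩
      h0 := by
        rintro _ (rfl | rfl) _ (rfl | rfl) δ hδ y hy hy'
        · rwa [(σ₂ • q).ok.toOrd.meet_self hδ]
        · rw [(σ₂ • q).ok.toOrd.meet_unique hδ hms]
          exact key y _ (e1 ▸ hy) (e2 ▸ hy') Es
        · rw [(σ₂ • q).ok.toOrd.meet_unique hδ hms.swap]
          exact key y _ (e1 ▸ hy') (e2 ▸ hy) Es
        · rwa [(σ₂ • q).ok.toOrd.meet_self hδ]
      side := fun z hz => by
        rcases A7 z hz with hz | hz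
        · refine ⟨_, Or.inl rfl, ?_⟩
          rintro y hy _ (rfl | rfl) hy'
          · exact hy'
          · rw [e2] at hy'
            rw [e1]
            have h3 := A6 y _ hy' (t.ok.left (A5 y z hy hz)) Es
            exact u₁.ok.trans (hm1.2.2 y (Cond.le_of_le hu1 h3) hy') (Cond.le_of_le hu1 hm.2.1)
        · refine ⟨_, Or.inr rfl, ?_⟩
          rintro y hy _ (rfl | rfl) hy'
          · rw [e1] at hy'
            rw [e2]
            exact u₁.ok.trans (key y z hy' hy hz) hm1.2.1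
          · exact hy'
      U_up := by simp
      U_meet := by simp
      U_k := by simp }
  have hu : (⟨_, H.main.1⟩ : Cond) ≤ u₁ := H.main.2.2
  exact ⟨σ₁, σ₂, ⟨_, H.main.1⟩, hu.trans hu1, hu.trans hu2, H.main.2.1, fix1 b Eb, e1, e2⟩

end Vale.Agent.P323
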