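import Mathlib.Data.Nat.Notation

/-! P323: the statement. First-order set theory, ZF, PP and AC over a structure `(M, mem)`. -/

namespace Vale.Agent.P323

/-- First-order formulas in the language of set theory (de Bruijn variables). -/
inductive Fm : Type
  | mem : ℕ → ℕ → Fm
  | eq : ℕ → ℕ → Fm
  | falsum : Fm
  | imp : Fm → Fm → Fm
  | all : Fm → Fm

/-- Push a value in front of an assignment. -/
def cons {α : Type _} (x : α) (v : ℕ → α) : ℕ → α
  | 0 => x
  | n + 1 => v n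

/-- Tarski satisfaction in the structure `(M, mem)` with true equality. -/
def Sat {M : Type} (mem : M → M → Prop) : Fm → (ℕ → M) → Prop
  | .mem i j, v => mem (v i) (v j)
  | .eq i j, v => v i = v j
  | .falsum, _ => False
  | .imp φ ψ, v => Sat mem φ v → Sat mem ψ v
  | .all φ, v => ∀ x, Sat mem φ (cons x v)

/-- `(M, mem)` is a model of ZF. -/
structure ZF {M : Type} (mem : M → M → Prop) : Prop where
  ext : ∀ x y, (∀ z, mem z x ↔ mem z y) → x = y
  found : ∀ x, (∃ z, mem z x) → ∃ y, mem y x ∧ ∀ z, mem z y → ¬ mem z x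
  pair : ∀ a b, ∃ u, ∀ t, mem t u ↔ (t = a ∨ t = b)
  union : ∀ x, ∃ u, ∀ t, mem t u ↔ ∃ y, mem y x ∧ mem t y
  power : ∀ x, ∃ u, ∀ t, mem t u ↔ ∀ z, mem z t → mem z x
  inf : ∃ I, (∃ e, mem e I ∧ ∀ t, ¬ mem t e) ∧
    ∀ x, mem x I → ∃ y, mem y I ∧ ∀ t, mem t y ↔ (mem t x ∨ t = x)
  sep : ∀ (φ : Fm) (v : ℕ → M) (x : M), ∃ y, ∀ z, mem z y ↔ (mem z x ∧ Sat mem φ (cons z v))
  repl : ∀ (φ : Fm) (v : ℕ → M) (x : M),
    (∀ u, mem u x → ∀ w w', Sat mem φ (cons w (cons u v)) → Sat mem φ (cons w' (cons u v)) →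
      w = w') →
    ∃ y, ∀ w, mem w y ↔ ∃ u, mem u x ∧ Sat mem φ (cons w (cons u v))

/-- `u = {a, b}`. -/
def IsDbl {M : Type} (mem : M → M → Prop) (u a b : M) : Prop :=
  ∀ t, mem t u ↔ (t = a ∨ t = b)

/-- `w` is the Kuratowski pair `{{a}, {a, b}}`. -/
def IsPair {M : Type} (mem : M → M → Prop) (w a b : M) : Prop :=
  ∀ u, mem u w ↔ (IsDbl mem u a a ∨ IsDbl mem u a b)

/-- `(a, b) ∈ f`. -/
def App {M : Type} (mem : M → M → Prop) (f a b : M) : Prop :=
  ∃ w, mem w f ∧ IsPair mem w a b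

/-- `f` is a function from `X` to `Y`. -/
def IsFunc {M : Type} (mem : M → M → Prop) (f X Y : M) : Prop :=
  (∀ w, mem w f → ∃ a b, mem a X ∧ mem b Y ∧ IsPair mem w a b) ∧
  (∀ a, mem a X → ∃ b, mem b Y ∧ App mem f a b) ∧
  (∀ a b b', App mem f a b → App mem f a b' → b = b')

/-- The Partition Principle: a surjection `X → Y` gives an injection `Y → X`. -/
def PP {M : Type} (mem : M → M → Prop) : Prop :=
  ∀ X Y, (∃ f, IsFunc mem f X Y ∧ ∀ b, mem b Y → ∃ a, mem a X ∧ App mem f a b) →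
    ∃ j, IsFunc mem j Y X ∧ ∀ a a' b, App mem j a b → App mem j a' b → a = a'

/-- The Axiom of Choice: every family of nonempty sets has a choice function. -/
def AC {M : Type} (mem : M → M → Prop) : Prop :=
  ∀ F, (∀ S, mem S F → ∃ x, mem x S) →
    ∃ c, (∀ S, mem S F → ∃ x, mem x S ∧ App mem c S x) ∧
      ∀ S x x', App mem c S x → App mem c S x' → x = x'

end Vale.Agent.P323
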