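import Vale.Agent.P323.Cond

/-! P323: elementary extensions of conditions and countable closure. -/

namespace Vale.Agent.P323

open Filter

/-- The order of `p` with a new top element `x`. -/
def d1Top (p : Raw) (x : At) : Raw :=
  { p with le := fun u w => p.le u w ∨ (w = x ∧ (p.E u ∨ u = x)) }

section Top

variable {p : Raw} {x : At}

theorem d1_le {u w : At} : (d1Top p x).le u w ↔ p.le u w ∨ (w = x ∧ (p.E u ∨ u = x)) := Iff.rfl

theorem d1_E {u : At} : (d1Top p x).E u ↔ p.E u ∨ u = x := by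
  constructor
  · rintro (h | ⟨h, _⟩)
    exacts [Or.inl h, Or.inr h]
  · rintro (h | h)
    exacts [Or.inl h, Or.inr ⟨h, Or.inr h⟩]

theorem d1_old (hx : ¬ p.E x) {u w : At} (hw : p.E w) : (d1Top p x).le u w ↔ p.le u w := by
  refine ⟨?_, Or.inl⟩
  rintro (h | ⟨h, _⟩)
  · exact h
  · exact absurd (h ▸ hw) hx

theorem d1_top {u : At} (hu : (d1Top p x).E u) : (d1Top p x).le u x := Or.inr ⟨rfl, d1_E.1 hu⟩

theorem d1_meet (hp : p.Ord) (hx : ¬ p.E x) {m a b : At} (h : p.IsMeet m a b) :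
    (d1Top p x).IsMeet m a b :=
  ⟨Or.inl h.1, Or.inl h.2.1, fun u h1 h2 => Or.inl (h.2.2 u
    ((d1_old hx (hp.right h.1)).1 h1) ((d1_old hx (hp.right h.2.1)).1 h2))⟩

theorem d1_ord (hp : p.Ord) (hx : ¬ p.E x) : (d1Top p x).Ord := by
  have hl : ∀ {u w}, (d1Top p x).le u w → (d1Top p x).E u := by
    rintro u w (h | ⟨_, h⟩)
    · exact d1_E.2 (Or.inl (hp.left h))
    · exact d1_E.2 h
  have hr : ∀ {u w}, (d1Top p x).le u w → (d1Top p x).E w := by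
    rintro u w (h | ⟨h, _⟩)
    · exact d1_E.2 (Or.inl (hp.right h))
    · exact d1_E.2 (Or.inr h)
  refine ⟨?_, hl, hr, ?_, ?_, ?_, d1_E.2 (Or.inl hp.e1), ?_⟩
  · refine (hp.cnt.insert x).mono fun u hu => ?_
    rcases d1_E.1 hu with h | h
    exacts [Or.inr h, Or.inl h]
  · intro a b c h1 h2
    rcases d1_E.1 (hr h2) with hc | hc
    · have h3 := (d1_old hx hc).1 h2
      exact Or.inl (hp.trans ((d1_old hx (hp.left h3)).1 h1) h3)
    · subst hc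
      exact d1_top (hl h1)
  · intro a b h1 h2
    rcases d1_E.1 (hr h1) with hb | hb
    · have h3 := (d1_old hx hb).1 h1
      exact hp.antisymm h3 ((d1_old hx (hp.left h3)).1 h2)
    · rcases d1_E.1 (hr h2) with ha | ha
      · exact absurd (hb ▸ hp.left ((d1_old hx ha).1 h2)) hx
      · rw [ha, hb]
  · intro a ha
    rcases d1_E.1 ha with h | h
    · exact Or.inl (hp.bot h)
    · exact Or.inr ⟨h, Or.inl hp.e0⟩
  · intro a b ha hb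
    rcases d1_E.1 ha with h | h
    · rcases d1_E.1 hb with h' | h'
      · obtain ⟨m, hm⟩ := hp.meet h h'
        exact ⟨m, d1_meet hp hx hm⟩
      · subst h'
        exact ⟨a, ha, d1_top ha, fun u h1 _ => h1⟩
    · subst h
      exact ⟨b, d1_top hb, hb, fun u _ h2 => h2⟩

theorem d1_ok (hp : p.OK) (hx : ¬ p.E x) : (d1Top p x).OK where
  toOrd := d1_ord hp.toOrd hx
  used_cnt := hp.used_cnt
  lab_le h := Or.inl (hp.lab_le h)
  lab_inj := hp.lab_inj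
  g_E h := d1_E.2 (Or.inl (hp.g_E h))
  g_fun := hp.g_fun
  code_ok {y d} h := by
    have := hp.code_ok h
    refine ⟨fun n => Or.inl (this.one n), fun n => Or.inl (this.below n),
      fun n => Or.inl (this.anti n), fun b h1 h2 => ?_⟩
    rcases d1_E.1 ((d1_ord hp.toOrd hx).right h1) with hb | hb
    · obtain ⟨n, hn⟩ := this.cof b ((d1_old hx hb).1 h1) ((d1_old hx hb).1 h2)
      exact ⟨n, Or.inl hn⟩
    · exact ⟨0, Or.inr ⟨hb, Or.inl (hp.right (this.one 0))⟩⟩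
  code_fun := hp.code_fun
  code_sep h1 h2 hne := by
    obtain ⟨b, hb, hn⟩ := hp.code_sep h1 h2 hne
    refine ⟨b, Or.inl hb, ?_⟩
    rwa [d1_old hx (hp.right hb), d1_old hx (hp.right hb)]
  prom_ok {Λ T O} h := by
    have := hp.prom_ok h
    have hT : ∀ n, p.E (T n) := fun n => hp.right (this.anti n)
    refine ⟨fun z hz n => Or.inl (this.low z hz n), fun n => Or.inl (this.anti n),
      fun o ho => d1_E.2 (Or.inl (this.out o ho)), fun b hb hΛ => ?_, fun b hΛ hb => ?_⟩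
    · rcases d1_E.1 hb with h' | h'
      · rcases this.germ b h' (fun z hz => (d1_old hx h').1 (hΛ z hz)) with
          ⟨n, hn⟩ | ⟨n, o, ho, hn⟩
        · exact Or.inl ⟨n, Or.inl hn⟩
        · exact Or.inr ⟨n, o, ho, fun y h1 h2 =>
            Or.inl (hn y ((d1_old hx h').1 h1) ((d1_old hx (hT n)).1 h2))⟩
      · exact Or.inl ⟨0, Or.inr ⟨h', Or.inl (hT 0)⟩⟩
    · have h' : ∀ n, p.le b (T n) := fun n => (d1_old hx (hT n)).1 (hb n)
      have hE := hp.left (h' 0)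
      obtain ⟨z, hz, h1⟩ := this.gap b (fun z hz => (d1_old hx hE).1 (hΛ z hz)) h'
      exact ⟨z, hz, Or.inl h1⟩
  ent_ok {k b c y} h := by
    have := hp.ent_ok h
    obtain ⟨w, h1, h2⟩ := this.ub
    refine ⟨Or.inl this.one, ⟨w, Or.inl h1, Or.inl h2⟩, fun u hu => ?_⟩
    rcases d1_E.1 ((d1_ord hp.toOrd hx).right hu) with h' | h'
    · rw [d1_old hx h', d1_old hx h']
      exact this.same u ((d1_old hx h').1 hu)
    · exact ⟨fun _ => Or.inr ⟨h', Or.inl (hp.left ((this.same w h1).1 h2))⟩,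
        fun _ => Or.inr ⟨h', Or.inl (hp.left h2)⟩⟩
  ent_fun := hp.ent_fun
  ent_inj := hp.ent_inj

end Top

/-- A new top element. -/
theorem add_top (p : Cond) {x : At} (hx : ¬ p.E x) :
    ∃ q : Cond, q ≤ p ∧ q.E x ∧ ∀ z, q.E z → q.le z x :=
  ⟨⟨d1Top p.toRaw x, d1_ok p.ok hx⟩,
    ⟨⟨fun _ hy => d1_old hx hy, d1_meet p.ok.toOrd hx⟩, id, id, id, id, id⟩,
    d1_E.2 (Or.inr rfl), fun _ hz => d1_top hz⟩

theorem add_lab (p : Cond) {z w : At} (h : p.le z w) : ∃ q : Cond, q ≤ p ∧ ∃ c, q.lab z w c := by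
  obtain ⟨c, hc⟩ := exists_fresh_label p.ok.used_cnt
  have hp := p.ok
  have hn : ∀ a b, ¬ p.lab a b c := fun a b h => hc (Or.inl ⟨a, b, h⟩)
  refine ⟨⟨{ p.toRaw with lab := fun a b e => p.lab a b e ∨ (a = z ∧ b = w ∧ e = c) },
    ⟨⟨hp.cnt, hp.left, hp.right, hp.trans, hp.antisymm, hp.bot, hp.e1, hp.meet⟩, ?_, ?_, ?_,
      hp.g_E, hp.g_fun, fun a => ?_, hp.code_fun, hp.code_sep, fun a => ?_, fun a => ?_,
      hp.ent_fun, hp.ent_inj⟩⟩, ⟨⟨fun _ _ => Iff.rfl, id⟩, Or.inl, id, id, id, id⟩, c,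
      Or.inr ⟨rfl, rfl, rfl⟩⟩
  · refine (hp.used_cnt.insert c).mono ?_
    rintro e (⟨a, b, h1 | ⟨_, _, h1⟩⟩ | h1)
    exacts [Or.inr (Or.inl ⟨a, b, h1⟩), Or.inl h1, Or.inr (Or.inr h1)]
  · rintro a b e (h1 | ⟨rfl, rfl, rfl⟩)
    exacts [hp.lab_le h1, h]
  · rintro a a' b e (h1 | ⟨rfl, rfl, rfl⟩) (h2 | ⟨h2, h3, h4⟩)
    · exact hp.lab_inj h1 h2
    · exact absurd (h4 ▸ h1) (hn _ _)
    · exact absurd h2 (hn _ _)
    · exact h2.symm
  · exact ⟨(hp.code_ok a).one, (hp.code_ok a).below, (hp.code_ok a).anti, (hp.code_ok a).cof⟩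
  · exact ⟨(hp.prom_ok a).low, (hp.prom_ok a).anti, (hp.prom_ok a).out, (hp.prom_ok a).germ,
      (hp.prom_ok a).gap⟩
  · exact ⟨(hp.ent_ok a).one, (hp.ent_ok a).ub, (hp.ent_ok a).same⟩

theorem add_g (p : Cond) {x x' : At} (hx : p.E x) (hx' : p.E x') (h : x ≠ x') :
    ∃ q : Cond, q ≤ p ∧ ∃ c, q.g x c true ∧ q.g x' c false := by
  obtain ⟨c, hc⟩ := exists_fresh_label p.ok.used_cnt
  have hp := p.ok
  have hn : ∀ a e, ¬ p.g a c e := fun a e h => hc (Or.inr (Or.inl ⟨a, e, h⟩))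
  refine ⟨⟨{ p.toRaw with
      g := fun a l e => p.g a l e ∨ (l = c ∧ ((a = x ∧ e = true) ∨ (a = x' ∧ e = false))) },
    ⟨⟨hp.cnt, hp.left, hp.right, hp.trans, hp.antisymm, hp.bot, hp.e1, hp.meet⟩, ?_, hp.lab_le,
      hp.lab_inj, ?_, ?_, fun a => ?_, hp.code_fun, hp.code_sep, fun a => ?_, fun a => ?_,
      hp.ent_fun, hp.ent_inj⟩⟩, ⟨⟨fun _ _ => Iff.rfl, id⟩, id, Or.inl, id, id, id⟩, c,
      Or.inr ⟨rfl, Or.inl ⟨rfl, rfl⟩⟩, Or.inr ⟨rfl, Or.inr ⟨rfl, rfl⟩⟩⟩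
  · refine (hp.used_cnt.insert c).mono ?_
    rintro e (h1 | ⟨a, b, h1 | ⟨h1, _⟩⟩ | h1)
    exacts [Or.inr (Or.inl h1), Or.inr (Or.inr (Or.inl ⟨a, b, h1⟩)), Or.inl h1,
      Or.inr (Or.inr (Or.inr h1))]
  · rintro a l e (h1 | ⟨_, ⟨rfl, _⟩ | ⟨rfl, _⟩⟩)
    exacts [hp.g_E h1, hx, hx']
  · rintro a l e e' (h1 | ⟨rfl, h1⟩) (h2 | ⟨h3, h2⟩)
    · exact hp.g_fun h1 h2
    · exact absurd (h3 ▸ h1) (hn _ _)
    · exact absurd h2 (hn _ _)
    · rcases h1 with ⟨h1, rfl⟩ | ⟨h1, rfl⟩ <;> rcases h2 with ⟨h2, rfl⟩ | ⟨h2, rfl⟩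
      · rfl
      · exact absurd (h1.symm.trans h2) h
      · exact absurd (h2.symm.trans h1) h
      · rfl
  · exact ⟨(hp.code_ok a).one, (hp.code_ok a).below, (hp.code_ok a).anti, (hp.code_ok a).cof⟩
  · exact ⟨(hp.prom_ok a).low, (hp.prom_ok a).anti, (hp.prom_ok a).out, (hp.prom_ok a).germ,
      (hp.prom_ok a).gap⟩
  · exact ⟨(hp.ent_ok a).one, (hp.ent_ok a).ub, (hp.ent_ok a).same⟩

theorem add_prom (p : Cond) {Λ : Set At} {T : ℕ → At} {O : Set At} (h : p.PromOK Λ T O) :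
    ∃ q : Cond, q ≤ p ∧ q.prom Λ T O := by
  have hp := p.ok
  refine ⟨⟨{ p.toRaw with prom := fun a b e => p.prom a b e ∨ (a = Λ ∧ b = T ∧ e = O) },
    ⟨⟨hp.cnt, hp.left, hp.right, hp.trans, hp.antisymm, hp.bot, hp.e1, hp.meet⟩, hp.used_cnt,
      hp.lab_le, hp.lab_inj, hp.g_E, hp.g_fun, fun a => ?_, hp.code_fun, hp.code_sep, ?_,
      fun a => ?_, hp.ent_fun, hp.ent_inj⟩⟩, ⟨⟨fun _ _ => Iff.rfl, id⟩, id, id, id, Or.inl, id⟩,
      Or.inr ⟨rfl, rfl, rfl⟩⟩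
  · exact ⟨(hp.code_ok a).one, (hp.code_ok a).below, (hp.code_ok a).anti, (hp.code_ok a).cof⟩
  · rintro a b e (a | ⟨rfl, rfl, rfl⟩)
    · exact ⟨(hp.prom_ok a).low, (hp.prom_ok a).anti, (hp.prom_ok a).out, (hp.prom_ok a).germ,
        (hp.prom_ok a).gap⟩
    · exact ⟨h.low, h.anti, h.out, h.germ, h.gap⟩
  · exact ⟨(hp.ent_ok a).one, (hp.ent_ok a).ub, (hp.ent_ok a).same⟩

theorem add_ent (p : Cond) {k b x : At} (h : p.EntOK k b x) (hx : ∀ b' c', ¬ p.ent k b' c' x) :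
    ∃ q : Cond, q ≤ p ∧ ∃ c, q.ent k b c x := by
  obtain ⟨c, hc⟩ := exists_fresh_label p.ok.used_cnt
  have hp := p.ok
  have hn : ∀ a e y, ¬ p.ent a e c y := fun a e y h => hc (Or.inr (Or.inr ⟨a, e, y, h⟩))
  refine ⟨⟨{ p.toRaw with
      ent := fun a e l y => p.ent a e l y ∨ (a = k ∧ e = b ∧ l = c ∧ y = x) },
    ⟨⟨hp.cnt, hp.left, hp.right, hp.trans, hp.antisymm, hp.bot, hp.e1, hp.meet⟩, ?_, hp.lab_le,
      hp.lab_inj, hp.g_E, hp.g_fun, fun a => ?_, hp.code_fun, hp.code_sep, fun a => ?_, ?_,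
      ?_, ?_⟩⟩, ⟨⟨fun _ _ => Iff.rfl, id⟩, id, id, id, id, Or.inl⟩, c,
      Or.inr ⟨rfl, rfl, rfl, rfl⟩⟩
  · refine (hp.used_cnt.insert c).mono ?_
    rintro e (h1 | h1 | ⟨a, l, y, h1 | ⟨_, _, h1, _⟩⟩)
    exacts [Or.inr (Or.inl h1), Or.inr (Or.inr (Or.inl h1)),
      Or.inr (Or.inr (Or.inr ⟨a, l, y, h1⟩)), Or.inl h1]
  · exact ⟨(hp.code_ok a).one, (hp.code_ok a).below, (hp.code_ok a).anti, (hp.code_ok a).cof⟩
  · exact ⟨(hp.prom_ok a).low, (hp.prom_ok a).anti, (hp.prom_ok a).out, (hp.prom_ok a).germ,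
      (hp.prom_ok a).gap⟩
  · rintro a e l y (a | ⟨rfl, rfl, rfl, rfl⟩)
    · exact ⟨(hp.ent_ok a).one, (hp.ent_ok a).ub, (hp.ent_ok a).same⟩
    · exact ⟨h.one, h.ub, h.same⟩
  · rintro a e l y y' (h1 | ⟨rfl, rfl, rfl, rfl⟩) (h2 | ⟨h2, h3, h4, h5⟩)
    · exact hp.ent_fun h1 h2
    · exact absurd (h4 ▸ h1) (hn _ _ _)
    · exact absurd h2 (hn _ _ _)
    · exact h5.symm
  · rintro a e e' l l' y (h1 | ⟨rfl, rfl, rfl, rfl⟩) (h2 | ⟨h2, h3, h4, h5⟩)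
    · exact hp.ent_inj h1 h2
    · subst h2 h5
      exact absurd h1 (hx _ _)
    · exact absurd h2 (hx _ _)
    · exact h3.symm

/-- The union of a sequence of conditions. -/
def d1Un (f : ℕ → Cond) : Raw where
  le x y := ∃ n, (f n).le x y
  lab z w c := ∃ n, (f n).lab z w c
  g x c e := ∃ n, (f n).g x c e
  code x d := ∃ n, (f n).code x d
  prom Λ T O := ∃ n, (f n).prom Λ T O
  ent k b c x := ∃ n, (f n).ent k b c x

section Chain

variable {f : ℕ → Cond}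

theorem d1_up (hf : Antitone f) {m n : ℕ} (h : m ≤ n) {x y : At} (hxy : (f m).le x y) :
    (f n).le x y := Cond.le_of_le (hf h) hxy

theorem d1_ev (hf : Antitone f) {x y : At} (h : (d1Un f).le x y) : ∀ᶠ n in atTop, (f n).le x y := by
  obtain ⟨m, hm⟩ := h
  exact (eventually_ge_atTop m).mono fun n hn => d1_up hf hn hm

theorem d1_back (hf : Antitone f) {n : ℕ} {x y : At} (hx : (f n).E x) (hy : (f n).E y)
    (h : (d1Un f).le x y) : (f n).le x y := by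
  obtain ⟨m, h1, h2⟩ := ((d1_ev hf h).and (eventually_ge_atTop n)).exists
  exact Cond.le_back (hf h2) hx hy h1

theorem d1_umeet (hf : Antitone f) {n : ℕ} {m a b : At} (h : (f n).IsMeet m a b) :
    (d1Un f).IsMeet m a b := by
  refine ⟨⟨n, h.1⟩, ⟨n, h.2.1⟩, fun u h1 h2 => ?_⟩
  obtain ⟨k, ⟨h3, h4⟩, h5⟩ := (((d1_ev hf h1).and (d1_ev hf h2)).and (eventually_ge_atTop n)).exists
  exact ⟨k, ((Cond.ext_of_le (hf h5)).meet h).2.2 u h3 h4⟩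

theorem d1_uord (hf : Antitone f) : (d1Un f).Ord where
  cnt := (Set.countable_iUnion fun n => (f n).ok.cnt).mono fun x ⟨n, hn⟩ =>
    Set.mem_iUnion.2 ⟨n, hn⟩
  left := fun ⟨n, h⟩ => ⟨n, (f n).ok.left h⟩
  right := fun ⟨n, h⟩ => ⟨n, (f n).ok.right h⟩
  trans h1 h2 := by
    obtain ⟨k, h3, h4⟩ := ((d1_ev hf h1).and (d1_ev hf h2)).exists
    exact ⟨k, (f k).ok.trans h3 h4⟩
  antisymm h1 h2 := by
    obtain ⟨k, h3, h4⟩ := ((d1_ev hf h1).and (d1_ev hf h2)).exists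
    exact (f k).ok.antisymm h3 h4
  bot := fun ⟨n, h⟩ => ⟨n, (f n).ok.bot h⟩
  e1 := ⟨0, (f 0).ok.e1⟩
  meet h1 h2 := by
    obtain ⟨k, h3, h4⟩ := ((d1_ev hf h1).and (d1_ev hf h2)).exists
    obtain ⟨m, hm⟩ := (f k).ok.meet h3 h4
    exact ⟨m, d1_umeet hf hm⟩

theorem d1_uok (hf : Antitone f) : (d1Un f).OK where
  toOrd := d1_uord hf
  used_cnt := (Set.countable_iUnion fun n => (f n).ok.used_cnt).mono (by
    rintro c (⟨z, w, n, h⟩ | ⟨x, e, n, h⟩ | ⟨k, b, x, n, h⟩) <;> refine Set.mem_iUnion.2 ⟨n, ?_⟩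
    exacts [Or.inl ⟨z, w, h⟩, Or.inr (Or.inl ⟨x, e, h⟩), Or.inr (Or.inr ⟨k, b, x, h⟩)])
  lab_le := fun ⟨n, h⟩ => ⟨n, (f n).ok.lab_le h⟩
  lab_inj := fun ⟨n, h⟩ ⟨m, h'⟩ => (f (max n m)).ok.lab_inj
    ((Cond.ext_of_le (hf (le_max_left _ _))).lab h) ((Cond.ext_of_le (hf (le_max_right _ _))).lab h')
  g_E := fun ⟨n, h⟩ => ⟨n, (f n).ok.g_E h⟩
  g_fun := fun ⟨n, h⟩ ⟨m, h'⟩ => (f (max n m)).ok.g_fun
    ((Cond.ext_of_le (hf (le_max_left _ _))).g h) ((Cond.ext_of_le (hf (le_max_right _ _))).g h')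
  code_ok {x d} := fun ⟨n, h⟩ => by
    have := (f n).ok.code_ok h
    refine ⟨fun k => ⟨n, this.one k⟩, fun k => ⟨n, this.below k⟩, fun k => ⟨n, this.anti k⟩,
      fun b h1 h2 => ?_⟩
    obtain ⟨k, ⟨h3, h4⟩, h5⟩ :=
      (((d1_ev hf h1).and (d1_ev hf h2)).and (eventually_ge_atTop n)).exists
    obtain ⟨j, hj⟩ := ((f k).ok.code_ok ((Cond.ext_of_le (hf h5)).code h)).cof b h3 h4
    exact ⟨j, k, hj⟩
  code_fun := fun ⟨n, h⟩ ⟨m, h'⟩ => (f (max n m)).ok.code_fun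
    ((Cond.ext_of_le (hf (le_max_left _ _))).code h)
    ((Cond.ext_of_le (hf (le_max_right _ _))).code h')
  code_sep := fun ⟨n, h⟩ ⟨m, h'⟩ hne => by
    have a1 := (Cond.ext_of_le (hf (le_max_left n m))).code h
    have a2 := (Cond.ext_of_le (hf (le_max_right n m))).code h'
    have ok := (f (max n m)).ok
    obtain ⟨b, hb, hn⟩ := ok.code_sep a1 a2 hne
    have e1 := ok.left ((ok.code_ok a1).below 0)
    have e2 := ok.left ((ok.code_ok a2).below 0)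
    refine ⟨b, ⟨_, hb⟩, fun hi => hn ⟨fun a => ?_, fun a => ?_⟩⟩
    · exact d1_back hf e2 (ok.right hb) (hi.1 ⟨_, a⟩)
    · exact d1_back hf e1 (ok.right hb) (hi.2 ⟨_, a⟩)
  prom_ok {Λ T O} := fun ⟨n, h⟩ => by
    have := (f n).ok.prom_ok h
    have key : ∀ b, (d1Un f).E b → (∀ z ∈ Λ, (d1Un f).le z b) →
        ∃ k, (f k).PromOK Λ T O ∧ (f k).E b ∧ ∀ z ∈ Λ, (f k).le z b := by
      intro b hb hΛ
      obtain ⟨k, h3, h5⟩ := ((d1_ev hf hb).and (eventually_ge_atTop n)).exists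
      have hk := (f k).ok.prom_ok ((Cond.ext_of_le (hf h5)).prom h)
      exact ⟨k, hk, h3, fun z hz => d1_back hf ((f k).ok.left (hk.low z hz 0)) h3 (hΛ z hz)⟩
    refine ⟨fun z hz k => ⟨n, this.low z hz k⟩, fun k => ⟨n, this.anti k⟩,
      fun o ho => ⟨n, this.out o ho⟩, fun b hb hΛ => ?_, fun b hΛ hb => ?_⟩
    · obtain ⟨k, hk, h3, h4⟩ := key b hb hΛ
      rcases hk.germ b h3 h4 with ⟨j, hj⟩ | ⟨j, o, ho, hj⟩
      · exact Or.inl ⟨j, k, hj⟩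
      · obtain ⟨m, hm⟩ := (f k).ok.meet h3 ((f k).ok.right (hk.anti j))
        exact Or.inr ⟨j, o, ho, fun y h1 h2 => (d1_uord hf).trans
          ((d1_umeet hf hm).2.2 y h1 h2) ⟨k, hj m hm.1 hm.2.1⟩⟩
    · obtain ⟨k, hk, h3, h4⟩ := key b ((d1_uord hf).left (hb 0)) hΛ
      obtain ⟨z, hz, h1⟩ := hk.gap b h4 fun j =>
        d1_back hf h3 ((f k).ok.right (hk.anti j)) (hb j)
      exact ⟨z, hz, k, h1⟩
  ent_ok {k b c x} := fun ⟨n, h⟩ => by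
    have := (f n).ok.ent_ok h
    obtain ⟨w, h1, h2⟩ := this.ub
    refine ⟨⟨n, this.one⟩, ⟨w, ⟨n, h1⟩, ⟨n, h2⟩⟩, fun u hu => ?_⟩
    obtain ⟨j, h3, h5⟩ := ((d1_ev hf hu).and (eventually_ge_atTop n)).exists
    have hj := ((f j).ok.ent_ok ((Cond.ext_of_le (hf h5)).ent h)).same u h3
    have eb := (f j).ok.left (d1_up hf h5 h2)
    have ex := (f j).ok.left (d1_up hf h5 ((this.same w h1).1 h2))
    have eu := (f j).ok.right h3
    exact ⟨fun a => ⟨j, hj.1 (d1_back hf eb eu a)⟩, fun a => ⟨j, hj.2 (d1_back hf ex eu a)⟩⟩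
  ent_fun := fun ⟨n, h⟩ ⟨m, h'⟩ => (f (max n m)).ok.ent_fun
    ((Cond.ext_of_le (hf (le_max_left _ _))).ent h) ((Cond.ext_of_le (hf (le_max_right _ _))).ent h')
  ent_inj := fun ⟨n, h⟩ ⟨m, h'⟩ => (f (max n m)).ok.ent_inj
    ((Cond.ext_of_le (hf (le_max_left _ _))).ent h) ((Cond.ext_of_le (hf (le_max_right _ _))).ent h')

end Chain

/-- Countable closure. -/
theorem chain_lb (f : ℕ → Cond) (hf : ∀ n, f (n + 1) ≤ f n) :
    ∃ q : Cond, (∀ n, q ≤ f n) ∧ ∀ z, q.E z → ∃ n, (f n).E z := by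
  have ha : Antitone f := antitone_nat_of_succ_le hf
  exact ⟨⟨d1Un f, d1_uok ha⟩, fun n => ⟨⟨fun hx hy => ⟨d1_back ha hx hy, fun h => ⟨n, h⟩⟩,
    d1_umeet ha⟩, fun h => ⟨n, h⟩, fun h => ⟨n, h⟩, fun h => ⟨n, h⟩, fun h => ⟨n, h⟩,
    fun h => ⟨n, h⟩⟩, fun _ hz => hz⟩

end Vale.Agent.P323
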