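import Vale.Agent.P323.Dense1
import Vale.Agent.P323.Copy

/-! P323: derived density lemmas, codes and entries. -/

namespace Vale.Agent.P323

theorem d2_chain (p : Cond) (S : ℕ → Cond → Cond → Prop)
    (h : ∀ n q, q ≤ p → ∃ r, r ≤ q ∧ S n q r) :
    ∃ f : ℕ → Cond, f 0 = p ∧ ∀ n, f (n + 1) ≤ f n ∧ S n (f n) (f (n + 1)) := by
  choose F hF using h
  let g : ℕ → {q : Cond // q ≤ p} := fun n =>
    Nat.rec ⟨p, le_rfl⟩ (fun n q => ⟨F n q.1 q.2, (hF n q.1 q.2).1.trans q.2⟩) n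
  exact ⟨fun n => (g n).1, rfl, fun n => hF n (g n).1 (g n).2⟩

/-- Plan: enumerate `I` (empty case trivial), build a chain, `chain_lb`. -/
theorem meet_all {I : Type} [Countable I] (p : Cond) (R : I → Cond → Prop)
    (mono : ∀ i q r, r ≤ q → R i q → R i r) (dense : ∀ i q, q ≤ p → ∃ r, r ≤ q ∧ R i r) :
    ∃ q, q ≤ p ∧ ∀ i, R i q := by
  rcases isEmpty_or_nonempty I with hI | hI
  · exact ⟨p, le_rfl, fun i => hI.elim i⟩
  obtain ⟨e, he⟩ := exists_surjective_nat I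
  obtain ⟨f, h0, hf⟩ := d2_chain p (fun n _ r => R (e n) r) (fun n q hq => dense (e n) q hq)
  obtain ⟨q, hq, -⟩ := chain_lb f fun n => (hf n).1
  refine ⟨q, h0 ▸ hq 0, fun i => ?_⟩
  obtain ⟨n, rfl⟩ := he i
  exact mono _ _ _ (hq (n + 1)) (hf n).2

/-- Plan: iterate `meet_all` over the countable field, then `chain_lb`. -/
theorem closure (p : Cond) (R : At → Cond → Prop) (mono : ∀ z q r, r ≤ q → R z q → R z r)
    (dense : ∀ z q, q ≤ p → q.E z → ∃ r, r ≤ q ∧ R z r) :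
    ∃ q, q ≤ p ∧ ∀ z, q.E z → R z q := by
  obtain ⟨f, h0, hf⟩ := d2_chain p (fun _ q r => ∀ z, q.E z → R z r) (by
    intro _ q hq
    have : Countable {z // q.E z} := q.ok.cnt.to_subtype
    obtain ⟨r, hr, h⟩ := meet_all (I := {z // q.E z}) q (fun z r => R z.1 r)
      (fun i => mono i.1) (fun i r hr => dense i.1 r (hr.trans hq) (Cond.E_of_le hr i.2))
    exact ⟨r, hr, fun z hz => h ⟨z, hz⟩⟩)
  obtain ⟨q, hq, hE⟩ := chain_lb f fun n => (hf n).1
  refine ⟨q, h0 ▸ hq 0, fun z hz => ?_⟩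
  obtain ⟨n, hn⟩ := hE z hz
  exact mono _ _ _ (hq (n + 1)) ((hf n).2 z hn)

/-- Plan: `meet_all` with `add_top`, then one more fresh top. -/
theorem cover (p : Cond) {F : Set At} (hF : F.Countable) :
    ∃ q, q ≤ p ∧ ∃ a, ¬ p.E a ∧ (∀ z, q.E z → q.le z a) ∧ ∀ z ∈ F, q.E z := by
  have : Countable F := hF.to_subtype
  obtain ⟨r, hr, h⟩ := meet_all (I := F) p (fun z r => r.E z.1)
    (fun _ _ _ hle hz => Cond.E_of_le hle hz) (by
      intro i q _
      by_cases hi : q.E i.1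
      · exact ⟨q, le_rfl, hi⟩
      · obtain ⟨r, hr, h, -⟩ := add_top q hi
        exact ⟨r, hr, h⟩)
  obtain ⟨a, ha⟩ := exists_fresh r.ok.cnt
  obtain ⟨q, hq, -, h2⟩ := add_top r (x := a) ha
  exact ⟨q, hq.trans hr, a, fun h' => ha (Cond.E_of_le hr h'), h2,
    fun z hz => Cond.E_of_le hq (h ⟨z, hz⟩)⟩

/-- Plan: `meet_all` over the countable set of pairs with `add_lab`. -/
theorem label_all (p : Cond) : ∃ q, q ≤ p ∧ ∀ z w, p.le z w → ∃ c, q.lab z w c := by
  have hc : {zw : At × At | p.le zw.1 zw.2}.Countable :=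
    (p.ok.cnt.prod p.ok.cnt).mono fun zw h => Set.mem_prod.2 ⟨p.ok.left h, p.ok.right h⟩
  have : Countable {zw : At × At // p.le zw.1 zw.2} := hc.to_subtype
  obtain ⟨q, hq, h⟩ := meet_all (I := {zw : At × At // p.le zw.1 zw.2}) p
    (fun i q => ∃ c, q.lab i.1.1 i.1.2 c)
    (fun _ _ _ hle ⟨c, hc⟩ => ⟨c, (Cond.ext_of_le hle).lab hc⟩)
    (fun i q hq => add_lab q (Cond.le_of_le hq i.2))
  exact ⟨q, hq, fun z w hzw => h ⟨(z, w), hzw⟩⟩

/-- The condition `p` with a new atom `x` coding the chain `T`. -/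
def d2Raw (p : Raw) (T : ℕ → At) (x : At) : Raw where
  le u w := p.le u w ∨ (u = x ∧ (w = x ∨ ∃ n, p.le (T n) w)) ∨ (u = z0 ∧ w = x)
  lab := p.lab
  g := p.g
  code y d := p.code y d ∨ (y = x ∧ d = T)
  prom := p.prom
  ent := p.ent

structure D2H (p : Raw) (T : ℕ → At) (x : At) : Prop where
  hp : p.OK
  h1 : ∀ n, p.le z1 (T n)
  ha : ∀ n, p.le (T (n + 1)) (T n)
  hx : ¬ p.E x

namespace D2H

variable {p : Raw} {T : ℕ → At} {x : At}

theorem ne (H : D2H p T x) {u : At} (hu : p.E u) : u ≠ x := fun e => H.hx (e ▸ hu)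

theorem anti (H : D2H p T x) {n m : ℕ} (h : n ≤ m) : p.le (T m) (T n) := by
  induction m, h using Nat.le_induction with
  | base => exact H.hp.right (H.h1 n)
  | succ k _ ih => exact H.hp.trans (H.ha k) ih

theorem old (H : D2H p T x) {u w : At} (hu : p.E u) (hw : p.E w) :
    (d2Raw p T x).le u w ↔ p.le u w := by
  refine ⟨?_, Or.inl⟩
  rintro (h | ⟨h, -⟩ | ⟨-, h⟩)
  · exact h
  · exact absurd h (H.ne hu)
  · exact absurd h (H.ne hw)

theorem x_le (H : D2H p T x) {w : At} :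
    (d2Raw p T x).le x w ↔ w = x ∨ ∃ n, p.le (T n) w := by
  refine ⟨?_, fun h => Or.inr (Or.inl ⟨rfl, h⟩)⟩
  rintro (h | ⟨-, h⟩ | ⟨-, h⟩)
  · exact absurd (H.hp.left h) H.hx
  · exact h
  · exact Or.inl h

theorem x_le_old (H : D2H p T x) {w : At} (hw : p.E w) :
    (d2Raw p T x).le x w ↔ ∃ n, p.le (T n) w := by
  rw [H.x_le]
  exact ⟨fun h => h.resolve_left (H.ne hw), Or.inr⟩

theorem le_x (H : D2H p T x) {u : At} : (d2Raw p T x).le u x ↔ u = x ∨ u = z0 := by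
  constructor
  · rintro (h | ⟨h, -⟩ | ⟨h, -⟩)
    · exact absurd (H.hp.right h) H.hx
    · exact Or.inl h
    · exact Or.inr h
  · rintro (h | h)
    · exact Or.inr (Or.inl ⟨h, Or.inl rfl⟩)
    · exact Or.inr (Or.inr ⟨h, rfl⟩)

theorem x_le_T (H : D2H p T x) (n : ℕ) : (d2Raw p T x).le x (T n) :=
  H.x_le.2 (Or.inr ⟨n, H.hp.right (H.h1 n)⟩)

theorem left' (H : D2H p T x) {u w : At} (h : (d2Raw p T x).le u w) : p.E u ∨ u = x := by
  rcases h with h | ⟨h, -⟩ | ⟨h, -⟩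
  · exact Or.inl (H.hp.left h)
  · exact Or.inr h
  · exact Or.inl (h ▸ H.hp.e0)

theorem right' (H : D2H p T x) {u w : At} (h : (d2Raw p T x).le u w) : p.E w ∨ w = x := by
  rcases h with h | ⟨-, h | ⟨n, h⟩⟩ | ⟨-, h⟩
  · exact Or.inl (H.hp.right h)
  · exact Or.inr h
  · exact Or.inl (H.hp.right h)
  · exact Or.inr h

theorem E_of (H : D2H p T x) {u : At} (h : p.E u ∨ u = x) : (d2Raw p T x).E u := by
  rcases h with h | h
  · exact Or.inl h
  · exact H.le_x.2 (Or.inl h) |> fun h' => by rw [h] at h' ⊢; exact h'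

theorem up (H : D2H p T x) {k w : At} (hk : p.le z1 k) (h : (d2Raw p T x).le k w) : p.le k w := by
  rcases h with h | ⟨h, -⟩ | ⟨h, -⟩
  · exact h
  · exact absurd h (H.ne (H.hp.right hk))
  · exact absurd (h ▸ hk) H.hp.not_z10

theorem low2 (H : D2H p T x) {u v m : At} (hu : p.E u) (hv : p.E v)
    (hm : ∀ y, p.le y u → p.le y v → p.le y m) (y : At) (h1 : (d2Raw p T x).le y u)
    (h2 : (d2Raw p T x).le y v) : (d2Raw p T x).le y m := by
  rcases H.left' h1 with hy | rfl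
  · exact Or.inl (hm y ((H.old hy hu).1 h1) ((H.old hy hv).1 h2))
  · obtain ⟨n, hn⟩ := (H.x_le_old hu).1 h1
    obtain ⟨n', hn'⟩ := (H.x_le_old hv).1 h2
    exact H.x_le.2 (Or.inr ⟨max n n', hm _ (H.hp.trans (H.anti (le_max_left _ _)) hn)
      (H.hp.trans (H.anti (le_max_right _ _)) hn')⟩)

theorem isMeet (H : D2H p T x) {m u v : At} (h : p.IsMeet m u v) : (d2Raw p T x).IsMeet m u v :=
  ⟨Or.inl h.1, Or.inl h.2.1, H.low2 (H.hp.right h.1) (H.hp.right h.2.1) h.2.2⟩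

theorem ext (H : D2H p T x) : (d2Raw p T x).Ext p :=
  ⟨⟨fun hu hw => H.old hu hw, H.isMeet⟩, id, id, Or.inl, id, id⟩

theorem bot (H : D2H p T x) {u : At} (h : p.E u ∨ u = x) : (d2Raw p T x).le z0 u := by
  rcases h with h | rfl
  · exact Or.inl (H.hp.bot h)
  · exact H.le_x.2 (Or.inr rfl)

theorem meet_x (H : D2H p T x) {v : At} (hv : p.E v ∨ v = x) :
    ∃ m, (d2Raw p T x).le m x ∧ (d2Raw p T x).le m v ∧
      ∀ y, (d2Raw p T x).le y x → (d2Raw p T x).le y v → (d2Raw p T x).le y m := by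
  by_cases h : (d2Raw p T x).le x v
  · exact ⟨x, H.le_x.2 (Or.inl rfl), h, fun _ hy _ => hy⟩
  · refine ⟨z0, H.le_x.2 (Or.inr rfl), H.bot hv, fun y hy hy' => ?_⟩
    rcases H.le_x.1 hy with rfl | rfl
    · exact absurd hy' h
    · exact Or.inl H.hp.e0

theorem ord (H : D2H p T x) : (d2Raw p T x).Ord where
  cnt := (H.hp.cnt.insert x).mono fun _ hu => (H.left' hu).symm
  left h := H.E_of (H.left' h)
  right h := H.E_of (H.right' h)
  trans {u v w} h1 h2 := by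
    rcases H.right' h1 with hv | rfl
    · rcases H.right' h2 with hw | rfl
      · have h2' := (H.old hv hw).1 h2
        rcases H.left' h1 with hu | rfl
        · exact Or.inl (H.hp.trans ((H.old hu hv).1 h1) h2')
        · obtain ⟨n, hn⟩ := (H.x_le_old hv).1 h1
          exact H.x_le.2 (Or.inr ⟨n, H.hp.trans hn h2'⟩)
      · rcases H.le_x.1 h2 with h | rfl
        · exact absurd h (H.ne hv)
        · rcases H.left' h1 with hu | rfl
          · exact H.le_x.2 (Or.inr (H.hp.antisymm ((H.old hu hv).1 h1) (H.hp.bot hu)))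
          · exact H.le_x.2 (Or.inl rfl)
    · rcases H.le_x.1 h1 with rfl | rfl
      · exact h2
      · exact H.bot (H.right' h2)
  antisymm {u v} h1 h2 := by
    have key : ∀ w, p.E w → (d2Raw p T x).le x w → ¬ (d2Raw p T x).le w x := by
      intro w hw a1 a2
      obtain ⟨n, hn⟩ := (H.x_le_old hw).1 a1
      rcases H.le_x.1 a2 with h | rfl
      · exact H.ne hw h
      · exact H.hp.not_z10 (H.hp.trans (H.h1 n) hn)
    rcases H.left' h1 with hu | rfl
    · rcases H.right' h1 with hv | rfl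
      · exact H.hp.antisymm ((H.old hu hv).1 h1) ((H.old hv hu).1 h2)
      · exact absurd h1 (key u hu h2)
    · rcases H.right' h1 with hv | rfl
      · exact absurd h2 (key v hv h1)
      · rfl
  bot h := H.bot (H.left' h)
  e1 := Or.inl H.hp.e1
  meet {u v} hu hv := by
    rcases H.left' hu with hu' | rfl
    · rcases H.left' hv with hv' | rfl
      · obtain ⟨m, hm⟩ := H.hp.meet hu' hv'
        exact ⟨m, H.isMeet hm⟩
      · obtain ⟨m, a1, a2, a3⟩ := H.meet_x (Or.inl hu')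
        exact ⟨m, a2, a1, fun y b1 b2 => a3 y b2 b1⟩
    · exact H.meet_x (H.left' hv)

theorem prom (H : D2H p T x) {Λ : Set At} {T' : ℕ → At} {O : Set At} (h : p.PromOK Λ T' O) :
    (d2Raw p T x).PromOK Λ T' O := by
  have hΛ : ∀ z ∈ Λ, p.E z := fun z hz => H.hp.left (h.low z hz 0)
  have hT : ∀ n, p.E (T' n) := fun n => H.hp.right (h.anti n)
  have hz : (∀ z ∈ Λ, (d2Raw p T x).le z x) → ∀ z ∈ Λ, z = z0 := fun hb z hz =>
    (H.le_x.1 (hb z hz)).resolve_left (H.ne (hΛ z hz))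
  have key : (∀ z ∈ Λ, (d2Raw p T x).le z x) → ¬ ∀ n, (d2Raw p T x).le x (T' n) := by
    intro hb hall
    obtain ⟨z, hzΛ, h10⟩ := h.gap z1 (fun z hzΛ => hz hb z hzΛ ▸ H.hp.z01) (fun n => by
      obtain ⟨k, hk⟩ := (H.x_le_old (hT n)).1 (hall n)
      exact H.hp.trans (H.h1 k) hk)
    exact H.hp.not_z10 (hz hb z hzΛ ▸ h10)
  refine ⟨fun z hz n => Or.inl (h.low z hz n), fun n => Or.inl (h.anti n),
    fun o ho => Or.inl (h.out o ho), fun b hb hΛb => ?_, fun b hΛb hall => ?_⟩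
  · rcases H.left' hb with hb' | rfl
    · rcases h.germ b hb' (fun z hz => (H.old (hΛ z hz) hb').1 (hΛb z hz)) with
        ⟨n, hn⟩ | ⟨n, o, ho, hn⟩
      · exact Or.inl ⟨n, Or.inl hn⟩
      · exact Or.inr ⟨n, o, ho, H.low2 hb' (hT n) hn⟩
    · rcases h.germ z0 H.hp.e0 (fun z hzΛ => hz hΛb z hzΛ ▸ H.hp.e0) with
        ⟨n, hn⟩ | ⟨-, o, ho, -⟩
      · exact Or.inl ⟨n, H.le_x.2 (Or.inr (H.hp.antisymm hn (H.hp.bot (hT n))))⟩
      · obtain ⟨n, hn⟩ := not_forall.1 (key hΛb)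
        refine Or.inr ⟨n, o, ho, fun y hy hy' => ?_⟩
        rcases H.le_x.1 hy with rfl | rfl
        · exact absurd hy' hn
        · exact Or.inl (H.hp.bot (h.out o ho))
  · rcases H.left' (hall 0) with hb' | rfl
    · obtain ⟨z, hzΛ, hbz⟩ := h.gap b (fun z hz => (H.old (hΛ z hz) hb').1 (hΛb z hz))
        (fun n => (H.old hb' (hT n)).1 (hall n))
      exact ⟨z, hzΛ, Or.inl hbz⟩
    · exact absurd hall (key hΛb)

theorem ok (H : D2H p T x)
    (hB : ∀ y d, p.code y d → ∃ b, p.le z1 b ∧ ¬ (p.le y b ↔ ∃ n, p.le (T n) b)) :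
    (d2Raw p T x).OK := by
  have cE : ∀ {y d}, p.code y d → p.E y := fun hc => H.hp.left ((H.hp.code_ok hc).below 0)
  have sep : ∀ {y d}, p.code y d →
      ∃ b, (d2Raw p T x).le z1 b ∧ ¬ ((d2Raw p T x).le y b ↔ (d2Raw p T x).le x b) := by
    intro y d hc
    obtain ⟨b, hb, hn⟩ := hB y d hc
    refine ⟨b, Or.inl hb, ?_⟩
    rwa [H.old (cE hc) (H.hp.right hb), H.x_le_old (H.hp.right hb)]
  refine
    { toOrd := H.ord
      used_cnt := H.hp.used_cnt
      lab_le := fun h => Or.inl (H.hp.lab_le h)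
      lab_inj := H.hp.lab_inj
      g_E := fun h => Or.inl (H.hp.g_E h)
      g_fun := H.hp.g_fun
      code_ok := ?_
      code_fun := ?_
      code_sep := ?_
      prom_ok := fun h => H.prom (H.hp.prom_ok h)
      ent_ok := ?_
      ent_fun := H.hp.ent_fun
      ent_inj := H.hp.ent_inj }
  · rintro y d (hc | ⟨rfl, rfl⟩)
    · have hk := H.hp.code_ok hc
      refine ⟨fun n => Or.inl (hk.one n), fun n => Or.inl (hk.below n),
        fun n => Or.inl (hk.anti n), fun b hb hyb => ?_⟩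
      have hb' := H.up H.hp.e1 hb
      obtain ⟨n, hn⟩ := hk.cof b hb' ((H.old (cE hc) (H.hp.right hb')).1 hyb)
      exact ⟨n, Or.inl hn⟩
    · refine ⟨fun n => Or.inl (H.h1 n), H.x_le_T, fun n => Or.inl (H.ha n), fun b hb hyb => ?_⟩
      obtain ⟨n, hn⟩ := (H.x_le_old (H.hp.right (H.up H.hp.e1 hb))).1 hyb
      exact ⟨n, Or.inl hn⟩
  · rintro y d d' (hc | ⟨e1, e2⟩) (hc' | ⟨e3, e4⟩)
    · exact H.hp.code_fun hc hc'
    · exact absurd e3 (H.ne (cE hc))
    · exact absurd e1 (H.ne (cE hc'))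
    · exact Filter.Eventually.of_forall fun n => by rw [e2, e4]
  · rintro y d y' d' (hc | ⟨e1, -⟩) (hc' | ⟨e3, -⟩) hne
    · obtain ⟨b, hb, hn⟩ := H.hp.code_sep hc hc' hne
      refine ⟨b, Or.inl hb, ?_⟩
      rwa [H.old (cE hc) (H.hp.right hb), H.old (cE hc') (H.hp.right hb)]
    · rw [e3]
      exact sep hc
    · rw [e1]
      obtain ⟨b, hb, hn⟩ := sep hc'
      exact ⟨b, hb, fun h => hn h.symm⟩
    · exact absurd (e1.trans e3.symm) hne
  · intro k b c y he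
    have hk := H.hp.ent_ok he
    obtain ⟨w0, a1, a2⟩ := hk.ub
    refine ⟨Or.inl hk.one, ⟨w0, Or.inl a1, Or.inl a2⟩, fun w hw => ?_⟩
    have hw' := H.up hk.one hw
    rw [H.old (H.hp.left a2) (H.hp.right hw'),
      H.old (H.hp.left ((hk.same w0 a1).1 a2)) (H.hp.right hw')]
    exact hk.same w hw'

end D2H

/-- A code for a descending chain above `z1`.
Plan: if some coded `x` of `p` has `∀ b, p.le z1 b → (p.le x b ↔ ∃ n, p.le (T n) b)` use it with
`q = p`. Otherwise take a fresh `x`,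
`q.le u w := p.le u w ∨ (u = x ∧ (w = x ∨ ∃ n, p.le (T n) w)) ∨ (u = z0 ∧ w = x)` and add
`code x T`. Only `z0` and `x` are below `x`, so `x` is not above `z1`. For a promise `(Λ, T', O)`
with `Λ` below `x` (so `Λ ⊆ {z0}`): `x` is not below all `T' n` (else `z1` is below all `T' n`,
and `Gap` at `z1` gives `z1 ≤ z0`); `Germ` at `z0` in `p` gives `T' n = z0` or some `o ∈ O`. -/
theorem add_code (p : Cond) (T : ℕ → At) (h1 : ∀ n, p.le z1 (T n))
    (ha : ∀ n, p.le (T (n + 1)) (T n)) :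
    ∃ q, q ≤ p ∧ ∃ x d, q.code x d ∧ (∀ n, q.le x (T n)) ∧ ∀ n, ∃ m, q.le (T m) (d n) := by
  by_cases hA : ∃ x d, p.code x d ∧ ∀ b, p.le z1 b → (p.le x b ↔ ∃ n, p.le (T n) b)
  · obtain ⟨x, d, hc, h⟩ := hA
    have hk := p.ok.code_ok hc
    exact ⟨p, le_rfl, x, d, hc, fun n => (h _ (h1 n)).2 ⟨n, p.ok.right (h1 n)⟩,
      fun n => (h _ (hk.one n)).1 (hk.below n)⟩
  obtain ⟨x, hx⟩ := exists_fresh p.ok.cnt
  have H : D2H p.toRaw T x := ⟨p.ok, h1, ha, hx⟩
  have hB : ∀ y d, p.code y d → ∃ b, p.le z1 b ∧ ¬ (p.le y b ↔ ∃ n, p.le (T n) b) := by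
    intro y d hc
    by_contra hcon
    exact hA ⟨y, d, hc, fun b hb => by_contra fun h => hcon ⟨b, hb, h⟩⟩
  refine ⟨⟨d2Raw p.toRaw T x, H.ok hB⟩, H.ext, x, T, Or.inr ⟨rfl, rfl⟩, fun n => H.x_le_T n,
    fun n => ⟨n, Or.inl (p.ok.right (h1 n))⟩⟩

/-- An entry for `b` at `k` whose value is a copy of `x` over `a`.
Plan: add a fresh top to `p` to get `p'`, use `copy_pl` for `(p, p', a, k)` with
`U = {w | p'.le k w ∧ p'.le b w}`, then `add_ent` for `(k, b, π • x)`. An element above `k` in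
the amalgam lies in `E p'` (else `k ≤ a`); `π • x` is not in `E p'` and is below `w ∈ E p'` iff
`w ∈ U`; `k` is not in the field of `π • p`. -/
theorem add_entry (p : Cond) {a k b x : At} (ha : p.le z1 a) (hk : p.le a k) (hk' : ¬ p.le k a)
    (hb : p.E b) (hx : p.E x) (hx' : ¬ p.le x a) :
    ∃ (π : Gam) (t : Cond) (c : Set ℕ), (∀ z, p.le z a → π • z = z) ∧ t ≤ p ∧ t ≤ π • p ∧
      t.ent k b c (π • x) := by
  obtain ⟨τ, hτ⟩ := exists_fresh p.ok.cnt
  obtain ⟨r, hr, -, htop⟩ := add_top p (x := τ) hτ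
  have hkE : p.E k := p.ok.right hk
  have haE : p.E a := p.ok.left hk
  have hrk : ¬ r.le k a := fun h => hk' (Cond.le_back hr hkE haE h)
  obtain ⟨π, t, hfix, hint, htr, htp, ht⟩ := copy_pl (k := k) hr ha {w | r.le k w ∧ r.le b w}
    (fun y hy w hw => ⟨r.ok.trans hy.1 hw, r.ok.trans hy.2 hw⟩)
    (fun y hy y' hy' m hm => ⟨hm.2.2 _ hy.1 hy'.1, hm.2.2 _ hy.2 hy'.2⟩)
    (fun y hy => ⟨Cond.le_of_le hr hk, hrk, hy.1⟩)
  have both : ∀ μ, (π • p).E μ → r.E μ → r.le μ a := by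
    intro μ h1 h2
    have h3 : p.le (π⁻¹ • μ) a := hint _ h1 (by rwa [smul_inv_smul])
    have h4 := hfix _ h3
    rw [smul_inv_smul] at h4
    rw [← h4] at h3
    exact Cond.le_of_le hr h3
  have hkr : r.E k := Cond.E_of_le hr hkE
  have hks : ¬ (π • p).E k := fun h => hrk (both k h hkr)
  have hxr : ¬ r.E (π • x) := fun h => hx' (hint x hx h)
  have hle : ∀ u w, t.le u w ↔ ((π • p).le u w ∨ r.le u w ∨ (∃ μ, r.le u μ ∧ (π • p).le μ w) ∨
      ((π • p).E u ∧ r.le k w ∧ r.le b w)) := by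
    intro u w
    rw [ht]
    exact Iff.rfl
  have hent : t.EntOK k b (π • x) := by
    refine ⟨Cond.le_of_le (htr.trans hr) (p.ok.trans ha hk),
      ⟨τ, Cond.le_of_le htr (htop k hkr), Cond.le_of_le htr (htop b (Cond.E_of_le hr hb))⟩,
      fun w hw => ?_⟩
    have hw' : r.le k w := by
      rcases (hle k w).1 hw with h | h | ⟨μ, h1, h2⟩ | h
      · exact absurd ((π • p).ok.left h) hks
      · exact h
      · exact absurd (r.ok.trans h1 (both μ ((π • p).ok.left h2) (r.ok.right h1))) hrk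
      · exact absurd h.1 hks
    constructor
    · intro h
      exact (hle _ _).2 (Or.inr (Or.inr (Or.inr ⟨Cond.smul_E_smul.2 hx, hw',
        Cond.le_back htr (Cond.E_of_le hr hb) (r.ok.right hw') h⟩)))
    · intro h
      rcases (hle _ _).1 h with h | h | ⟨μ, h1, -⟩ | h
      · exact absurd (r.ok.trans hw' (both w ((π • p).ok.right h) (r.ok.right hw'))) hrk
      · exact absurd (r.ok.left h) hxr
      · exact absurd (r.ok.left h1) hxr
      · exact Cond.le_of_le htr h.2.2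
  obtain ⟨q, hq, c, hc⟩ := add_ent t hent (by
    intro b' c' he
    rw [ht] at he
    rcases he with he | he
    · exact hks ((π • p).ok.right ((π • p).ok.ent_ok he).one)
    · have h := r.ok.ent_ok he
      obtain ⟨w, h1, h2⟩ := h.ub
      exact hxr (r.ok.left ((h.same w h1).1 h2)))
  exact ⟨π, q, c, hfix, hq.trans (htr.trans hr), hq.trans htp, hc⟩

end Vale.Agent.P323
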