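import Vale.Agent.P323.Defs
import Mathlib.Data.Countable.Defs
import Mathlib.Logic.Encodable.Basic
import Mathlib.Data.Nat.Pairing

/-! P323: derived connectives, renaming, the formulas for the axioms, and their meaning. -/

namespace Vale.Agent.P323

@[simp] theorem cons_zero {α : Type _} (x : α) (v : ℕ → α) : cons x v 0 = x := rfl
@[simp] theorem cons_succ {α : Type _} (x : α) (v : ℕ → α) (n : ℕ) : cons x v (n + 1) = v n := rfl

namespace Fm

def neg (φ : Fm) : Fm := imp φ falsum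
def conj (φ ψ : Fm) : Fm := neg (imp φ (neg ψ))
def disj (φ ψ : Fm) : Fm := imp (neg φ) ψ
def biimp (φ ψ : Fm) : Fm := conj (imp φ ψ) (imp ψ φ)
def ex (φ : Fm) : Fm := neg (all (neg φ))

/-- Renaming of free variables. -/
def ren : (ℕ → ℕ) → Fm → Fm
  | f, mem i j => mem (f i) (f j)
  | f, eq i j => eq (f i) (f j)
  | _, falsum => falsum
  | f, imp φ ψ => imp (ren f φ) (ren f ψ)
  | f, all φ => all (ren (cons 0 fun n => f n + 1) φ)

/-- All free variables are below `bd φ`. -/
def bd : Fm → ℕ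
  | mem i j => max i j + 1
  | eq i j => max i j + 1
  | falsum => 0
  | imp φ ψ => max (bd φ) (bd ψ)
  | all φ => bd φ

def dbl (u a b : ℕ) : Fm := all (biimp (mem 0 (u + 1)) (disj (eq 0 (a + 1)) (eq 0 (b + 1))))
def pr (w a b : ℕ) : Fm :=
  all (biimp (mem 0 (w + 1)) (disj (dbl 0 (a + 1) (a + 1)) (dbl 0 (a + 1) (b + 1))))
def app (f a b : ℕ) : Fm := ex (conj (mem 0 (f + 1)) (pr 0 (a + 1) (b + 1)))
/-- single valued -/
def sv (f : ℕ) : Fm := all (all (all (imp (app (f + 3) 2 1) (imp (app (f + 3) 2 0) (eq 1 0)))))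
def sub (f X Y : ℕ) : Fm :=
  all (imp (mem 0 (f + 1)) (ex (ex (conj (mem 1 (X + 3)) (conj (mem 0 (Y + 3)) (pr 2 1 0))))))
def tot (f X Y : ℕ) : Fm := all (imp (mem 0 (X + 1)) (ex (conj (mem 0 (Y + 2)) (app (f + 2) 1 0))))
def func (f X Y : ℕ) : Fm := conj (sub f X Y) (conj (tot f X Y) (sv f))
def surj (f X Y : ℕ) : Fm := all (imp (mem 0 (Y + 1)) (ex (conj (mem 0 (X + 2)) (app (f + 2) 0 1))))
def inj (f : ℕ) : Fm := all (all (all (imp (app (f + 3) 2 0) (imp (app (f + 3) 1 0) (eq 2 1)))))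

def fExt : Fm := imp (all (biimp (mem 0 1) (mem 0 2))) (eq 0 1)
def fFound : Fm := imp (ex (mem 0 1)) (ex (conj (mem 0 1) (all (imp (mem 0 1) (neg (mem 0 2))))))
def fPair : Fm := ex (dbl 0 1 2)
def fUnion : Fm := ex (all (biimp (mem 0 1) (ex (conj (mem 0 3) (mem 1 0)))))
def fPower : Fm := ex (all (biimp (mem 0 1) (all (imp (mem 0 1) (mem 0 3)))))
def fInf : Fm := ex (conj (ex (conj (mem 0 1) (all (neg (mem 0 1)))))
  (all (imp (mem 0 1) (ex (conj (mem 0 2) (all (biimp (mem 0 1) (disj (mem 0 2) (eq 0 2)))))))))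
/-- Read under the assignment `cons x v`. -/
def fSep (φ : Fm) : Fm :=
  ex (all (biimp (mem 0 1) (conj (mem 0 2) (ren (cons 0 fun n => n + 3) φ))))
/-- Read under the assignment `cons x v`: `φ` is single valued on `x`. -/
def fReplH (φ : Fm) : Fm :=
  all (imp (mem 0 1) (all (all (imp (ren (cons 1 (cons 2 fun n => n + 4)) φ)
    (imp (ren (cons 0 (cons 2 fun n => n + 4)) φ) (eq 1 0))))))
/-- Read under the assignment `cons x v`. -/
def fRepl (φ : Fm) : Fm :=
  imp (fReplH φ)
    (ex (all (biimp (mem 0 1) (ex (conj (mem 0 3) (ren (cons 1 (cons 0 fun n => n + 4)) φ))))))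
/-- Variables: 0 is the surjection, 1 is `X`, 2 is `Y`. -/
def fPP : Fm := imp (conj (func 0 1 2) (surj 0 1 2)) (ex (conj (func 0 3 2) (inj 0)))
/-- `c` is a choice function for `F`. -/
def chc (c F : ℕ) : Fm :=
  conj (all (imp (mem 0 (F + 1)) (ex (conj (mem 0 1) (app (c + 2) 1 0))))) (sv c)
def fNAC : Fm := ex (conj (all (imp (mem 0 1) (ex (mem 0 1)))) (neg (ex (chc 0 1))))

/-- The list of formulas that must hold under every assignment. -/
inductive Ax : Fm → Prop
  | ext : Ax fExt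
  | found : Ax fFound
  | pair : Ax fPair
  | union : Ax fUnion
  | power : Ax fPower
  | inf : Ax fInf
  | sep (φ : Fm) : Ax (fSep φ)
  | repl (φ : Fm) : Ax (fRepl φ)
  | pp : Ax fPP
  | nac : Ax fNAC

/-- An injective coding of formulas. -/
def code : Fm → ℕ
  | mem i j => Nat.pair 0 (Nat.pair i j)
  | eq i j => Nat.pair 1 (Nat.pair i j)
  | falsum => Nat.pair 2 0
  | imp φ ψ => Nat.pair 3 (Nat.pair (code φ) (code ψ))
  | all φ => Nat.pair 4 (code φ)

theorem code_inj : ∀ φ ψ : Fm, code φ = code ψ → φ = ψ := by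
  intro φ
  induction φ with
  | mem i j =>
    intro ψ h
    cases ψ <;> simp only [code, Nat.pair_eq_pair] at h <;> first | omega | skip
    rw [h.2.1, h.2.2]
  | eq i j =>
    intro ψ h
    cases ψ <;> simp only [code, Nat.pair_eq_pair] at h <;> first | omega | skip
    rw [h.2.1, h.2.2]
  | falsum =>
    intro ψ h
    cases ψ <;> first | rfl | (simp only [code, Nat.pair_eq_pair] at h; omega)
  | imp a b iha ihb =>
    intro ψ h
    cases ψ <;> simp only [code, Nat.pair_eq_pair] at h <;> first | omega | skip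
    rw [iha _ h.2.1, ihb _ h.2.2]
  | all a iha =>
    intro ψ h
    cases ψ <;> simp only [code, Nat.pair_eq_pair] at h <;> first | omega | skip
    rw [iha _ h.2]

instance : Countable Fm := ⟨⟨code, fun φ ψ h => code_inj φ ψ h⟩⟩

end Fm

theorem sat_ren {M : Type} (mem : M → M → Prop) (φ : Fm) (f : ℕ → ℕ) (v : ℕ → M) :
    Sat mem (φ.ren f) v ↔ Sat mem φ (fun n => v (f n)) := by
  induction φ generalizing f v with
  | mem i j => exact Iff.rfl
  | eq i j => exact Iff.rfl
  | falsum => exact Iff.rfl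
  | imp a b iha ihb => exact imp_congr (iha f v) (ihb f v)
  | all a iha =>
    refine forall_congr' fun x => ?_
    rw [iha]
    have : (fun n => cons x v (cons 0 (fun n => f n + 1) n)) = cons x fun n => v (f n) := by
      funext n
      cases n <;> rfl
    rw [this]

section SatLemmas

variable {M : Type} {mem : M → M → Prop} {φ ψ : Fm} {v : ℕ → M}

theorem syn_mem {i j : ℕ} : Sat mem (.mem i j) v ↔ mem (v i) (v j) := Iff.rfl
theorem syn_eq {i j : ℕ} : Sat mem (.eq i j) v ↔ v i = v j := Iff.rfl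
theorem syn_imp : Sat mem (.imp φ ψ) v ↔ (Sat mem φ v → Sat mem ψ v) := Iff.rfl
theorem syn_all : Sat mem (.all φ) v ↔ ∀ x, Sat mem φ (cons x v) := Iff.rfl
theorem syn_neg : Sat mem φ.neg v ↔ ¬ Sat mem φ v := Iff.rfl

theorem syn_conj : Sat mem (φ.conj ψ) v ↔ Sat mem φ v ∧ Sat mem ψ v := by
  simp only [Fm.conj, syn_neg, syn_imp]
  tauto

theorem syn_disj : Sat mem (φ.disj ψ) v ↔ Sat mem φ v ∨ Sat mem ψ v := by
  simp only [Fm.disj, syn_neg, syn_imp]
  tauto

theorem syn_biimp : Sat mem (φ.biimp ψ) v ↔ (Sat mem φ v ↔ Sat mem ψ v) := by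
  simp only [Fm.biimp, syn_conj, syn_imp]
  tauto

theorem syn_ex : Sat mem φ.ex v ↔ ∃ x, Sat mem φ (cons x v) := by
  simp only [Fm.ex, syn_neg, syn_all, not_forall, not_not]

theorem syn_dbl {u a b : ℕ} : Sat mem (Fm.dbl u a b) v ↔ IsDbl mem (v u) (v a) (v b) := by
  simp only [Fm.dbl, syn_all, syn_biimp, syn_disj, syn_mem, syn_eq, cons_zero, cons_succ, IsDbl]

theorem syn_pr {w a b : ℕ} : Sat mem (Fm.pr w a b) v ↔ IsPair mem (v w) (v a) (v b) := by
  simp only [Fm.pr, syn_all, syn_biimp, syn_disj, syn_mem, syn_dbl, cons_zero, cons_succ, IsPair]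

theorem syn_app {f a b : ℕ} : Sat mem (Fm.app f a b) v ↔ App mem (v f) (v a) (v b) := by
  simp only [Fm.app, syn_ex, syn_conj, syn_mem, syn_pr, cons_zero, cons_succ, App]

theorem cons_one {α : Type _} (x : α) (w : ℕ → α) : cons x w 1 = w 0 := rfl
theorem cons_two {α : Type _} (x : α) (w : ℕ → α) : cons x w 2 = w 1 := rfl
theorem cons_three {α : Type _} (x : α) (w : ℕ → α) : cons x w 3 = w 2 := rfl

theorem syn_sv {f : ℕ} :
    Sat mem (Fm.sv f) v ↔ ∀ a b b', App mem (v f) a b → App mem (v f) a b' → b = b' := by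
  simp only [Fm.sv, syn_all, syn_imp, syn_app, syn_eq]
  rfl

theorem syn_inj {f : ℕ} :
    Sat mem (Fm.inj f) v ↔ ∀ a a' b, App mem (v f) a b → App mem (v f) a' b → a = a' := by
  simp only [Fm.inj, syn_all, syn_imp, syn_app, syn_eq]
  rfl

theorem syn_sub {f X Y : ℕ} : Sat mem (Fm.sub f X Y) v ↔
    ∀ w, mem w (v f) → ∃ a b, mem a (v X) ∧ mem b (v Y) ∧ IsPair mem w a b := by
  simp only [Fm.sub, syn_all, syn_imp, syn_ex, syn_conj, syn_pr, syn_mem]
  rfl

theorem syn_tot {f X Y : ℕ} : Sat mem (Fm.tot f X Y) v ↔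
    ∀ a, mem a (v X) → ∃ b, mem b (v Y) ∧ App mem (v f) a b := by
  simp only [Fm.tot, syn_all, syn_imp, syn_ex, syn_conj, syn_app, syn_mem]
  rfl

theorem syn_surj {f X Y : ℕ} : Sat mem (Fm.surj f X Y) v ↔
    ∀ b, mem b (v Y) → ∃ a, mem a (v X) ∧ App mem (v f) a b := by
  simp only [Fm.surj, syn_all, syn_imp, syn_ex, syn_conj, syn_app, syn_mem]
  rfl

theorem syn_func {f X Y : ℕ} : Sat mem (Fm.func f X Y) v ↔ IsFunc mem (v f) (v X) (v Y) := by
  simp only [Fm.func, syn_conj, syn_sub, syn_tot, syn_sv, IsFunc]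

theorem syn_chc {c F : ℕ} : Sat mem (Fm.chc c F) v ↔
    (∀ S, mem S (v F) → ∃ x, mem x S ∧ App mem (v c) S x) ∧
      ∀ S x x', App mem (v c) S x → App mem (v c) S x' → x = x' := by
  simp only [Fm.chc, syn_conj, syn_sv, syn_all, syn_imp, syn_ex, syn_app, syn_mem]
  rfl

theorem ren_sep (z y x : M) (v : ℕ → M) :
    (fun n => cons z (cons y (cons x v)) (cons 0 (fun n => n + 3) n)) = cons z v := by
  funext n
  cases n <;> rfl

theorem ren_h1 (w' w u x : M) (v : ℕ → M) :
    (fun n => cons w' (cons w (cons u (cons x v))) (cons 1 (cons 2 fun n => n + 4) n)) =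
      cons w (cons u v) := by
  funext n
  rcases n with _ | _ | n <;> rfl

theorem ren_h0 (w' w u x : M) (v : ℕ → M) :
    (fun n => cons w' (cons w (cons u (cons x v))) (cons 0 (cons 2 fun n => n + 4) n)) =
      cons w' (cons u v) := by
  funext n
  rcases n with _ | _ | n <;> rfl

theorem ren_r (u w y x : M) (v : ℕ → M) :
    (fun n => cons u (cons w (cons y (cons x v))) (cons 1 (cons 0 fun n => n + 4) n)) =
      cons w (cons u v) := by
  funext n
  rcases n with _ | _ | n <;> rfl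

end SatLemmas

theorem model_of_ax {M : Type} [Nonempty M] (mem : M → M → Prop)
    (h : ∀ φ, Fm.Ax φ → ∀ v, Sat mem φ v) : ZF mem ∧ PP mem ∧ ¬ AC mem := by
  obtain ⟨o⟩ := ‹Nonempty M›
  refine ⟨⟨fun x y => ?_, fun x => ?_, fun a b => ?_, fun x => ?_, fun x => ?_, ?_,
    fun φ v x => ?_, fun φ v x => ?_⟩, fun X Y => ?_, ?_⟩
  · have := h _ .ext (cons x (cons y fun _ => o))
    simp only [Fm.fExt, syn_imp, syn_all, syn_biimp, syn_mem, syn_eq] at this
    exact this
  · have := h _ .found (cons x fun _ => o)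
    simp only [Fm.fFound, syn_imp, syn_all, syn_ex, syn_conj, syn_neg, syn_mem] at this
    exact this
  · have := h _ .pair (cons a (cons b fun _ => o))
    simp only [Fm.fPair, syn_ex, syn_dbl] at this
    exact this
  · have := h _ .union (cons x fun _ => o)
    simp only [Fm.fUnion, syn_all, syn_ex, syn_conj, syn_biimp, syn_mem] at this
    exact this
  · have := h _ .power (cons x fun _ => o)
    simp only [Fm.fPower, syn_all, syn_ex, syn_imp, syn_biimp, syn_mem] at this
    exact this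
  · have := h _ .inf (fun _ => o)
    simp only [Fm.fInf, syn_all, syn_ex, syn_imp, syn_biimp, syn_mem, syn_conj, syn_disj, syn_neg,
      syn_eq] at this
    exact this
  · have := h _ (.sep φ) (cons x v)
    simp only [Fm.fSep, syn_all, syn_ex, syn_biimp, syn_mem, syn_conj, sat_ren, ren_sep] at this
    exact this
  · have := h _ (.repl φ) (cons x v)
    simp only [Fm.fRepl, Fm.fReplH, syn_all, syn_ex, syn_imp, syn_biimp, syn_mem, syn_conj, syn_eq,
      sat_ren, ren_h1, ren_h0, ren_r] at this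
    exact this
  · rintro ⟨f, hf⟩
    have := h _ .pp (cons f (cons X (cons Y fun _ => o)))
    simp only [Fm.fPP, syn_ex, syn_imp, syn_conj, syn_func, syn_surj, syn_inj] at this
    exact this hf
  · intro hac
    have := h _ .nac (fun _ => o)
    simp only [Fm.fNAC, syn_ex, syn_imp, syn_conj, syn_all, syn_neg, syn_mem, syn_chc] at this
    obtain ⟨F, h1, h2⟩ := this
    exact h2 (hac F h1)

end Vale.Agent.P323
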