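import Vale.Agent.P323.HS
import Vale.Agent.P323.Syn

/-! P323: the forcing relation of the symmetric system. -/

namespace Vale.Agent.P323

variable {P G A : Type} [Preorder P] [OrderTop P] [Group G] [MulAction G P] [Sys P G]
  [MulAction G A] [Atoms P A]

/-- The forcing relation; quantifiers range over hereditarily symmetric names. -/
def Forces {P G A : Type} [Preorder P] [OrderTop P] [Group G] [MulAction G P] [Sys P G]
    [MulAction G A] [Atoms P A] : Fm → P → (ℕ → Nm P) → Prop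
  | .mem i j, p, v => Mem p (v i) (v j)
  | .eq i j, p, v => Eqv p (v i) (v j)
  | .falsum, _, _ => False
  | .imp φ ψ, p, v => ∀ q, q ≤ p → Forces φ q v → Forces ψ q v
  | .all φ, p, v => ∀ x, HS x → Forces φ p (cons x v)

variable {φ ψ : Fm} {p q : P} {v w : ℕ → Nm P}

@[simp] theorem forces_mem {i j : ℕ} : Forces (.mem i j) p v ↔ Mem p (v i) (v j) := Iff.rfl
@[simp] theorem forces_eq {i j : ℕ} : Forces (.eq i j) p v ↔ Eqv p (v i) (v j) := Iff.rfl
@[simp] theorem forces_falsum : Forces .falsum p v ↔ False := Iff.rfl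
@[simp] theorem forces_imp :
    Forces (.imp φ ψ) p v ↔ ∀ q, q ≤ p → Forces φ q v → Forces ψ q v := Iff.rfl
@[simp] theorem forces_all : Forces (.all φ) p v ↔ ∀ x, HS x → Forces φ p (cons x v) := Iff.rfl

theorem Forces.mono (h : Forces φ p v) (hq : q ≤ p) : Forces φ q v := by
  induction φ generalizing v with
  | mem => exact Mem.mono h hq
  | eq => exact Eqv.mono h hq
  | falsum => exact h
  | imp => exact fun r hr => h r (hr.trans hq)
  | all φ ih => exact fun x hx => ih (h x hx)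

theorem Forces.reg (h : ∀ q, q ≤ p → ∃ r, r ≤ q ∧ Forces φ r v) : Forces φ p v := by
  induction φ generalizing v p with
  | mem => exact Mem.reg h
  | eq => exact Eqv.reg h
  | falsum => exact (h p le_rfl).elim fun _ h => h.2
  | imp φ ψ _ ih =>
    intro q hq hφ
    refine ih fun r hr => ?_
    obtain ⟨s, hs, e⟩ := h r (hr.trans hq)
    exact ⟨s, hs, e s le_rfl (hφ.mono (hs.trans hr))⟩
  | all φ ih =>
    intro x hx
    refine ih fun r hr => ?_
    obtain ⟨s, hs, e⟩ := h r hr
    exact ⟨s, hs, e x hx⟩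

theorem Forces.congr_iff (e : ∀ i, Eqv p (v i) (w i)) : Forces φ p v ↔ Forces φ p w := by
  induction φ generalizing v w p with
  | mem i j =>
    exact ⟨fun h => (Mem.congr_left h (e i)).congr_right (e j),
      fun h => (Mem.congr_left h (e i).symm).congr_right (e j).symm⟩
  | eq i j =>
    exact ⟨fun h => (e i).symm.trans (Eqv.trans h (e j)),
      fun h => (e i).trans (Eqv.trans h (e j).symm)⟩
  | falsum => rfl
  | imp φ ψ ih1 ih2 =>
    exact forall₂_congr fun q hq =>
      imp_congr (ih1 fun i => (e i).mono hq) (ih2 fun i => (e i).mono hq)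
  | all φ ih =>
    refine forall₂_congr fun x _ => ih fun i => ?_
    cases i
    · exact Eqv.refl _ _
    · exact e _

theorem Forces.congr (h : Forces φ p v) (e : ∀ i, Eqv p (v i) (w i)) : Forces φ p w :=
  (Forces.congr_iff e).1 h

omit [OrderTop P] in
theorem eqv_cons {x y : Nm P} (h : Eqv p x y) (e : ∀ i, Eqv p (v i) (w i)) (i : ℕ) :
    Eqv p (cons x v i) (cons y w i) := by
  cases i
  · exact h
  · exact e _

theorem hs_cons {x : Nm P} (h : HS x) (e : ∀ i, HS (v i)) (i : ℕ) : HS (cons x v i) := by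
  cases i
  · exact h
  · exact e _

theorem Forces.smul (h : Forces φ p v) (π : G) : Forces φ (π • p) (fun i => π • v i) := by
  induction φ generalizing v p π with
  | mem => exact Mem.smul h π
  | eq => exact Eqv.smul h π
  | falsum => exact h
  | imp φ ψ ih1 ih2 =>
    intro q hq hφ
    have h1 := ih1 hφ π⁻¹
    simp only [inv_smul_smul] at h1
    have h2 := ih2 (h _ ((le_smul_iff' π).1 hq) h1) π
    rwa [smul_inv_smul] at h2
  | all φ ih =>
    intro x hx
    have h1 := ih (h _ (hx.smul π⁻¹)) π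
    convert h1 using 1
    funext i
    cases i
    · simp
    · rfl

theorem forces_ren (φ : Fm) (f : ℕ → ℕ) (p : P) (v : ℕ → Nm P) :
    Forces (φ.ren f) p v ↔ Forces φ p (fun n => v (f n)) := by
  induction φ generalizing f p v with
  | mem => rfl
  | eq => rfl
  | falsum => rfl
  | imp φ ψ ih1 ih2 => exact forall₂_congr fun q _ => imp_congr (ih1 _ _ _) (ih2 _ _ _)
  | all φ ih =>
    refine forall₂_congr fun x _ => ?_
    rw [ih]
    refine iff_of_eq (congrArg _ ?_)
    funext n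
    cases n <;> rfl

theorem forces_bd (e : ∀ i, i < φ.bd → v i = w i) : Forces φ p v ↔ Forces φ p w := by
  induction φ generalizing v w p with
  | mem i j =>
    simp only [forces_mem]
    rw [e i (by simp only [Fm.bd]; omega), e j (by simp only [Fm.bd]; omega)]
  | eq i j =>
    simp only [forces_eq]
    rw [e i (by simp only [Fm.bd]; omega), e j (by simp only [Fm.bd]; omega)]
  | falsum => rfl
  | imp φ ψ ih1 ih2 =>
    exact forall₂_congr fun q _ =>
      imp_congr (ih1 fun i hi => e i (by simp only [Fm.bd]; omega))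
        (ih2 fun i hi => e i (by simp only [Fm.bd]; omega))
  | all φ ih =>
    refine forall₂_congr fun x _ => ih fun i hi => ?_
    cases i
    · rfl
    · exact e _ (by simp only [Fm.bd]; omega)

@[simp] theorem forces_neg : Forces φ.neg p v ↔ ∀ q, q ≤ p → ¬ Forces φ q v := Iff.rfl

theorem exists_neg_of_not (h : ¬ Forces φ p v) : ∃ q, q ≤ p ∧ ∀ r, r ≤ q → ¬ Forces φ r v := by
  by_contra h'
  refine h (Forces.reg fun q hq => ?_)
  by_contra h''
  exact h' ⟨q, hq, fun r hr hφ => h'' ⟨r, hr, hφ⟩⟩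

@[simp] theorem forces_conj : Forces (φ.conj ψ) p v ↔ Forces φ p v ∧ Forces ψ p v := by
  rw [Fm.conj, forces_neg]
  refine ⟨fun h => ⟨Forces.reg fun q hq => ?_, Forces.reg fun q hq => ?_⟩, fun h q hq h' => ?_⟩
  · by_contra h'
    exact h q hq fun r hr hφ => (h' ⟨r, hr, hφ⟩).elim
  · by_contra h'
    exact h q hq fun r hr _ s hs hψ => h' ⟨s, hs.trans hr, hψ⟩
  · exact h' q le_rfl (h.1.mono hq) q le_rfl (h.2.mono hq)

@[simp] theorem forces_disj :
    Forces (φ.disj ψ) p v ↔ ∀ q, q ≤ p → ∃ r, r ≤ q ∧ (Forces φ r v ∨ Forces ψ r v) := by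
  rw [Fm.disj, forces_imp]
  refine ⟨fun h q hq => ?_, fun h q hq hn => Forces.reg fun r hr => ?_⟩
  · by_cases h' : ∃ r, r ≤ q ∧ Forces φ r v
    · obtain ⟨r, hr, h'⟩ := h'
      exact ⟨r, hr, Or.inl h'⟩
    · exact ⟨q, le_rfl, Or.inr (h q hq fun r hr hφ => h' ⟨r, hr, hφ⟩)⟩
  · obtain ⟨s, hs, h' | h'⟩ := h r (hr.trans hq)
    · exact (hn s (hs.trans hr) h').elim
    · exact ⟨s, hs, h'⟩

@[simp] theorem forces_biimp :
    Forces (φ.biimp ψ) p v ↔ ∀ q, q ≤ p → (Forces φ q v ↔ Forces ψ q v) := by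
  rw [Fm.biimp, forces_conj]
  exact ⟨fun h q hq => ⟨h.1 q hq, h.2 q hq⟩, fun h => ⟨fun q hq => (h q hq).1, fun q hq => (h q hq).2⟩⟩

@[simp] theorem forces_ex :
    Forces φ.ex p v ↔ ∀ q, q ≤ p → ∃ r, r ≤ q ∧ ∃ x, HS x ∧ Forces φ r (cons x v) := by
  rw [Fm.ex, forces_neg]
  refine forall₂_congr fun q _ => ⟨fun h => ?_, ?_⟩
  · by_contra h'
    exact h fun x hx r hr hφ => h' ⟨r, hr, x, hx, hφ⟩
  · rintro ⟨r, hr, x, hx, hφ⟩ h
    exact h x hx r hr hφ

theorem forces_ex_of {x : Nm P} (hx : HS x) (h : Forces φ p (cons x v)) : Forces φ.ex p v :=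
  forces_ex.2 fun q hq => ⟨q, le_rfl, x, hx, h.mono hq⟩

end Vale.Agent.P323
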