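import Vale.Agent.P323.Force

/-! P323: functions in the forcing language; reduction of PP and of the failure of AC to
statements about names. -/

namespace Vale.Agent.P323

variable {P G A : Type} [Preorder P] [OrderTop P] [Group G] [MulAction G P] [Sys P G]
  [MulAction G A] [Atoms P A]

/-- `p` forces `(a, b) ∈ f`. -/
def FApp {P : Type} [Preorder P] [OrderTop P] (p : P) (f a b : Nm P) : Prop :=
  Mem p (opair a b) f

theorem FApp.mono {p q : P} {f a b : Nm P} (h : FApp p f a b) (hq : q ≤ p) : FApp q f a b :=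
  Mem.mono h hq

theorem FApp.congr {p : P} {f a b f' a' b' : Nm P} (h : FApp p f a b) (ef : Eqv p f f')
    (ea : Eqv p a a') (eb : Eqv p b b') : FApp p f' a' b' :=
  (Mem.congr_left h (ea.opair eb)).congr_right ef

theorem FApp.smul {p : P} {f a b : Nm P} (h : FApp p f a b) (π : G) :
    FApp (π • p) (π • f) (π • a) (π • b) := by
  have := Mem.smul h π
  rwa [smul_opair] at this

/-- `p` forces that `f` is single valued. -/
def FSv {P G A : Type} [Preorder P] [OrderTop P] [Group G] [MulAction G P] [Sys P G]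
    [MulAction G A] [Atoms P A] (p : P) (f : Nm P) : Prop :=
  ∀ q, q ≤ p → ∀ a b b', HS a → HS b → HS b' → FApp q f a b → FApp q f a b' → Eqv q b b'

/-- `p` forces that `h` is single valued and maps a part of `X` onto `Y`. -/
def FSurj {P G A : Type} [Preorder P] [OrderTop P] [Group G] [MulAction G P] [Sys P G]
    [MulAction G A] [Atoms P A] (p : P) (h X Y : Nm P) : Prop :=
  FSv p h ∧ ∀ q, q ≤ p → ∀ b, HS b → Mem q b Y → ∃ r, r ≤ q ∧ ∃ a, HS a ∧ Mem r a X ∧ FApp r h a b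

/-- An external relation `Ψ` that defines an injection `Y → X` below `p`. -/
structure InjRel {P G A : Type} [Preorder P] [OrderTop P] [Group G] [MulAction G P] [Sys P G]
    [MulAction G A] [Atoms P A] (p : P) (Y X : Nm P) (Ψ : P → Nm P → Nm P → Prop) (F : Set A) :
    Prop where
  cnt : F.Countable
  mono : ∀ q r y z, r ≤ q → Ψ q y z → Ψ r y z
  congr : ∀ q y y' z z', HS y → HS y' → HS z → HS z' → Eqv q y y' → Eqv q z z' → Ψ q y z →
    Ψ q y' z'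
  inv : ∀ π : G, (∀ a ∈ F, π • a = a) → ∀ q y z, HS y → HS z → Ψ q y z →
    Ψ (π • q) (π • y) (π • z)
  sub : ∀ q y z, HS y → HS z → Ψ q y z → Mem q y Y ∧ Mem q z X
  tot : ∀ q, q ≤ p → ∀ y, HS y → Mem q y Y → ∃ r, r ≤ q ∧ ∃ z, HS z ∧ Ψ r y z
  sv : ∀ q, q ≤ p → ∀ y z z', HS y → HS z → HS z' → Ψ q y z → Ψ q y z' → Eqv q z z'
  inj : ∀ q, q ≤ p → ∀ y y' z, HS y → HS y' → HS z → Ψ q y z → Ψ q y' z → Eqv q y y'

/-- Plan: `Eqv.ext` and `mem_upair`. -/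
theorem forces_dbl {p : P} {v : ℕ → Nm P} (hv : ∀ i, HS (v i)) (u a b : ℕ) :
    Forces (Fm.dbl u a b) p v ↔ Eqv p (v u) (upair (v a) (v b)) := by
  simp only [Fm.dbl, forces_all, forces_biimp, forces_mem, forces_disj, forces_eq, cons_zero,
    cons_succ, ← mem_upair]
  exact ⟨fun h => Eqv.ext (hv u) ((hv a).upair (hv b)) h, fun h x _ q hq =>
    ⟨fun m => m.congr_right (h.mono hq), fun m => m.congr_right (h.mono hq).symm⟩⟩

theorem forces_pr {p : P} {v : ℕ → Nm P} (hv : ∀ i, HS (v i)) (w a b : ℕ) :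
    Forces (Fm.pr w a b) p v ↔ Eqv p (v w) (opair (v a) (v b)) := by
  have e : Forces (Fm.pr w a b) p v ↔ ∀ x, HS x → ∀ q, q ≤ p →
      (Mem q x (v w) ↔ Mem q x (opair (v a) (v b))) := by
    rw [Fm.pr, forces_all]
    refine forall₂_congr fun x hx => ?_
    simp only [forces_biimp, forces_mem, forces_disj, forces_dbl (hs_cons hx hv), cons_zero,
      cons_succ, opair, mem_upair]
  rw [e]
  exact ⟨fun h => Eqv.ext (hv w) ((hv a).opair (hv b)) h, fun h x _ q hq =>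
    ⟨fun m => m.congr_right (h.mono hq), fun m => m.congr_right (h.mono hq).symm⟩⟩

theorem forces_app {p : P} {v : ℕ → Nm P} (hv : ∀ i, HS (v i)) (f a b : ℕ) :
    Forces (Fm.app f a b) p v ↔ FApp p (v f) (v a) (v b) := by
  rw [Fm.app, forces_ex]
  refine ⟨fun h => Mem.reg fun q hq => ?_, fun h q hq =>
    ⟨q, le_rfl, opair (v a) (v b), (hv a).opair (hv b), ?_⟩⟩
  · obtain ⟨r, hr, x, hx, h1⟩ := h q hq
    rw [forces_conj, forces_pr (hs_cons hx hv)] at h1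
    exact ⟨r, hr, Mem.congr_left h1.1 h1.2⟩
  · rw [forces_conj, forces_pr (hs_cons ((hv a).opair (hv b)) hv)]
    exact ⟨h.mono hq, Eqv.refl _ _⟩

theorem forces_sv {p : P} {v : ℕ → Nm P} (hv : ∀ i, HS (v i)) (f : ℕ) :
    Forces (Fm.sv f) p v ↔ FSv p (v f) := by
  refine ⟨fun h q hq a b b' ha hb hb' h1 h2 => ?_, fun h a ha b hb b' hb' q hq h1 r hr h2 => ?_⟩
  · have hw := hs_cons hb' (hs_cons hb (hs_cons ha hv))
    exact h a ha b hb b' hb' q hq ((forces_app hw _ _ _).2 h1) q le_rfl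
      ((forces_app hw _ _ _).2 h2)
  · have hw := hs_cons hb' (hs_cons hb (hs_cons ha hv))
    exact h r (hr.trans hq) a b b' ha hb hb' (((forces_app hw _ _ _).1 h1).mono hr)
      ((forces_app hw _ _ _).1 h2)

/-- Plan: unfold `fPP`; the hypothesis gives `FSurj`; from `InjRel` take
`j := comp (fun k : Y.ι × X.ι => opair (Y.A k.1) (X.A k.2)) Φ` with
`Φ r t := ∃ y z, HS y ∧ HS z ∧ Eqv r t (opair y z) ∧ Ψ r y z`, which is `Good`; by `opair_inj`,
`FApp r j y z` holds iff `Ψ` holds densely below `r`. -/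
theorem forces_fPP
    (core : ∀ (p : P) (h X Y : Nm P), HS h → HS X → HS Y → FSurj p h X Y →
      ∃ q, q ≤ p ∧ ∃ (Ψ : P → Nm P → Nm P → Prop) (F : Set A), InjRel q Y X Ψ F)
    {p : P} {v : ℕ → Nm P} (hv : ∀ i, HS (v i)) : Forces Fm.fPP p v := by
  intro q _ h
  rw [forces_conj, Fm.func, forces_conj, forces_conj, forces_sv hv] at h
  obtain ⟨⟨-, -, hsv⟩, hsurj⟩ := h
  refine forces_ex.2 fun q' hq' => ?_
  obtain ⟨r, hr, Ψ, F, hΨ⟩ := core q' (v 0) (v 1) (v 2) (hv 0) (hv 1) (hv 2)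
    ⟨fun s hs => hsv s (hs.trans hq'), fun s hs b hb hm => by
      obtain ⟨s', hs', a, ha, h1⟩ := forces_ex.1 (hsurj b hb s (hs.trans hq') hm) s le_rfl
      rw [forces_conj, forces_app (hs_cons ha (hs_cons hb hv))] at h1
      exact ⟨s', hs', a, ha, h1.1, h1.2⟩⟩
  have hg : Good (fun k : (v 2).ι × (v 1).ι => opair ((v 2).A k.1) ((v 1).A k.2))
      (fun s t => ∃ y z, HS y ∧ HS z ∧ Eqv s t (opair y z) ∧ Ψ s y z) F := by
    refine ⟨hΨ.cnt, fun k => ((hv 2).elt _).opair ((hv 1).elt _), ?_, ?_, ?_, ?_⟩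
    · rintro s s' t hs ⟨y, z, hy, hz, e, h1⟩
      exact ⟨y, z, hy, hz, e.mono hs, hΨ.mono _ _ _ _ hs h1⟩
    · rintro s t t' _ _ e' ⟨y, z, hy, hz, e, h1⟩
      exact ⟨y, z, hy, hz, e'.symm.trans e, h1⟩
    · rintro π hπ s t _ ⟨y, z, hy, hz, e, h1⟩
      refine ⟨π • y, π • z, hy.smul π, hz.smul π, ?_, hΨ.inv π hπ _ _ _ hy hz h1⟩
      rw [← smul_opair]
      exact e.smul π
    · rintro s t _ ⟨y, z, hy, hz, e, h1⟩
      obtain ⟨m1, m2⟩ := hΨ.sub _ _ _ hy hz h1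
      obtain ⟨s1, hs1, i, _, e1⟩ := m1 s le_rfl
      obtain ⟨s2, hs2, j, _, e2⟩ := m2 s1 hs1
      exact ⟨s2, hs2.trans hs1, (i, j),
        (e.mono (hs2.trans hs1)).trans ((e1.mono hs2).opair e2)⟩
  have hj := hg.hs_comp
  generalize hjd : comp (fun k : (v 2).ι × (v 1).ι => opair ((v 2).A k.1) ((v 1).A k.2))
      (fun s t => ∃ y z, HS y ∧ HS z ∧ Eqv s t (opair y z) ∧ Ψ s y z) = j at hj
  have hmem : ∀ s t, HS t → (Mem s t j ↔ ∀ s', s' ≤ s → ∃ s'', s'' ≤ s' ∧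
      ∃ y z, HS y ∧ HS z ∧ Eqv s'' t (opair y z) ∧ Ψ s'' y z) := fun s t ht => by
    rw [← hjd]
    exact hg.mem_comp ht
  have key : ∀ s y z, HS y → HS z → FApp s j y z → ∀ s', s' ≤ s → ∃ s'', s'' ≤ s' ∧ Ψ s'' y z := by
    intro s y z hy hz h1 s' hs'
    obtain ⟨s'', hs'', y', z', hy', hz', e, h2⟩ := (hmem s _ (hy.opair hz)).1 h1 s' hs'
    obtain ⟨e1, e2⟩ := opair_inj e
    exact ⟨s'', hs'', hΨ.congr _ _ _ _ _ hy' hy hz' hz e1.symm e2.symm h2⟩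
  have hw := hs_cons hj hv
  refine ⟨r, hr, j, hj, ?_⟩
  rw [forces_conj, Fm.func, forces_conj, forces_conj, forces_sv hw]
  refine ⟨⟨fun w hw' s _ hm => ?_, fun y hy s hs hm => ?_, ?_⟩, ?_⟩
  · refine forces_ex.2 fun s' hs' => ?_
    obtain ⟨s'', hs'', y, z, hy, hz, e, h1⟩ := (hmem s w hw').1 hm s' hs'
    obtain ⟨m1, m2⟩ := hΨ.sub _ _ _ hy hz h1
    refine ⟨s'', hs'', y, hy, forces_ex_of hz ?_⟩
    rw [forces_conj, forces_conj, forces_pr (hs_cons hz (hs_cons hy (hs_cons hw' hw)))]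
    exact ⟨m1, m2, e⟩
  · refine forces_ex.2 fun s' hs' => ?_
    obtain ⟨s'', hs'', z, hz, h1⟩ := hΨ.tot s' (hs'.trans hs) y hy (Mem.mono hm hs')
    refine ⟨s'', hs'', z, hz, ?_⟩
    rw [forces_conj, forces_app (hs_cons hz (hs_cons hy hw))]
    exact ⟨(hΨ.sub _ _ _ hy hz h1).2, (hmem _ _ (hy.opair hz)).2 fun t ht =>
      ⟨t, le_rfl, y, z, hy, hz, Eqv.refl _ _, hΨ.mono _ _ _ _ ht h1⟩⟩
  · intro s hs y z z' hy hz hz' h1 h2
    refine Eqv.reg fun s1 hs1 => ?_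
    obtain ⟨s2, hs2, k1⟩ := key s y z hy hz h1 s1 hs1
    obtain ⟨s3, hs3, k2⟩ := key s y z' hy hz' h2 s2 (hs2.trans hs1)
    exact ⟨s3, hs3.trans hs2, hΨ.sv s3 (hs3.trans (hs2.trans (hs1.trans hs))) y z z' hy hz hz'
      (hΨ.mono _ _ _ _ hs3 k1) k2⟩
  · intro y hy y' hy' z hz s hs h1 s0 hs0 h2
    have hw' := hs_cons hz (hs_cons hy' (hs_cons hy hw))
    rw [forces_app hw'] at h1 h2
    refine Eqv.reg fun s1 hs1 => ?_
    obtain ⟨s2, hs2, k1⟩ := key s y z hy hz h1 s1 (hs1.trans hs0)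
    obtain ⟨s3, hs3, k2⟩ := key s0 y' z hy' hz h2 s2 (hs2.trans hs1)
    exact ⟨s3, hs3.trans hs2, hΨ.inj s3 (hs3.trans (hs2.trans (hs1.trans (hs0.trans hs))))
      y y' z hy hy' hz (hΨ.mono _ _ _ _ hs3 k1) k2⟩

/-- Plan: unfold `fNAC`, witness `F`. -/
theorem forces_fNAC (F : Nm P) (hF : HS F)
    (ne : ∀ q S, HS S → Mem q S F → ∃ r, r ≤ q ∧ ∃ x, HS x ∧ Mem r x S)
    (nc : ∀ q c, HS c → FSv q c →
      ¬ ∀ r, r ≤ q → ∀ S, HS S → Mem r S F → ∃ s, s ≤ r ∧ ∃ x, HS x ∧ Mem s x S ∧ FApp s c S x)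
    {p : P} {v : ℕ → Nm P} (hv : ∀ i, HS (v i)) : Forces Fm.fNAC p v := by
  have hw := hs_cons hF hv
  refine forces_ex_of hF (forces_conj.2 ⟨fun S hS q _ hm => forces_ex.2 fun r hr => ?_, ?_⟩)
  · exact ne r S hS (Mem.mono hm hr)
  · intro q _ h
    obtain ⟨r, _, c, hc, h1⟩ := forces_ex.1 h q le_rfl
    rw [Fm.chc, forces_conj, forces_sv (hs_cons hc hw)] at h1
    refine nc r c hc h1.2 fun s hs S hS hm => ?_
    obtain ⟨t, ht, x, hx, h2⟩ := forces_ex.1 (h1.1 S hS s hs hm) s le_rfl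
    rw [forces_conj, forces_app (hs_cons hx (hs_cons hS (hs_cons hc hw)))] at h2
    exact ⟨t, ht, x, hx, h2.1, h2.2⟩

end Vale.Agent.P323
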