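import Vale.Agent.P323.Names
import Mathlib.SetTheory.Cardinal.Order

/-! P323: hereditarily symmetric names, comprehension, basic names, mixing, schemas. -/

namespace Vale.Agent.P323

variable {P G A : Type} [Preorder P] [OrderTop P] [Group G] [MulAction G P] [Sys P G]
  [MulAction G A] [Atoms P A]

/-- `x` is supported by the set of atoms `F`. -/
def Sym {P G A : Type} [Preorder P] [OrderTop P] [Group G] [MulAction G P] [Sys P G]
    [MulAction G A] [Atoms P A] (x : Nm P) (F : Set A) : Prop :=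
  ∀ π : G, (∀ a ∈ F, π • a = a) → ∀ p : P, Eqv p (π • x) x

/-- Hereditarily symmetric names (countable supports). -/
def HS {P G A : Type} [Preorder P] [OrderTop P] [Group G] [MulAction G P] [Sys P G]
    [MulAction G A] [Atoms P A] : Nm P → Prop
  | .mk ι B C => (∃ F : Set A, F.Countable ∧ Sym (Nm.mk ι B C) F) ∧ ∀ i, HS (B i)

theorem hs_iff {x : Nm P} : HS x ↔ (∃ F : Set A, F.Countable ∧ Sym x F) ∧ ∀ i, HS (x.A i) := by
  cases x; rfl

theorem HS.supp {x : Nm P} (h : HS x) : ∃ F : Set A, F.Countable ∧ Sym x F := (hs_iff.1 h).1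

theorem HS.elt {x : Nm P} (h : HS x) (i : x.ι) : HS (x.A i) := (hs_iff.1 h).2 i

theorem Sym.mono {x : Nm P} {F F' : Set A} (h : Sym x F) (hF : F ⊆ F') : Sym x F' :=
  fun π hπ => h π fun a ha => hπ a (hF ha)

/-- Two group elements that agree on a support move the name in the same way. -/
theorem Sym.agree {x : Nm P} {F : Set A} (h : Sym x F) {π ρ : G} (hπ : ∀ a ∈ F, π • a = ρ • a)
    (p : P) : Eqv p (π • x) (ρ • x) := by
  have := (h (ρ⁻¹ * π) (fun a ha => by rw [mul_smul, hπ a ha, inv_smul_smul]) (ρ⁻¹ • p)).smul ρ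
  simpa [mul_smul] using this

theorem Sym.smul {x : Nm P} {F : Set A} (h : Sym x F) (π : G) :
    Sym (π • x) ((fun a => π • a) '' F) := by
  intro ρ hρ p
  rw [← mul_smul]
  exact h.agree (fun a ha => by rw [mul_smul]; exact hρ _ ⟨a, ha, rfl⟩) p

theorem Sym.smul_single {x : Nm P} {b : A} (h : Sym x {b}) (π : G) : Sym (π • x) {π • b} := by
  simpa using h.smul π

theorem HS.smul {x : Nm P} (h : HS x) (π : G) : HS (π • x) := by
  induction x with
  | mk ι B C ih =>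
    obtain ⟨F, hF, hs⟩ := h.1
    rw [hs_iff]
    exact ⟨⟨_, hF.image _, hs.smul π⟩, fun i => ih i (h.2 i)⟩

/-- Extensionality for hereditarily symmetric names. -/
theorem Eqv.ext {p : P} {x y : Nm P} (hx : HS x) (hy : HS y)
    (h : ∀ t, HS t → ∀ q, q ≤ p → (Mem q t x ↔ Mem q t y)) : Eqv p x y :=
  Eqv.of_mem (fun i q hq hB => (h _ (hx.elt i) q hq).1 (Mem.of_le hB))
    (fun i q hq hB => (h _ (hy.elt i) q hq).2 (Mem.of_le hB))

/-- The name listing the pairs `(C k, p)` with `(k, p) ∈ S`. -/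
def ofSet {P κ : Type} (C : κ → Nm P) (S : Set (κ × P)) : Nm P :=
  Nm.mk S (fun s => C s.1.1) (fun s => s.1.2)

/-- Comprehension name over the candidates `C`. -/
def comp {P κ : Type} (C : κ → Nm P) (Φ : P → Nm P → Prop) : Nm P :=
  ofSet C {s | Φ s.2 (C s.1)}

omit [OrderTop P] in
theorem mem_ofSet {κ : Type} {C : κ → Nm P} {S : Set (κ × P)} {p : P} {t : Nm P} :
    Mem p t (ofSet C S) ↔
      ∀ q, q ≤ p → ∃ r, r ≤ q ∧ ∃ k s, (k, s) ∈ S ∧ r ≤ s ∧ Eqv r t (C k) := by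
  refine forall₂_congr fun q _ => exists_congr fun r => and_congr_right fun _ => ?_
  exact ⟨fun ⟨j, h1, h2⟩ => ⟨j.1.1, j.1.2, j.2, h1, h2⟩,
    fun ⟨k, s, h, h1, h2⟩ => ⟨⟨(k, s), h⟩, h1, h2⟩⟩

/-- A class `Φ` that is monotone, respects forced equality, is invariant under the group
elements fixing `F`, and is covered by the candidates `C`. -/
structure Good {P G A : Type} [Preorder P] [OrderTop P] [Group G] [MulAction G P] [Sys P G]
    [MulAction G A] [Atoms P A] {κ : Type} (C : κ → Nm P) (Φ : P → Nm P → Prop) (F : Set A) :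
    Prop where
  cnt : F.Countable
  hs : ∀ k, HS (C k)
  mono : ∀ p q y, q ≤ p → Φ p y → Φ q y
  congr : ∀ p y y', HS y → HS y' → Eqv p y y' → Φ p y → Φ p y'
  inv : ∀ π : G, (∀ a ∈ F, π • a = a) → ∀ p y, HS y → Φ p y → Φ (π • p) (π • y)
  cover : ∀ p y, HS y → Φ p y → ∃ q, q ≤ p ∧ ∃ k, Eqv q y (C k)

theorem Good.mem_comp {κ : Type} {C : κ → Nm P} {Φ : P → Nm P → Prop} {F : Set A}
    (h : Good C Φ F) {p : P} {t : Nm P} (ht : HS t) :
    Mem p t (comp C Φ) ↔ ∀ q, q ≤ p → ∃ r, r ≤ q ∧ Φ r t := by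
  rw [comp, mem_ofSet]
  refine forall₂_congr fun q _ => ⟨?_, ?_⟩
  · rintro ⟨r, hr, k, s, hs, hrs, e⟩
    exact ⟨r, hr, h.congr _ _ _ (h.hs k) ht e.symm (h.mono _ _ _ hrs hs)⟩
  · rintro ⟨r, hr, hΦ⟩
    obtain ⟨s, hs, k, e⟩ := h.cover r t ht hΦ
    exact ⟨s, hs.trans hr, k, s, h.congr _ _ _ ht (h.hs k) e (h.mono _ _ _ hs hΦ), le_rfl, e⟩

theorem Good.mem_of {κ : Type} {C : κ → Nm P} {Φ : P → Nm P → Prop} {F : Set A}
    (h : Good C Φ F) {p : P} {t : Nm P} (ht : HS t) (hΦ : Φ p t) : Mem p t (comp C Φ) :=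
  (h.mem_comp ht).2 fun q hq => ⟨q, le_rfl, h.mono _ _ _ hq hΦ⟩

theorem Good.sym {κ : Type} {C : κ → Nm P} {Φ : P → Nm P → Prop} {F : Set A}
    (h : Good C Φ F) : Sym (comp C Φ) F := by
  intro π hπ p
  refine Eqv.of_mem (fun i q _ hB => ?_) (fun i q _ hB => ?_)
  · exact h.mem_of ((h.hs i.1.1).smul π)
      (h.mono _ _ _ hB (h.inv π hπ _ _ (h.hs i.1.1) i.2))
  · have h1 := h.inv π⁻¹ (fun a ha => by rw [inv_smul_eq_iff, hπ a ha]) _ _ (h.hs i.1.1) i.2
    have h2 := (h.mem_of ((h.hs i.1.1).smul π⁻¹) h1).smul π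
    rw [smul_inv_smul, smul_inv_smul] at h2
    exact h2.mono hB

theorem Good.hs_comp {κ : Type} {C : κ → Nm P} {Φ : P → Nm P → Prop} {F : Set A}
    (h : Good C Φ F) : HS (comp C Φ) :=
  hs_iff.2 ⟨⟨F, h.cnt, h.sym⟩, fun i => h.hs i.1.1⟩

/-- The name listing a family with the top condition. -/
def lst {P : Type} [Preorder P] [OrderTop P] {κ : Type} (C : κ → Nm P) : Nm P :=
  Nm.mk κ C fun _ => ⊤

theorem mem_lst {κ : Type} {C : κ → Nm P} {p : P} {t : Nm P} :
    Mem p t (lst C) ↔ ∀ q, q ≤ p → ∃ r, r ≤ q ∧ ∃ k, Eqv r t (C k) := by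
  refine forall₂_congr fun q _ => exists_congr fun r => and_congr_right fun _ => ?_
  exact ⟨fun ⟨j, _, h2⟩ => ⟨j, h2⟩, fun ⟨k, h⟩ => ⟨k, le_top, h⟩⟩

theorem mem_lst_of {κ : Type} {C : κ → Nm P} {p : P} {t : Nm P} (k : κ) (h : Eqv p t (C k)) :
    Mem p t (lst C) := mem_lst.2 fun q hq => ⟨q, le_rfl, k, h.mono hq⟩

theorem smul_lst {κ : Type} (C : κ → Nm P) (π : G) : π • lst C = lst fun k => π • C k := by
  simp only [lst, Nm.smul_mk, Sys.smul_top]

theorem eqv_lst {κ κ' : Type} {C : κ → Nm P} {C' : κ' → Nm P} {p : P}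
    (h1 : ∀ k, ∃ k', Eqv p (C k) (C' k')) (h2 : ∀ k', ∃ k, Eqv p (C k) (C' k')) :
    Eqv p (lst C) (lst C') :=
  Eqv.of_mem (fun i _ hq _ => (h1 i).elim fun k e => mem_lst_of k (e.mono hq))
    (fun i _ hq _ => (h2 i).elim fun k e => mem_lst_of k (e.symm.mono hq))

/-- The empty name. -/
def emp {P : Type} [Preorder P] [OrderTop P] : Nm P := lst (κ := Empty) fun e => e.elim

theorem not_mem_emp {p : P} {t : Nm P} : ¬ Mem p t emp := fun h => by
  obtain ⟨_, _, k, _⟩ := mem_lst.1 h p le_rfl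
  exact k.elim

theorem smul_emp (π : G) : π • (emp : Nm P) = emp := by
  rw [emp, smul_lst]; congr; funext e; exact e.elim

theorem hs_of_fixed {x : Nm P} (h : ∀ π : G, π • x = x) (h' : ∀ i, HS (x.A i)) : HS x :=
  hs_iff.2 ⟨⟨(∅ : Set A), Set.countable_empty, fun π _ p => by rw [h]; exact Eqv.refl _ _⟩, h'⟩

theorem hs_emp : HS (emp : Nm P) := hs_of_fixed smul_emp fun e => Empty.elim e

/-- Unordered pair. -/
def upair {P : Type} [Preorder P] [OrderTop P] (a b : Nm P) : Nm P :=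
  lst fun c : Bool => cond c a b

theorem mem_upair {p : P} {t a b : Nm P} :
    Mem p t (upair a b) ↔ ∀ q, q ≤ p → ∃ r, r ≤ q ∧ (Eqv r t a ∨ Eqv r t b) := by
  rw [upair, mem_lst]
  simp [or_comm]

theorem mem_upair_left (p : P) (a b : Nm P) : Mem p a (upair a b) :=
  mem_upair.2 fun q _ => ⟨q, le_rfl, Or.inl (Eqv.refl _ _)⟩

theorem mem_upair_right (p : P) (a b : Nm P) : Mem p b (upair a b) :=
  mem_upair.2 fun q _ => ⟨q, le_rfl, Or.inr (Eqv.refl _ _)⟩

theorem smul_upair (π : G) (a b : Nm P) : π • upair a b = upair (π • a) (π • b) := by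
  rw [upair, smul_lst]; congr; funext c; cases c <;> rfl

theorem Eqv.upair {p : P} {a b a' b' : Nm P} (ha : Eqv p a a') (hb : Eqv p b b') :
    Eqv p (upair a b) (upair a' b') :=
  eqv_lst (fun k => ⟨k, by cases k <;> assumption⟩) (fun k => ⟨k, by cases k <;> assumption⟩)

theorem HS.upair {a b : Nm P} (ha : HS a) (hb : HS b) : HS (upair a b) := by
  obtain ⟨F, hF, h1⟩ := ha.supp
  obtain ⟨F', hF', h2⟩ := hb.supp
  refine hs_iff.2 ⟨⟨F ∪ F', hF.union hF', fun π hπ p => ?_⟩, fun c => by cases c <;> assumption⟩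
  rw [smul_upair]
  exact (h1 π (fun a h => hπ a (Or.inl h)) p).upair (h2 π (fun a h => hπ a (Or.inr h)) p)

/-- Kuratowski pair. -/
def opair {P : Type} [Preorder P] [OrderTop P] (a b : Nm P) : Nm P :=
  upair (upair a a) (upair a b)

theorem smul_opair (π : G) (a b : Nm P) : π • opair a b = opair (π • a) (π • b) := by
  simp only [opair, smul_upair]

theorem Eqv.opair {p : P} {a b a' b' : Nm P} (ha : Eqv p a a') (hb : Eqv p b b') :
    Eqv p (opair a b) (opair a' b') := (ha.upair ha).upair (ha.upair hb)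

theorem HS.opair {a b : Nm P} (ha : HS a) (hb : HS b) : HS (opair a b) :=
  (ha.upair ha).upair (ha.upair hb)

theorem eqv_of_mem_sing {p : P} {t a : Nm P} (h : Mem p t (upair a a)) : Eqv p t a :=
  Eqv.reg fun q hq => by simpa using mem_upair.1 h q hq

theorem upair_cancel {p : P} {a b b' : Nm P} (h : Eqv p (upair a b) (upair a b')) :
    Eqv p b b' := by
  refine Eqv.reg fun q hq => ?_
  obtain ⟨r, hr, e | e⟩ := mem_upair.1 ((mem_upair_right p a b).congr_right h) q hq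
  · obtain ⟨s, hs, e' | e'⟩ :=
      mem_upair.1 ((mem_upair_right p a b').congr_right h.symm) r (hr.trans hq)
    · exact ⟨s, hs.trans hr, (e.mono hs).trans e'.symm⟩
    · exact ⟨s, hs.trans hr, e'.symm⟩
  · exact ⟨r, hr, e⟩

theorem opair_inj {p : P} {a b a' b' : Nm P} (h : Eqv p (opair a b) (opair a' b')) :
    Eqv p a a' ∧ Eqv p b b' := by
  have ha : Eqv p a a' := by
    refine Eqv.reg fun q hq => ?_
    obtain ⟨r, hr, e | e⟩ := mem_upair.1 ((mem_upair_left p _ _).congr_right h) q hq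
    · exact ⟨r, hr, (eqv_of_mem_sing ((mem_upair_left r a' a').congr_right e.symm)).symm⟩
    · exact ⟨r, hr, (eqv_of_mem_sing ((mem_upair_left r a' b').congr_right e.symm)).symm⟩
  exact ⟨ha, upair_cancel (upair_cancel (h.trans (ha.symm.opair (Eqv.refl _ _))))⟩

/-- `x ∪ {x}`. -/
def sc {P : Type} [Preorder P] [OrderTop P] (x : Nm P) : Nm P :=
  Nm.mk (Option x.ι) (fun o => o.elim x x.A) (fun o => o.elim ⊤ x.B)

theorem mem_sc {p : P} {t x : Nm P} :
    Mem p t (sc x) ↔ ∀ q, q ≤ p → ∃ r, r ≤ q ∧ (Mem r t x ∨ Eqv r t x) := by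
  refine forall₂_congr fun q _ => ⟨?_, ?_⟩
  · rintro ⟨r, hr, _ | j, h1, h2⟩
    · exact ⟨r, hr, Or.inr h2⟩
    · exact ⟨r, hr, Or.inl ((Mem.of_le (y := x) (j := j) h1).congr_left h2.symm)⟩
  · rintro ⟨r, hr, h | h⟩
    · obtain ⟨s, hs, j, h1, h2⟩ := h r le_rfl
      exact ⟨s, hs.trans hr, some j, h1, h2⟩
    · exact ⟨r, hr, none, le_top, h⟩

theorem smul_sc (π : G) (x : Nm P) : π • sc x = sc (π • x) := by
  obtain ⟨ι, B, C⟩ := x
  rw [sc, Nm.smul_mk]
  congr
  · funext o; cases o <;> rfl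
  · funext o; cases o
    · exact Sys.smul_top π
    · rfl

/-- Numerals. -/
def num {P : Type} [Preorder P] [OrderTop P] : ℕ → Nm P
  | 0 => emp
  | n + 1 => sc (num n)

theorem smul_num (π : G) (n : ℕ) : π • (num n : Nm P) = num n := by
  induction n with
  | zero => exact smul_emp π
  | succ n ih => rw [num, smul_sc, ih]

theorem hs_num (n : ℕ) : HS (num n : Nm P) := by
  induction n with
  | zero => exact hs_emp
  | succ n ih =>
    refine hs_of_fixed (fun π => smul_num π _) fun o => ?_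
    cases o
    · exact ih
    · exact ih.elt _

theorem num_mem {p : P} {n m : ℕ} (h : n < m) : Mem p (num n) (num m) := by
  induction m with
  | zero => omega
  | succ m ih =>
    refine mem_sc.2 fun q hq => ⟨q, le_rfl, ?_⟩
    rcases Nat.lt_succ_iff_lt_or_eq.1 h with h | rfl
    · exact Or.inl ((ih h).mono hq)
    · exact Or.inr (Eqv.refl _ _)

theorem num_inj {p : P} {n m : ℕ} (h : Eqv p (num n) (num m)) : n = m := by
  rcases lt_trichotomy n m with h' | h' | h'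
  · exact (not_mem_self p _ ((num_mem h').congr_left h)).elim
  · exact h'
  · exact (not_mem_self p _ ((num_mem h').congr_left h.symm)).elim

/-- The canonical name of a set of naturals. -/
def chk {P : Type} [Preorder P] [OrderTop P] (c : Set ℕ) : Nm P := lst fun n : c => num n.1

theorem smul_chk (π : G) (c : Set ℕ) : π • (chk c : Nm P) = chk c := by
  simp only [chk, smul_lst, smul_num]

theorem hs_chk (c : Set ℕ) : HS (chk c : Nm P) :=
  hs_of_fixed (fun π => smul_chk π c) fun n => hs_num n.1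

theorem chk_inj {p : P} {c c' : Set ℕ} (h : Eqv p (chk c) (chk c')) : c = c' := by
  have key : ∀ {c c' : Set ℕ}, Eqv p (chk c) (chk c') → c ⊆ c' := fun {c c'} h n hn => by
    obtain ⟨r, _, k, e⟩ :=
      mem_lst.1 ((mem_lst_of (⟨n, hn⟩ : c) (Eqv.refl p _)).congr_right h) p le_rfl
    have e' : n = k.1 := num_inj e
    rw [e']; exact k.2
  exact (key h).antisymm (key h.symm)

/-- Mixing: if `y` behaves symmetrically below `q`, it is forced equal to a name with support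
`F`. -/
theorem mixing {y : Nm P} (hy : HS y) {F : Set A} (hF : F.Countable) {q : P}
    (h : ∀ π : G, (∀ a ∈ F, π • a = a) → ∀ t, t ≤ q → t ≤ π • q → Eqv t (π • y) y) :
    ∃ τ, HS τ ∧ Sym τ F ∧ Eqv q y τ := by
  have hg : Good (fun k : G × y.ι => k.1 • y.A k.2)
      (fun r t => ∃ π : G, (∀ a ∈ F, π • a = a) ∧ r ≤ π • q ∧ Mem r t (π • y)) F := by
    refine ⟨hF, fun k => (hy.elt _).smul _, ?_, ?_, ?_, ?_⟩
    · rintro p r t hr ⟨π, h1, h2, h3⟩
      exact ⟨π, h1, hr.trans h2, h3.mono hr⟩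
    · rintro p t t' _ _ e ⟨π, h1, h2, h3⟩
      exact ⟨π, h1, h2, h3.congr_left e⟩
    · rintro ρ hρ p t _ ⟨π, h1, h2, h3⟩
      refine ⟨ρ * π, fun a ha => by rw [mul_smul, h1 a ha, hρ a ha], ?_, ?_⟩
      · rw [mul_smul]; exact Sys.smul_mono ρ h2
      · rw [mul_smul]; exact h3.smul ρ
    · rintro p t _ ⟨π, _, _, h3⟩
      obtain ⟨κ, B, C⟩ := y
      obtain ⟨r, hr, j, _, e⟩ := h3 p le_rfl
      exact ⟨r, hr, (π, j), e⟩
  refine ⟨_, hg.hs_comp, hg.sym, Eqv.ext hy hg.hs_comp fun t ht r hr => ⟨fun hm => ?_, fun hm => ?_⟩⟩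
  · exact hg.mem_of ht ⟨1, fun a _ => one_smul _ _, by simpa using hr, by simpa using hm⟩
  · refine Mem.reg fun s hs => ?_
    obtain ⟨u, hu, π, h1, h2, h3⟩ := (hg.mem_comp ht).1 hm s hs
    exact ⟨u, hu, h3.congr_right (h π h1 u (hu.trans (hs.trans hr)) h2)⟩

/-- `p` forces that `y` has a name supported by the single atom `b`. -/
def In {P G A : Type} [Preorder P] [OrderTop P] [Group G] [MulAction G P] [Sys P G]
    [MulAction G A] [Atoms P A] (p : P) (b : A) (y : Nm P) : Prop :=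
  ∃ τ, HS τ ∧ Sym τ {b} ∧ Eqv p y τ

theorem In.mono {p q : P} {b : A} {y : Nm P} (h : In p b y) (hq : q ≤ p) : In q b y :=
  h.imp fun _ h => ⟨h.1, h.2.1, h.2.2.mono hq⟩

theorem In.congr {p : P} {b : A} {y y' : Nm P} (h : In p b y) (e : Eqv p y y') : In p b y' :=
  h.imp fun _ h => ⟨h.1, h.2.1, e.symm.trans h.2.2⟩

theorem In.smul {p : P} {b : A} {y : Nm P} (h : In p b y) (π : G) :
    In (π • p) (π • b) (π • y) := by
  obtain ⟨τ, h1, h2, h3⟩ := h
  exact ⟨π • τ, h1.smul π, h2.smul_single π, h3.smul π⟩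

/-- A set of equivariant schemes that names every element of `X` from a one-atom support. -/
theorem exists_schema (X : Nm P) : ∃ (W : Type) (σ : W → A → Nm P), (∀ w b, HS (σ w b)) ∧
    (∀ (π : G) w b p, Eqv p (π • σ w b) (σ w (π • b))) ∧
    ∀ p z b, Mem p z X → In p b z → ∃ q, q ≤ p ∧ ∃ w, Eqv q z (σ w b) := by
  classical
  let τ : X.ι × A × P → Nm P := fun w =>
    if h : In w.2.2 w.2.1 (X.A w.1) then h.choose else emp
  have hτ : ∀ w, HS (τ w) ∧ Sym (τ w) {w.2.1} := fun w => by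
    simp only [τ]
    split_ifs with h
    · exact ⟨h.choose_spec.1, h.choose_spec.2.1⟩
    · exact ⟨hs_emp, fun π _ p => by rw [smul_emp]; exact Eqv.refl _ _⟩
  refine ⟨X.ι × A × P, fun w b => if h : ∃ π : G, π • w.2.1 = b then h.choose • τ w else emp,
    fun w b => ?_, fun π w b p => ?_, fun p z b hz hb => ?_⟩
  · beta_reduce
    split_ifs with h
    · exact (hτ w).1.smul _
    · exact hs_emp
  · beta_reduce
    by_cases h : ∃ ρ : G, ρ • w.2.1 = b
    · have h' : ∃ ρ : G, ρ • w.2.1 = π • b := ⟨π * h.choose, by rw [mul_smul, h.choose_spec]⟩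
      rw [dif_pos h, dif_pos h', ← mul_smul]
      refine (hτ w).2.agree (fun a ha => ?_) p
      rw [Set.mem_singleton_iff.1 ha, mul_smul, h.choose_spec, h'.choose_spec]
    · have h' : ¬ ∃ ρ : G, ρ • w.2.1 = π • b := fun ⟨ρ, e⟩ =>
        h ⟨π⁻¹ * ρ, by rw [mul_smul, e, inv_smul_smul]⟩
      rw [dif_neg h, dif_neg h', smul_emp]
      exact Eqv.refl _ _
  · obtain ⟨q, hq, i, _, e⟩ := hz p le_rfl
    have hi : In q b (X.A i) := (hb.mono hq).congr e
    have h : ∃ π : G, π • b = b := ⟨1, one_smul _ _⟩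
    refine ⟨q, hq, (i, b, q), ?_⟩
    beta_reduce
    rw [dif_pos h]
    refine e.trans (Eqv.trans ?_ ((hτ (i, b, q)).2 _ (fun a ha => ?_) q).symm)
    · simp only [τ, dif_pos hi]
      exact hi.choose_spec.2.2
    · rw [Set.mem_singleton_iff.1 ha]; exact h.choose_spec

/-- `w` satisfies `Q` at `p` and no smaller index can be forced to satisfy it below `p`. -/
def Least {P W : Type} [Preorder P] (Q : P → W → Prop) (p : P) (w : W) : Prop :=
  Q p w ∧ ∀ w', WellOrderingRel w' w → ∀ q, q ≤ p → ¬ Q q w'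

omit [OrderTop P] in
theorem Least.mono {W : Type} {Q : P → W → Prop} (hQ : ∀ p q w, q ≤ p → Q p w → Q q w) {p q : P}
    {w : W} (h : Least Q p w) (hq : q ≤ p) : Least Q q w :=
  ⟨hQ _ _ _ hq h.1, fun w' hw r hr => h.2 w' hw r (hr.trans hq)⟩

omit [OrderTop P] in
theorem Least.unique {W : Type} {Q : P → W → Prop} {p : P} {w w' : W} (h : Least Q p w)
    (h' : Least Q p w') : w = w' := by
  rcases trichotomous_of (WellOrderingRel (α := W)) w w' with e | e | e
  · exact (h'.2 w e p le_rfl h.1).elim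
  · exact e
  · exact (h.2 w' e p le_rfl h'.1).elim

omit [OrderTop P] in
theorem exists_least {W : Type} {Q : P → W → Prop} {p : P} {w : W} (h : Q p w) :
    ∃ q, q ≤ p ∧ ∃ w', Least Q q w' := by
  obtain ⟨w', ⟨q, hq, h1⟩, h2⟩ := (IsWellFounded.wf (r := WellOrderingRel (α := W))).has_min
    {w | ∃ q, q ≤ p ∧ Q q w} ⟨w, p, le_rfl, h⟩
  exact ⟨q, hq, w', h1, fun w'' hw r hr hQ => h2 w'' ⟨r, hr.trans hq, hQ⟩ hw⟩

omit [OrderTop P] in
/-- Transfer between two predicates that agree below `p`. -/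
theorem Least.congr {W : Type} {Q Q' : P → W → Prop} {p : P} {w : W} (h : Least Q p w)
    (e : ∀ q, q ≤ p → ∀ w, (Q q w ↔ Q' q w)) : Least Q' p w :=
  ⟨(e p le_rfl w).1 h.1, fun w' hw q hq h' => h.2 w' hw q hq ((e q hq w').2 h')⟩

/-- Transfer along a group element. -/
theorem Least.smul {W : Type} {Q Q' : P → W → Prop} {p : P} {w : W} (h : Least Q p w) (π : G)
    (e : ∀ q w, (Q q w ↔ Q' (π • q) w)) : Least Q' (π • p) w :=
  ⟨(e p w).1 h.1, fun w' hw q hq h' => h.2 w' hw (π⁻¹ • q) ((le_smul_iff' π).1 hq)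
    ((e _ w').2 (by rwa [smul_inv_smul]))⟩

end Vale.Agent.P323
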