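import Vale.Agent.P323.Force

/-! P323: a countable two-valued model of everything forced by the top condition.

Plan (Henkin-style generic). Fix a surjection `e : ℕ → Fm × List ℕ` such that every pair is hit
at arbitrarily late stages (for example `e n = e0 (Nat.unpair n).1`). For `p`, `φ` and an
assignment `v` of `HS` names there are `q ≤ p` and an `HS` name `y` with
* `Forces φ q v` or `∀ r ≤ q, ¬ Forces φ r v`, and
* if `φ = all ψ` then `Forces φ q v` or `∀ r ≤ q, ¬ Forces ψ r (cons y v)`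
(use `exists_neg_of_not`). Build states `(p n, x n) : P × (ℕ → Nm P)` by recursion, start
`(⊤, fun _ => emp)`; at stage `n` with `e n = (φ, l)` take `v i = x n (l.getD i 0)`, choose `q, y`,
and put `p (n+1) = q`, `x (n+1) = Function.update (x n) (n+1) y`. Then `X i := x i i` satisfies
`x n i = X i` for `i ≤ n`. Let `M` be the quotient of `ℕ` by `∃ n, Eqv (p n) (X i) (X j)` and
`mem` the relation `∃ n, Mem (p n) (X i) (X j)` (well defined by `Mem.congr_left/right`).
Truth lemma by induction on `φ`: for `u : ℕ → ℕ`,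
`Sat mem φ (fun i => mk (u i)) ↔ ∃ n, Forces φ (p n) (fun i => X (u i))`.
To use a stage for `(φ, u)`: take `l = List.ofFn` of `u` on `Fin φ.bd` (or
`(List.range φ.bd).map u`), a stage `n` above all entries of `l` with `e n = (φ, l)`, and
`forces_bd`. No fullness is needed. -/

namespace Vale.Agent.P323

variable {P G A : Type} [Preorder P] [OrderTop P] [Group G] [MulAction G P] [Sys P G]
  [MulAction G A] [Atoms P A]

theorem henkin_step (p : P) (φ : Fm) (v : ℕ → Nm P) : ∃ q, q ≤ p ∧ ∃ y, HS y ∧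
    (Forces φ q v ∨ ∀ r, r ≤ q → ¬ Forces φ r v) ∧
    ∀ ψ, φ = .all ψ → (Forces φ q v ∨ ∀ r, r ≤ q → ¬ Forces ψ r (cons y v)) := by
  by_cases h : Forces φ p v
  · exact ⟨p, le_rfl, emp, hs_emp, Or.inl h, fun _ _ => Or.inl h⟩
  by_cases h' : ∃ ψ, φ = .all ψ
  · obtain ⟨ψ, rfl⟩ := h'
    simp only [forces_all, not_forall] at h
    obtain ⟨y, hy, h⟩ := h
    obtain ⟨q, hq, h1⟩ := exists_neg_of_not h
    refine ⟨q, hq, y, hy, Or.inr fun r hr h2 => h1 r hr (h2 y hy), fun ψ' e => Or.inr ?_⟩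
    cases e
    exact h1
  · obtain ⟨q, hq, h1⟩ := exists_neg_of_not h
    exact ⟨q, hq, emp, hs_emp, Or.inr h1, fun ψ e => (h' ⟨ψ, e⟩).elim⟩

theorem henkin_bound (u : ℕ → ℕ) (b : ℕ) : ∃ N, ∀ i, i < b → u i ≤ N := by
  induction b with
  | zero => exact ⟨0, fun i hi => absurd hi (Nat.not_lt_zero i)⟩
  | succ b ih =>
    obtain ⟨N, hN⟩ := ih
    refine ⟨max N (u b), fun i hi => ?_⟩
    rcases Nat.lt_succ_iff_lt_or_eq.1 hi with h | rfl
    · exact (hN i h).trans (le_max_left _ _)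
    · exact le_max_right _ _

theorem henkin_seq (P : Type) {G A : Type} [Preorder P] [OrderTop P] [Group G] [MulAction G P]
    [Sys P G] [MulAction G A] [Atoms P A] :
    ∃ (pp : ℕ → P) (X : ℕ → Nm P), Antitone pp ∧ (∀ i, HS (X i)) ∧
      ∀ (φ : Fm) (u : ℕ → ℕ), ∃ n k,
        (Forces φ (pp n) (fun i => X (u i)) ∨
          ∀ r, r ≤ pp n → ¬ Forces φ r (fun i => X (u i))) ∧
        ∀ ψ, φ = .all ψ → (Forces φ (pp n) (fun i => X (u i)) ∨
          ∀ r, r ≤ pp n → ¬ Forces ψ r (cons (X k) fun i => X (u i))) := by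
  classical
  choose Q hQ Y hY h1 h2 using henkin_step (P := P)
  have : Nonempty (Fm × List ℕ) := ⟨(.falsum, [])⟩
  obtain ⟨e0, he0⟩ := exists_surjective_nat (Fm × List ℕ)
  let e : ℕ → Fm × List ℕ := fun n => e0 (Nat.unpair n).1
  let St : ℕ → P × (ℕ → Nm P) := fun n => Nat.rec (⊤, fun _ => emp)
    (fun n s => (Q s.1 (e n).1 fun i => s.2 ((e n).2.getD i 0),
      Function.update s.2 (n + 1) (Y s.1 (e n).1 fun i => s.2 ((e n).2.getD i 0)))) n
  have s1 : ∀ n, (St (n + 1)).1 = Q (St n).1 (e n).1 fun i => (St n).2 ((e n).2.getD i 0) :=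
    fun _ => rfl
  have s2 : ∀ n, (St (n + 1)).2 = Function.update (St n).2 (n + 1)
      (Y (St n).1 (e n).1 fun i => (St n).2 ((e n).2.getD i 0)) := fun _ => rfl
  have hhs : ∀ n i, HS ((St n).2 i) := by
    intro n
    induction n with
    | zero => exact fun _ => hs_emp
    | succ n ih =>
      intro i
      rw [s2]
      by_cases hi : i = n + 1
      · rw [hi, Function.update_self]
        exact hY _ _ _
      · rw [Function.update_of_ne hi]
        exact ih i
  have hst : ∀ i n, i ≤ n → (St n).2 i = (St i).2 i := by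
    intro i n hn
    induction n, hn using Nat.le_induction with
    | base => rfl
    | succ n hn ih => rw [s2, Function.update_of_ne (by omega), ih]
  refine ⟨fun n => (St n).1, fun i => (St i).2 i,
    antitone_nat_of_succ_le fun n => by rw [s1]; exact hQ _ _ _, fun i => hhs i i, fun φ u => ?_⟩
  obtain ⟨m, hm⟩ := he0 (φ, (List.range φ.bd).map u)
  obtain ⟨N, hN⟩ := henkin_bound u φ.bd
  have he : e (Nat.pair m N) = (φ, (List.range φ.bd).map u) := by
    simp only [e, Nat.unpair_pair, hm]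
  have hle : N ≤ Nat.pair m N := Nat.right_le_pair m N
  generalize Nat.pair m N = n at he hle
  have hv : ∀ i, i < φ.bd →
      (St n).2 (((List.range φ.bd).map u).getD i 0) = (St (u i)).2 (u i) := fun i hi => by
    have : ((List.range φ.bd).map u).getD i 0 = u i := by simp [List.getD, hi]
    rw [this, hst _ _ ((hN i hi).trans hle)]
  have a1 := h1 (St n).1 φ fun i => (St n).2 (((List.range φ.bd).map u).getD i 0)
  have a2 := h2 (St n).1 φ fun i => (St n).2 (((List.range φ.bd).map u).getD i 0)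
  refine ⟨n + 1, n + 1, ?_, fun ψ hψ => ?_⟩
  · simp only [s1, he]
    exact a1.imp (forces_bd hv).1 fun h r hr h' => h r hr ((forces_bd hv).2 h')
  · simp only [s1, s2, he, Function.update_self]
    refine (a2 ψ hψ).imp (forces_bd hv).1 fun h r hr h' => h r hr ((forces_bd fun i hi => ?_).2 h')
    rcases i with _ | i
    · rfl
    · exact hv i (by rw [hψ]; exact (Nat.lt_succ_self i).trans hi)

theorem henkin (P : Type) {G A : Type} [Preorder P] [OrderTop P] [Group G] [MulAction G P]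
    [Sys P G] [MulAction G A] [Atoms P A] :
    ∃ (M : Type) (_ : Nonempty M) (mem : M → M → Prop),
      ∀ φ : Fm, (∀ v : ℕ → Nm P, (∀ i, HS (v i)) → Forces φ (⊤ : P) v) → ∀ u, Sat mem φ u := by
  obtain ⟨pp, X, hpp, hX, hd⟩ := henkin_seq P
  have l1 : ∀ n m, pp (max n m) ≤ pp n := fun n m => hpp (le_max_left n m)
  have l2 : ∀ n m, pp (max n m) ≤ pp m := fun n m => hpp (le_max_right n m)
  let S : Setoid ℕ := ⟨fun i j => ∃ n, Eqv (pp n) (X i) (X j),
    fun i => ⟨0, Eqv.refl _ _⟩, fun ⟨n, h⟩ => ⟨n, h.symm⟩,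
    fun ⟨n, h⟩ ⟨m, h'⟩ => ⟨max n m, (h.mono (l1 n m)).trans (h'.mono (l2 n m))⟩⟩
  let mem : Quotient S → Quotient S → Prop := fun a b =>
    ∃ i j n, Quotient.mk S i = a ∧ Quotient.mk S j = b ∧ Mem (pp n) (X i) (X j)
  have c1 : ∀ (k : ℕ) (u : ℕ → ℕ), (cons (Quotient.mk S k) fun i => Quotient.mk S (u i)) =
      fun i => Quotient.mk S (cons k u i) := fun k u => funext fun i => by cases i <;> rfl
  have c2 : ∀ (k : ℕ) (u : ℕ → ℕ), (cons (X k) fun i => X (u i)) =
      fun i => X (cons k u i) := fun k u => funext fun i => by cases i <;> rfl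
  have truth : ∀ (φ : Fm) (u : ℕ → ℕ), Sat mem φ (fun i => Quotient.mk S (u i)) ↔
      ∃ n, Forces φ (pp n) fun i => X (u i) := by
    intro φ
    induction φ with
    | mem a b =>
      intro u
      refine ⟨?_, fun ⟨n, h⟩ => ⟨u a, u b, n, rfl, rfl, h⟩⟩
      rintro ⟨i, j, n, hi, hj, h⟩
      obtain ⟨m, hm⟩ := Quotient.exact hi
      obtain ⟨k, hk⟩ := Quotient.exact hj
      exact ⟨max (max n m) k, ((h.mono ((l1 _ _).trans (l1 _ _))).congr_left
        (hm.mono ((l1 _ _).trans (l2 _ _)))).congr_right (hk.mono (l2 _ _))⟩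
    | eq a b => exact fun u => Quotient.eq
    | falsum => exact fun u => ⟨False.elim, fun ⟨_, h⟩ => h⟩
    | imp φ ψ ih1 ih2 =>
      intro u
      refine ⟨fun h => ?_, fun ⟨n, h⟩ h' => ?_⟩
      · obtain ⟨n, -, h1 | h1, -⟩ := hd φ u
        · obtain ⟨m, hm⟩ := (ih2 u).1 (h ((ih1 u).2 ⟨n, h1⟩))
          exact ⟨m, fun q hq _ => hm.mono hq⟩
        · exact ⟨n, fun q hq h2 => (h1 q hq h2).elim⟩
      · obtain ⟨m, hm⟩ := (ih1 u).1 h'
        exact (ih2 u).2 ⟨max n m, h _ (l1 n m) (hm.mono (l2 n m))⟩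
    | all ψ ih =>
      intro u
      refine ⟨fun h => ?_, fun ⟨n, h⟩ x => ?_⟩
      · obtain ⟨n, k, -, h1⟩ := hd (.all ψ) u
        rcases h1 ψ rfl with h1 | h1
        · exact ⟨n, h1⟩
        · have h2 := h (Quotient.mk S k)
          rw [c1] at h2
          obtain ⟨m, hm⟩ := (ih _).1 h2
          rw [c2] at h1
          exact (h1 _ (l1 n m) (hm.mono (l2 n m))).elim
      · obtain ⟨k, rfl⟩ := Quotient.exists_rep x
        rw [c1]
        refine (ih _).2 ⟨n, ?_⟩
        rw [← c2]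
        exact h _ (hX k)
  refine ⟨Quotient S, ⟨Quotient.mk S 0⟩, mem, fun φ h u => ?_⟩
  have hu : u = fun i => Quotient.mk S (u i).out := funext fun i => (Quotient.out_eq _).symm
  rw [hu]
  exact (truth φ _).2 ⟨0, (h _ fun i => hX _).mono le_top⟩

end Vale.Agent.P323
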