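import Vale.Agent.P323.Dense2
import Vale.Agent.P323.Fun

/-! P323: the Axiom of Choice is forced to fail. -/

namespace Vale.Agent.P323

/-- The generic set attached to the atom `x`. -/
def atomN (x : At) : Nm Cond := ofSet chk {s : Set ℕ × Cond | s.2.g x s.1 true}

/-- The atoms not below `b`. -/
def outN (b : At) : Nm Cond := ofSet atomN {s : At × Cond | s.2.E s.1 ∧ s.2.E b ∧ ¬ s.2.le s.1 b}

def famN : Nm Cond := lst outN

theorem eqv_smul_ofSet {κ κ' : Type} {C : κ → Nm Cond} {C' : κ' → Nm Cond} {S : Set (κ × Cond)}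
    {S' : Set (κ' × Cond)} {π : Gam} {p : Cond}
    (h1 : ∀ k s, (k, s) ∈ S → ∃ k', (k', π • s) ∈ S' ∧ Eqv p (π • C k) (C' k'))
    (h2 : ∀ k' s, (k', π • s) ∈ S' → ∃ k, (k, s) ∈ S ∧ Eqv p (π • C k) (C' k')) :
    Eqv p (π • ofSet C S) (ofSet C' S') := by
  refine eqv_iff.2 ⟨fun i q hq hB => ?_, fun j q hq hB => ?_⟩
  · obtain ⟨k', hk, e⟩ := h1 i.1.1 i.1.2 i.2
    exact ⟨q, le_rfl, ⟨(k', π • i.1.2), hk⟩, hB, e.mono hq⟩
  · obtain ⟨k, hk, e⟩ := h2 j.1.1 (π⁻¹ • j.1.2) (by rw [smul_inv_smul]; exact j.2)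
    refine ⟨q, le_rfl, ⟨(k, π⁻¹ • j.1.2), hk⟩, ?_, e.mono hq⟩
    show q ≤ π • π⁻¹ • j.1.2
    rw [smul_inv_smul]
    exact hB

theorem mem_ofSet_of {κ : Type} {C : κ → Nm Cond} {S : Set (κ × Cond)} {k : κ} {p : Cond}
    (h : (k, p) ∈ S) : Mem p (C k) (ofSet C S) :=
  mem_ofSet.2 fun q hq => ⟨q, le_rfl, k, p, h, hq, Eqv.refl _ _⟩

/-- Plan: `Eqv.of_mem`, `mem_ofSet`, `smul_chk`, `Cond.smul_g_smul`. -/
theorem smul_atomN (π : Gam) (x : At) (p : Cond) : Eqv p (π • atomN x) (atomN (π • x)) := by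
  refine eqv_smul_ofSet (fun k s h => ⟨k, Cond.smul_g_smul.2 h, ?_⟩)
    fun k s h => ⟨k, Cond.smul_g_smul.1 h, ?_⟩ <;>
  · rw [smul_chk]
    exact Eqv.refl _ _

theorem hs_atomN (x : At) : HS (atomN x) := by
  refine hs_iff.2 ⟨⟨{x}, Set.countable_singleton x, fun π hπ p => ?_⟩, fun i => hs_chk i.1.1⟩
  have := smul_atomN π x p
  rwa [hπ x rfl] at this

/-- Plan: `add_g`; `chk c` is forced into the first name; if it were forced into the second one,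
`chk_inj` and `g_fun` give a contradiction. -/
theorem atomN_inj {p : Cond} {x x' : At} (hx : p.E x) (hx' : p.E x')
    (e : Eqv p (atomN x) (atomN x')) : x = x' := by
  by_contra h
  obtain ⟨q, hq, c, h1, h2⟩ := add_g p hx hx' h
  have h3 : Mem q (chk c) (atomN x) := mem_ofSet_of h1
  obtain ⟨r, hr, k, s, hs, hrs, e'⟩ := mem_ofSet.1 (h3.congr_right (e.mono hq)) q le_rfl
  have h4 : s.g x' k true := hs
  rw [← chk_inj e'] at h4
  exact absurd (r.ok.g_fun ((Cond.ext_of_le hrs).g h4) ((Cond.ext_of_le hr).g h2)) (by decide)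

theorem smul_outN (π : Gam) (b : At) (p : Cond) : Eqv p (π • outN b) (outN (π • b)) := by
  refine eqv_smul_ofSet (fun k s h => ⟨π • k, ⟨Cond.smul_E_smul.2 h.1, Cond.smul_E_smul.2 h.2.1,
    fun h' => h.2.2 (Cond.smul_le_smul.1 h')⟩, smul_atomN π k p⟩) fun k s h => ?_
  obtain ⟨k, rfl⟩ : ∃ k', k = π • k' := ⟨π⁻¹ • k, (smul_inv_smul π k).symm⟩
  exact ⟨k, ⟨Cond.smul_E_smul.1 h.1, Cond.smul_E_smul.1 h.2.1,
    fun h' => h.2.2 (Cond.smul_le_smul.2 h')⟩, smul_atomN π k p⟩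

theorem hs_outN (b : At) : HS (outN b) := by
  refine hs_iff.2 ⟨⟨{b}, Set.countable_singleton b, fun π hπ p => ?_⟩, fun i => hs_atomN i.1.1⟩
  have := smul_outN π b p
  rwa [hπ b rfl] at this

theorem hs_famN : HS famN := by
  refine hs_iff.2 ⟨⟨(∅ : Set At), Set.countable_empty, fun π _ p => ?_⟩, fun i => hs_outN i⟩
  rw [famN, smul_lst]
  refine eqv_lst (fun k => ⟨π • k, smul_outN π k p⟩) fun k => ⟨π⁻¹ • k, ?_⟩
  have := smul_outN π (π⁻¹ • k) p
  rwa [smul_inv_smul] at this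

/-- Plan: pass to `S = outN b`, `cover` with `{b}`, then `add_top` of a fresh atom. -/
theorem famN_ne (q : Cond) (S : Nm Cond) (hS : HS S) (h : Mem q S famN) :
    ∃ r, r ≤ q ∧ ∃ x, HS x ∧ Mem r x S := by
  obtain ⟨r, hr, b, e⟩ := mem_lst.1 h q le_rfl
  obtain ⟨r', hr', a, -, -, hb⟩ := cover r (Set.countable_singleton b)
  have hb' : r'.E b := hb b rfl
  obtain ⟨x, hx⟩ := exists_fresh r'.ok.cnt
  obtain ⟨s, hs, h1, h2⟩ := add_top r' (x := x) hx
  have h3 : s.E b := Cond.E_of_le hs hb'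
  have h4 : Mem s (atomN x) (outN b) :=
    mem_ofSet_of ⟨h1, h3, fun h' => hx (by
      have e' : x = b := s.ok.antisymm h' (h2 b h3)
      rw [e']
      exact hb')⟩
  exact ⟨s, hs.trans (hr'.trans hr), atomN x, hs_atomN x,
    h4.congr_right (e.mono (hs.trans hr')).symm⟩

/-- Plan: `cover` a support `F` of `c`, getting `a` above `F` and `z1`; get `s` forcing
`(outN a, atomN x) ∈ c` with `¬ s.le x a`; `copy_am` for `(s, s, a)` gives `π` fixing `F` and `a`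
with `π • x ∉ E s` and a common extension `t`; it forces `(outN a, atomN (π • x)) ∈ c`, so
`atomN_inj` gives `x = π • x`. -/
theorem famN_nc (q : Cond) (c : Nm Cond) (hc : HS c) (hsv : FSv q c) :
    ¬ ∀ r, r ≤ q → ∀ S, HS S → Mem r S famN →
      ∃ s, s ≤ r ∧ ∃ x, HS x ∧ Mem s x S ∧ FApp s c S x := by
  intro H
  obtain ⟨F, hF, hsym⟩ := hc.supp
  obtain ⟨q1, hq1, a, -, h1, h2⟩ := cover q hF
  obtain ⟨s, hs, y, -, m1, m2⟩ := H q1 hq1 (outN a) (hs_outN a) (mem_lst_of a (Eqv.refl _ _))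
  obtain ⟨s1, hs1, x, s', hx, hs', e⟩ := mem_ofSet.1 m1 s le_rfl
  have k1 : s1 ≤ q1 := hs1.trans hs
  have hxE : s1.E x := Cond.E_of_le hs' hx.1
  have hxa : ¬ s1.le x a := fun h => hx.2.2 (Cond.le_back hs' hx.1 hx.2.1 h)
  have f1 : FApp s1 c (outN a) (atomN x) := (m2.mono hs1).congr (Eqv.refl _ _) (Eqv.refl _ _) e
  have ha : s1.le z1 a := Cond.le_of_le k1 (h1 _ q1.ok.e1)
  obtain ⟨π, t, hfix, hfr, t1, t2, -⟩ := copy_am (le_refl s1) ha
  have f2 : FApp t c (outN a) (atomN (π • x)) := by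
    refine ((f1.smul π).mono t2).congr
      (hsym π (fun z hz => hfix z (Cond.le_of_le k1 (h1 z (h2 z hz)))) t) ?_ (smul_atomN π x t)
    have := smul_outN π a t
    rwa [hfix a (s1.ok.right ha)] at this
  have e' := hsv t (t1.trans (k1.trans hq1)) _ _ _ (hs_outN a) (hs_atomN x) (hs_atomN _)
    (f1.mono t1) f2
  have e'' := atomN_inj (Cond.E_of_le t1 hxE) (Cond.E_of_le t2 (Cond.smul_E_smul.2 hxE)) e'
  exact hxa (hfr x hxE (e'' ▸ hxE))

end Vale.Agent.P323
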