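import Vale.Agent.P323.Code
import Vale.Agent.P323.Fun

/-! P323: the Partition Principle is forced. -/

namespace Vale.Agent.P323

/-- The data of the construction. -/
structure Setup : Type 1 where
  h : Nm Cond
  X : Nm Cond
  Y : Nm Cond
  a : At
  k : At
  F : Set At
  WX : Type
  WY : Type
  σX : WX → At → Nm Cond
  σY : WY → At → Nm Cond
  cnt : F.Countable
  aF : a ∈ F
  kF : k ∈ F
  F0 : Set At
  sub : F0 ⊆ F
  sh : Sym h F0
  sX : Sym X F0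
  sY : Sym Y F0
  hsX : ∀ w b, HS (σX w b)
  hsY : ∀ w b, HS (σY w b)
  eX : ∀ (π : Gam) w b p, Eqv p (π • σX w b) (σX w (π • b))
  eY : ∀ (π : Gam) w b p, Eqv p (π • σY w b) (σY w (π • b))
  cX : ∀ p z b, Mem p z X → In p b z → ∃ q, q ≤ p ∧ ∃ w, Eqv q z (σX w b)
  cY : ∀ p z b, Mem p z Y → In p b z → ∃ q, q ≤ p ∧ ∃ w, Eqv q z (σY w b)

namespace Setup

variable (S : Setup)

/-- `y` has canonical support `x` and least scheme `w`. -/
def Sig (p : Cond) (y : Nm Cond) (x : At) (w : S.WY) : Prop :=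
  Code p x y ∧ Least (fun q w => Eqv q y (S.σY w x)) p w

/-- The scheme `w` at `a` names a preimage of `y`. -/
def Sm (y : Nm Cond) (p : Cond) (w : S.WX) : Prop :=
  Mem p (S.σX w S.a) S.X ∧ FApp p S.h (S.σX w S.a) y

/-- `z = σX w' x'` is a point of `X` outside `a` whose image has scheme `w`. -/
def Pt (w : S.WY) (p : Cond) (x' : At) (w' : S.WX) : Prop :=
  ¬ p.le x' S.a ∧ p.E S.a ∧ Code p x' (S.σX w' x') ∧ Mem p (S.σX w' x') S.X ∧
    ∃ y' x'', HS y' ∧ FApp p S.h (S.σX w' x') y' ∧ S.Sig p y' x'' w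

def Gd (w : S.WY) (x : At) (p : Cond) (cw : Set ℕ × S.WX) : Prop :=
  ∃ x', p.ent S.k x cw.1 x' ∧ S.Pt w p x' cw.2

def Psi (p : Cond) (y z : Nm Cond) : Prop :=
  Mem p y S.Y ∧ ∃ x w, S.Sig p y x w ∧
    ((∃ w', Least (S.Sm y) p w' ∧ Eqv p z (S.σX w' S.a)) ∨
      ((∀ q, q ≤ p → ∀ w', ¬ S.Sm y q w') ∧ ∃ cw, Least (S.Gd w x) p cw ∧
        ∃ x', p.ent S.k x cw.1 x' ∧ Eqv p z (S.σX cw.2 x')))

variable {S}

theorem Sig.mono {p q : Cond} {y x w} (h : S.Sig p y x w) (hq : q ≤ p) : S.Sig q y x w :=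
  ⟨h.1.mono hq, h.2.mono (fun _ _ _ a b => b.mono a) hq⟩

theorem Sig.congr {p : Cond} {y y' x w} (h : S.Sig p y x w) (e : Eqv p y y') : S.Sig p y' x w :=
  ⟨h.1.congr e, h.2.congr fun _ hq _ =>
    ⟨fun a => (e.mono hq).symm.trans a, fun a => (e.mono hq).trans a⟩⟩

theorem Sig.unique {p : Cond} {y x w x' w'} (h : S.Sig p y x w) (h' : S.Sig p y x' w') :
    x = x' ∧ w = w' := by
  obtain rfl := h.1.unique h'.1
  exact ⟨rfl, h.2.unique h'.2⟩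

theorem Sig.smul {p : Cond} {y x w} (h : S.Sig p y x w) (π : Gam) :
    S.Sig (π • p) (π • y) (π • x) w := by
  refine ⟨h.1.smul π, h.2.smul π fun q w => ⟨fun a => (a.smul π).trans (S.eY π w x _), fun a => ?_⟩⟩
  have := (a.trans (S.eY π w x _).symm).smul π⁻¹
  simpa using this

theorem exists_sig {p : Cond} {y : Nm Cond} (hy : HS y) (h : Mem p y S.Y) :
    ∃ q, q ≤ p ∧ ∃ x w, S.Sig q y x w := by
  obtain ⟨q, hq, x, h1, h2⟩ := exists_code p hy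
  obtain ⟨r, hr, w, e⟩ := S.cY q y x (h.mono hq) h2
  obtain ⟨s, hs, w', e'⟩ := exists_least (Q := fun q w => Eqv q y (S.σY w x)) e
  exact ⟨s, hs.trans (hr.trans hq), x, w', h1.mono (hs.trans hr), e'⟩

theorem Sm.mono {y} {p q : Cond} {w} (h : S.Sm y p w) (hq : q ≤ p) : S.Sm y q w :=
  ⟨h.1.mono hq, h.2.mono hq⟩

theorem Sm.congr {y y'} {p : Cond} {w} (h : S.Sm y p w) (e : Eqv p y y') : S.Sm y' p w :=
  ⟨h.1, h.2.congr (Eqv.refl _ _) (Eqv.refl _ _) e⟩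

theorem Sm.smul {y} {p : Cond} {w} (h : S.Sm y p w) {π : Gam} (h0 : ∀ a ∈ S.F0, π • a = a)
    (ha : π • S.a = S.a) : S.Sm (π • y) (π • p) w := by
  have e := S.eX π w S.a (π • p)
  rw [ha] at e
  exact ⟨((h.1.smul π).congr_left e).congr_right (S.sX π h0 _),
    (h.2.smul π).congr (S.sh π h0 _) e (Eqv.refl _ _)⟩

theorem Pt.mono {w} {p q : Cond} {x' w'} (h : S.Pt w p x' w') (hq : q ≤ p) : S.Pt w q x' w' := by
  obtain ⟨h1, h2, h3, h4, y', x'', h5, h6, h7⟩ := h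
  exact ⟨fun a => h1 (Cond.le_back hq h3.E h2 a), Cond.E_of_le hq h2, h3.mono hq, h4.mono hq,
    y', x'', h5, h6.mono hq, h7.mono hq⟩

theorem Pt.smul {w} {p : Cond} {x' w'} (h : S.Pt w p x' w') {π : Gam}
    (h0 : ∀ a ∈ S.F0, π • a = a) (ha : π • S.a = S.a) : S.Pt w (π • p) (π • x') w' := by
  obtain ⟨h1, h2, h3, h4, y', x'', h5, h6, h7⟩ := h
  have e := S.eX π w' x' (π • p)
  refine ⟨?_, ?_, (h3.smul π).congr e, ((h4.smul π).congr_left e).congr_right (S.sX π h0 _),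
    π • y', π • x'', h5.smul π, (h6.smul π).congr (S.sh π h0 _) e (Eqv.refl _ _), h7.smul π⟩
  · rw [← ha, Cond.smul_le_smul]; exact h1
  · rw [← ha, Cond.smul_E_smul]; exact h2

theorem Gd.mono {w x} {p q : Cond} {cw} (h : S.Gd w x p cw) (hq : q ≤ p) : S.Gd w x q cw :=
  h.imp fun _ h => ⟨(Cond.ext_of_le hq).ent h.1, h.2.mono hq⟩

theorem Gd.smul {w x} {p : Cond} {cw} (h : S.Gd w x p cw) {π : Gam}
    (hπ : ∀ a ∈ S.F, π • a = a) : S.Gd w (π • x) (π • p) cw := by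
  obtain ⟨x', h1, h2⟩ := h
  refine ⟨π • x', ?_, h2.smul (fun a ha => hπ a (S.sub ha)) (hπ _ S.aF)⟩
  rw [← hπ _ S.kF, Cond.smul_ent_smul]
  exact h1

theorem fix_inv {F : Set At} {π : Gam} (hπ : ∀ a ∈ F, π • a = a) : ∀ a ∈ F, π⁻¹ • a = a :=
  fun a ha => by rw [inv_smul_eq_iff, hπ a ha]

theorem in_σX (p : Cond) (w : S.WX) (b : At) : In p b (S.σX w b) :=
  ⟨_, S.hsX w b, fun π hπ q => by
    have e := S.eX π w b q
    rwa [hπ b rfl] at e, Eqv.refl _ _⟩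

theorem injRel {p : Cond} (hs : FSurj p S.h S.X S.Y) (ha : p.le z1 S.a) (hk : p.le S.a S.k)
    (hk' : ¬ p.le S.k S.a) (hF : ∀ z ∈ S.F0, p.le z S.a) : InjRel p S.Y S.X S.Psi S.F where
  cnt := S.cnt
  mono := by
    rintro q r y z hr ⟨h0, x, w, h1, ⟨w', h2, h3⟩ | ⟨h2, cw, h3, x', h4, h5⟩⟩
    · exact ⟨h0.mono hr, x, w, h1.mono hr,
        Or.inl ⟨w', h2.mono (fun _ _ _ a b => b.mono a) hr, h3.mono hr⟩⟩
    · exact ⟨h0.mono hr, x, w, h1.mono hr, Or.inr ⟨fun s hs => h2 s (hs.trans hr), cw,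
        h3.mono (fun _ _ _ a b => b.mono a) hr, x', (Cond.ext_of_le hr).ent h4, h5.mono hr⟩⟩
  congr := by
    rintro q y y' z z' _ _ _ _ ey ez ⟨h0, x, w, h1, ⟨w', h2, h3⟩ | ⟨h2, cw, h3, x', h4, h5⟩⟩
    · exact ⟨h0.congr_left ey, x, w, h1.congr ey, Or.inl ⟨w', h2.congr fun r hr _ =>
        ⟨fun a => a.congr (ey.mono hr), fun a => a.congr (ey.mono hr).symm⟩, ez.symm.trans h3⟩⟩
    · exact ⟨h0.congr_left ey, x, w, h1.congr ey, Or.inr
        ⟨fun r hr w' a => h2 r hr w' (a.congr (ey.mono hr).symm), cw, h3, x', h4, ez.symm.trans h5⟩⟩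
  inv := by
    rintro π hπ q y z _ _ ⟨h0, x, w, h1, h2⟩
    have hπ0 : ∀ a ∈ S.F0, π • a = a := fun a ha => hπ a (S.sub ha)
    have hsm : ∀ r w', S.Sm y r w' ↔ S.Sm (π • y) (π • r) w' := fun r w' =>
      ⟨fun a => a.smul hπ0 (hπ _ S.aF), fun a => by
        simpa using a.smul (fix_inv hπ0) (fix_inv hπ _ S.aF)⟩
    refine ⟨(h0.smul π).congr_right (S.sY π hπ0 _), π • x, w, h1.smul π, ?_⟩
    rcases h2 with ⟨w', h2, h3⟩ | ⟨h2, cw, h3, x', h4, h5⟩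
    · refine Or.inl ⟨w', h2.smul π hsm, ?_⟩
      have e := S.eX π w' S.a (π • q)
      rw [hπ _ S.aF] at e
      exact (h3.smul π).trans e
    · refine Or.inr ⟨fun r hr w' a => h2 (π⁻¹ • r) ((le_smul_iff' π).1 hr) w'
        ((hsm _ _).2 (by rwa [smul_inv_smul])), cw,
        h3.smul π fun r cw => ⟨fun a => a.smul hπ, fun a => by simpa using a.smul (fix_inv hπ)⟩,
        π • x', ?_, (h5.smul π).trans (S.eX π _ _ _)⟩
      rw [← hπ _ S.kF, Cond.smul_ent_smul]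
      exact h4
  sub := by
    rintro q y z _ _ ⟨h0, x, w, h1, ⟨w', h2, h3⟩ | ⟨_, cw, ⟨⟨x2, h6, h7⟩, _⟩, x', h4, h5⟩⟩
    · exact ⟨h0, h2.1.1.congr_left h3.symm⟩
    · obtain rfl := q.ok.ent_fun h4 h6
      exact ⟨h0, h7.2.2.2.1.congr_left h5.symm⟩
  tot := by
    intro q hq y hy hm
    obtain ⟨r1, hr1, x, w, h1⟩ := exists_sig hy hm
    by_cases hsm : ∃ r, r ≤ r1 ∧ ∃ w', S.Sm y r w'
    · obtain ⟨r2, hr2, w', h2⟩ := hsm
      obtain ⟨r3, hr3, w'', h3⟩ := exists_least h2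
      have h4 := hr3.trans hr2
      exact ⟨r3, h4.trans hr1, _, S.hsX w'' S.a, hm.mono (h4.trans hr1), x, w, h1.mono h4,
        Or.inl ⟨w'', h3, Eqv.refl _ _⟩⟩
    · have hns : ∀ r, r ≤ r1 → ∀ w', ¬ S.Sm y r w' := fun r hr w' a => hsm ⟨r, hr, w', a⟩
      obtain ⟨r2, hr2, z, hz, h2, h3⟩ := hs.2 r1 (hr1.trans hq) y hy (hm.mono hr1)
      obtain ⟨r3, hr3, x0, h4, h5⟩ := exists_code r2 hz
      obtain ⟨r4, hr4, w', e⟩ := S.cX r3 z x0 (h2.mono hr3) h5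
      have h42 := hr4.trans hr3
      have h41 := h42.trans hr2
      have h4p := h41.trans (hr1.trans hq)
      have hx0 : ¬ r4.le x0 S.a := fun a => by
        obtain ⟨r5, hr5, h6⟩ := (h4.2 r4 hr4 S.a (Cond.le_of_le h4p ha)).1 a
        obtain ⟨r6, hr6, w'', e'⟩ := S.cX r5 z S.a (h2.mono (hr5.trans h42)) h6
        have h62 := hr6.trans (hr5.trans h42)
        exact hns r6 (h62.trans hr2) w'' ⟨(h2.mono h62).congr_left e',
          (h3.mono h62).congr (Eqv.refl _ _) e' (Eqv.refl _ _)⟩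
      have hpt : S.Pt w r4 x0 w' := ⟨hx0, r4.ok.right (Cond.le_of_le h4p ha),
        (h4.mono hr4).congr e, (h2.mono h42).congr_left e, y, x, hy,
        (h3.mono h42).congr (Eqv.refl _ _) e (Eqv.refl _ _), h1.mono h41⟩
      obtain ⟨π, t, c, hπ, ht, ht', hent⟩ := add_entry r4 (Cond.le_of_le h4p ha)
        (Cond.le_of_le h4p hk)
        (fun a => hk' (Cond.le_back h4p (p.ok.right hk) (p.ok.left hk) a))
        (h1.mono h41).1.E (h4.mono hr4).E hx0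
      have hgd : S.Gd w x t (c, w') := ⟨π • x0, hent,
        (hpt.smul (fun a ha => hπ a (Cond.le_of_le h4p (hF a ha))) (hπ _ hpt.2.1)).mono ht'⟩
      obtain ⟨u, hu, cw, h6⟩ := exists_least hgd
      have hu1 := hu.trans (ht.trans h41)
      obtain ⟨x', h7, _⟩ := h6.1
      exact ⟨u, hu1.trans hr1, _, S.hsX cw.2 x', hm.mono (hu1.trans hr1), x, w, h1.mono hu1,
        Or.inr ⟨fun r hr => hns r (hr.trans hu1), cw, h6, x', h7, Eqv.refl _ _⟩⟩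
  sv := by
    rintro q _ y z z' _ _ _ ⟨_, x, w, h1, h2⟩ ⟨_, x2, w2, h1', h2'⟩
    obtain ⟨rfl, rfl⟩ := h1.unique h1'
    rcases h2 with ⟨w', h2, h3⟩ | ⟨h2, cw, h3, x', h4, h5⟩ <;>
      rcases h2' with ⟨w2', h2', h3'⟩ | ⟨h2', cw', h3', x2', h4', h5'⟩
    · obtain rfl := h2.unique h2'
      exact h3.trans h3'.symm
    · exact (h2' q le_rfl _ h2.1).elim
    · exact (h2 q le_rfl _ h2'.1).elim
    · obtain rfl := h3.unique h3'
      obtain rfl := q.ok.ent_fun h4 h4'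
      exact h5.trans h5'.symm
  inj := by
    have mixed : ∀ q, q ≤ p → ∀ z w x w' (cw : Set ℕ × S.WX) x', Eqv q z (S.σX w' S.a) →
        S.Gd w x q cw → q.ent S.k x cw.1 x' → Eqv q z (S.σX cw.2 x') → False := by
      rintro q hq z w x w' cw x' e1 ⟨x2, h1, h2⟩ h3 e2
      obtain rfl := q.ok.ent_fun h1 h3
      exact h2.1 ((h2.2.2.1.2 q le_rfl S.a (Cond.le_of_le hq ha)).2
        ⟨q, le_rfl, (in_σX q w' S.a).congr (e1.symm.trans e2)⟩)
    rintro q hq y y2 z hy hy2 hz ⟨_, x, w, h1, h2⟩ ⟨_, x2, w2, h1', h2'⟩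
    rcases h2 with ⟨w', h2, h3⟩ | ⟨h2, cw, h3, x', h4, h5⟩ <;>
      rcases h2' with ⟨w2', h2', h3'⟩ | ⟨h2', cw', h3', x2', h4', h5'⟩
    · exact hs.1 q hq z y y2 hz hy hy2 (h2.1.2.congr (Eqv.refl _ _) h3.symm (Eqv.refl _ _))
        (h2'.1.2.congr (Eqv.refl _ _) h3'.symm (Eqv.refl _ _))
    · exact (mixed q hq z _ _ _ _ _ h3 h3'.1 h4' h5').elim
    · exact (mixed q hq z _ _ _ _ _ h3' h3.1 h4 h5).elim
    · obtain ⟨x3, a1, _, _, a2, _, y3, x4, a3, a4, a5⟩ := h3.1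
      obtain ⟨x3', b1, _, _, b2, _, y3', x4', b3, b4, b5⟩ := h3'.1
      obtain rfl := q.ok.ent_fun h4 a1
      obtain rfl := q.ok.ent_fun h4' b1
      obtain rfl := (a2.congr h5.symm).unique (b2.congr h5'.symm)
      obtain rfl := q.ok.ent_inj h4 h4'
      have e := hs.1 q hq z y3 y3' hz a3 b3 (a4.congr (Eqv.refl _ _) h5.symm (Eqv.refl _ _))
        (b4.congr (Eqv.refl _ _) h5'.symm (Eqv.refl _ _))
      obtain ⟨_, rfl⟩ := (a5.congr e).unique b5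
      exact h1.2.1.trans h1'.2.1.symm

end Setup

theorem pp_core (p : Cond) (h X Y : Nm Cond) (hh : HS h) (hX : HS X) (hY : HS Y)
    (hs : FSurj p h X Y) :
    ∃ q, q ≤ p ∧ ∃ (Ψ : Cond → Nm Cond → Nm Cond → Prop) (F : Set At), InjRel q Y X Ψ F := by
  obtain ⟨F1, c1, s1⟩ := hh.supp
  obtain ⟨F2, c2, s2⟩ := hX.supp
  obtain ⟨F3, c3, s3⟩ := hY.supp
  have c0 : (F1 ∪ F2 ∪ F3).Countable := (c1.union c2).union c3
  obtain ⟨q, hq, a, _, ha, hF⟩ := cover p c0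
  obtain ⟨k, hk⟩ := exists_fresh q.ok.cnt
  obtain ⟨r, hr, hk1, hk2⟩ := add_top q hk
  obtain ⟨WX, σX, x1, x2, x3⟩ := exists_schema X
  obtain ⟨WY, σY, y1, y2, y3⟩ := exists_schema Y
  have h1a := ha z1 q.ok.e1
  let S : Setup := ⟨h, X, Y, a, k, insert a (insert k (F1 ∪ F2 ∪ F3)), WX, WY, σX, σY,
    (c0.insert k).insert a, Or.inl rfl, Or.inr (Or.inl rfl), F1 ∪ F2 ∪ F3,
    fun _ hz => Or.inr (Or.inr hz), s1.mono fun _ hz => Or.inl (Or.inl hz),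
    s2.mono fun _ hz => Or.inl (Or.inr hz), s3.mono fun _ hz => Or.inr hz, x1, y1, x2, y2, x3, y3⟩
  have hak : r.le a k := hk2 a (Cond.E_of_le hr (q.ok.right h1a))
  refine ⟨r, hr.trans hq, S.Psi, S.F, Setup.injRel (S := S)
    ⟨fun s hs' => hs.1 s (hs'.trans (hr.trans hq)), fun s hs' => hs.2 s (hs'.trans (hr.trans hq))⟩
    (Cond.le_of_le hr h1a) hak (fun hka => hk ?_) fun z hz => Cond.le_of_le hr (ha z (hF z hz))⟩
  have e : k = a := r.ok.antisymm hka hak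
  rw [e]
  exact q.ok.right h1a

end Vale.Agent.P323
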