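import Vale.Agent.P323.Force

/-! P323: extensionality, foundation, pairing, union, infinity are forced.

`simp only [Fm.fExt, forces_imp, forces_all, forces_biimp, forces_mem, cons_zero, cons_succ]` and
friends unfold the formulas (numerals: `cons x v 1` is `v 0` by `rfl`, use `show`/`exact`).
Use `forces_ex_of` to give witnesses. -/

namespace Vale.Agent.P323

variable {P G A : Type} [Preorder P] [OrderTop P] [Group G] [MulAction G P] [Sys P G]
  [MulAction G A] [Atoms P A] {p : P} {v : ℕ → Nm P}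

/-- Plan: `Eqv.ext`. -/
theorem forces_fExt (hv : ∀ i, HS (v i)) : Forces Fm.fExt p v := by
  intro q _ h
  exact Eqv.ext (hv 0) (hv 1) fun t ht r hr => forces_biimp.1 (h t ht) r hr

/-- Plan: by structural induction on an `HS` name `u`: if `Mem q u x` then some `r ≤ q` and `HS`
name `m` have `Mem r m x` and `∀ t, HS t → ∀ s ≤ r, Mem s t m → ∀ s' ≤ s, ¬ Mem s' t x`. (If `u`
itself fails, some `t` is forced into `u` and `x`; it is forced equal to `u.A j`; use the
induction hypothesis for `u.A j`.) -/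
theorem forces_fFound (hv : ∀ i, HS (v i)) : Forces Fm.fFound p v := by
  have _ := hv
  have key : ∀ u : Nm P, HS u → ∀ q, Mem q u (v 0) → ∃ r, r ≤ q ∧ ∃ m, HS m ∧ Mem r m (v 0) ∧
      ∀ t, HS t → ∀ s, s ≤ r → Mem s t m → ∀ s', s' ≤ s → ¬ Mem s' t (v 0) := by
    intro u
    induction u with
    | mk ι B C ih =>
      intro hu q hq
      by_cases h : ∀ t, HS t → ∀ s, s ≤ q → Mem s t (Nm.mk ι B C) →
          ∀ s', s' ≤ s → ¬ Mem s' t (v 0)
      · exact ⟨q, le_rfl, _, hu, hq, h⟩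
      · simp only [not_forall, not_not] at h
        obtain ⟨t, -, s, hs, h1, s', hs', h2⟩ := h
        obtain ⟨r, hr, j, -, e⟩ := h1 s' hs'
        obtain ⟨r', hr', h3⟩ := ih j (hu.elt j) r ((h2.mono hr).congr_left e)
        exact ⟨r', hr'.trans (hr.trans (hs'.trans hs)), h3⟩
  intro q _ h
  refine forces_ex.2 fun r hr => ?_
  obtain ⟨s, hs, u, hu, h1⟩ := forces_ex.1 h r hr
  obtain ⟨s', hs', m, hm, h2, h3⟩ := key u hu s h1
  exact ⟨s', hs'.trans hs, m, hm, forces_conj.2 ⟨h2, h3⟩⟩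

/-- Plan: witness `upair (v 0) (v 1)`, `mem_upair`. -/
theorem forces_fPair (hv : ∀ i, HS (v i)) : Forces Fm.fPair p v := by
  refine forces_ex_of ((hv 0).upair (hv 1)) fun t _ => forces_biimp.2 fun q _ => ?_
  rw [forces_disj]
  exact mem_upair

/-- Plan: `comp` over the candidates `((v 0).A i).A j` (index a sigma type) with
`Φ p t := ∃ u, HS u ∧ Mem p u (v 0) ∧ Mem p t u`; prove `Good`, use `Good.mem_comp`. -/
theorem forces_fUnion (hv : ∀ i, HS (v i)) : Forces Fm.fUnion p v := by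
  obtain ⟨F, hF, hs⟩ := (hv 0).supp
  have hg : Good (fun k : (i : (v 0).ι) × ((v 0).A i).ι => ((v 0).A k.1).A k.2)
      (fun p t => ∃ u, HS u ∧ Mem p u (v 0) ∧ Mem p t u) F := by
    refine ⟨hF, fun k => ((hv 0).elt _).elt _, ?_, ?_, ?_, ?_⟩
    · rintro p q y hq ⟨u, h1, h2, h3⟩
      exact ⟨u, h1, h2.mono hq, h3.mono hq⟩
    · rintro p y y' _ _ e ⟨u, h1, h2, h3⟩
      exact ⟨u, h1, h2, h3.congr_left e⟩
    · rintro π hπ p y _ ⟨u, h1, h2, h3⟩
      exact ⟨π • u, h1.smul π, (h2.smul π).congr_right (hs π hπ _), h3.smul π⟩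
    · rintro p y _ ⟨u, _, h2, h3⟩
      obtain ⟨q, hq, i, -, e⟩ := h2 p le_rfl
      obtain ⟨r, hr, j, -, e'⟩ := ((h3.mono hq).congr_right e) q le_rfl
      exact ⟨r, hr.trans hq, ⟨i, j⟩, e'⟩
  refine forces_ex_of hg.hs_comp fun t ht => forces_biimp.2 fun q _ => ?_
  rw [forces_ex]
  refine (hg.mem_comp ht).trans ?_
  simp only [forces_conj]
  rfl

/-- Plan: witness `lst num` (`hs_of_fixed`, `smul_lst`, `smul_num`), `mem_sc`, `not_mem_emp`. -/
theorem forces_fInf (hv : ∀ i, HS (v i)) : Forces Fm.fInf p v := by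
  have _ := hv
  have hI : HS (lst num : Nm P) :=
    hs_of_fixed (fun π => by simp only [smul_lst, smul_num]) fun n => hs_num n
  refine forces_ex_of hI (forces_conj.2 ⟨forces_ex_of hs_emp (forces_conj.2
    ⟨mem_lst_of 0 (Eqv.refl _ _), fun t _ q _ => not_mem_emp⟩), fun x _ q _ hx => ?_⟩)
  refine forces_ex.2 fun r hr => ?_
  obtain ⟨s, hs, k, e⟩ := mem_lst.1 hx r hr
  refine ⟨s, hs, num (k + 1), hs_num _, forces_conj.2 ⟨mem_lst_of (k + 1) (Eqv.refl _ _),
    fun t _ => forces_biimp.2 fun s' hs' => ?_⟩⟩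
  rw [forces_disj]
  refine mem_sc.trans (forall₂_congr fun a ha => exists_congr fun b => and_congr_right fun hb => ?_)
  have e' : Eqv b x (num k) := e.mono (hb.trans (ha.trans hs'))
  exact or_congr ⟨fun h => Mem.congr_right h e'.symm, fun h => Mem.congr_right h e'⟩
    ⟨fun h => Eqv.trans h e'.symm, fun h => Eqv.trans h e'⟩

end Vale.Agent.P323
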