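import Vale.Agent.P323.Force

/-! P323: separation, power set and replacement are forced. All three are instances of the
comprehension principle `Good`/`comp` of `HS.lean`. A common countable support `F` of all `v i`
is the union of chosen supports; for `π` fixing `F`, `Forces.smul` followed by `Forces.congr`
(with `Sym`) gives invariance. Use `forces_ren` and `funext` with `cases` to simplify the renamed
assignments. -/

namespace Vale.Agent.P323

variable {P G A : Type} [Preorder P] [OrderTop P] [Group G] [MulAction G P] [Sys P G]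
  [MulAction G A] [Atoms P A] {p : P} {v : ℕ → Nm P}

theorem exists_common_supp (hv : ∀ i, HS (v i)) :
    ∃ F : Set A, F.Countable ∧ ∀ i, Sym (v i) F := by
  choose F hF hs using fun i => (hv i).supp
  exact ⟨⋃ i, F i, Set.countable_iUnion hF, fun i => (hs i).mono (Set.subset_iUnion F i)⟩

theorem forces_ren_of {φ : Fm} {f : ℕ → ℕ} {w : ℕ → Nm P} (e : ∀ n, v (f n) = w n) :
    Forces (φ.ren f) p v ↔ Forces φ p w := by
  rw [forces_ren, funext e]

theorem forces_fReplH_elim {φ : Fm} (h : Forces (Fm.fReplH φ) p v) {u t t' : Nm P} (hu : HS u)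
    (ht : HS t) (ht' : HS t') (hm : Mem p u (v 0))
    (h1 : Forces φ p (cons t (cons u fun n => v (n + 1))))
    (h2 : Forces φ p (cons t' (cons u fun n => v (n + 1)))) : Eqv p t t' :=
  h u hu p le_rfl hm t ht t' ht' p le_rfl
    ((forces_ren_of fun n => by rcases n with _ | _ | n <;> rfl).2 h1) p le_rfl
    ((forces_ren_of fun n => by rcases n with _ | _ | n <;> rfl).2 h2)

/-- Plan: candidates `(v 0).A`, `Φ p t := Mem p t (v 0) ∧ Forces φ p (cons t fun n => v (n+1))`. -/
theorem forces_fSep (φ : Fm) (hv : ∀ i, HS (v i)) : Forces (Fm.fSep φ) p v := by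
  obtain ⟨F, hF, hs⟩ := exists_common_supp hv
  have hg : Good (v 0).A
      (fun p t => Mem p t (v 0) ∧ Forces φ p (cons t fun n => v (n + 1))) F := by
    refine ⟨hF, (hv 0).elt, ?_, ?_, ?_, ?_⟩
    · rintro p q y hq ⟨h1, h2⟩
      exact ⟨h1.mono hq, h2.mono hq⟩
    · rintro p y y' _ _ e ⟨h1, h2⟩
      exact ⟨h1.congr_left e, h2.congr (eqv_cons e fun _ => Eqv.refl _ _)⟩
    · rintro π hπ p y _ ⟨h1, h2⟩
      refine ⟨(h1.smul π).congr_right (hs 0 π hπ _), (h2.smul π).congr fun i => ?_⟩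
      rcases i with _ | i
      · exact Eqv.refl _ _
      · exact hs (i + 1) π hπ _
    · rintro p y _ ⟨h1, -⟩
      obtain ⟨q, hq, i, -, e⟩ := h1 p le_rfl
      exact ⟨q, hq, i, e⟩
  refine forces_ex_of hg.hs_comp fun t ht => forces_biimp.2 fun q _ => ?_
  rw [forces_conj, forces_ren_of (w := cons t fun n => v (n + 1))
    fun n => by rcases n with _ | n <;> rfl]
  refine (hg.mem_comp ht).trans ⟨fun h => ⟨Mem.reg fun r hr => ?_, Forces.reg fun r hr => ?_⟩,
    fun h r hr => ⟨r, le_rfl, Mem.mono h.1 hr, h.2.mono hr⟩⟩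
  · obtain ⟨s, hs, h1, -⟩ := h r hr
    exact ⟨s, hs, h1⟩
  · obtain ⟨s, hs, -, h1⟩ := h r hr
    exact ⟨s, hs, h1⟩

/-- Plan: `x = v 0`, `Φ p t := ∀ u, HS u → ∀ q ≤ p, Mem q u t → Mem q u x`; candidates
`ofSet x.A S` for `S : {S : Set (x.ι × P) // HS (ofSet x.A S)}`. Cover: for `HS y` with `Φ p y`
the name `comp x.A (fun r u => Mem r u y ∧ Mem r u x)` is `HS` (it is `Good`), is by definition
an `ofSet x.A S`, and is forced equal to `y` by `p` (`Eqv.ext`). -/
theorem forces_fPower (hv : ∀ i, HS (v i)) : Forces Fm.fPower p v := by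
  obtain ⟨F, hF, hs⟩ := (hv 0).supp
  have hg : Good (fun S : {S : Set ((v 0).ι × P) // HS (ofSet (v 0).A S)} => ofSet (v 0).A S.1)
      (fun p t => ∀ u, HS u → ∀ q, q ≤ p → Mem q u t → Mem q u (v 0)) F := by
    refine ⟨hF, fun S => S.2, ?_, ?_, ?_, ?_⟩
    · intro p q y hq h u hu r hr
      exact h u hu r (hr.trans hq)
    · intro p y y' _ _ e h u hu r hr h1
      exact h u hu r hr (h1.congr_right (e.mono hr).symm)
    · intro π hπ p y _ h u hu r hr h1
      have h2 := h1.smul π⁻¹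
      rw [inv_smul_smul] at h2
      have h3 := (h _ (hu.smul π⁻¹) _ ((le_smul_iff' π).1 hr) h2).smul π
      rw [smul_inv_smul, smul_inv_smul] at h3
      exact h3.congr_right (hs π hπ _)
    · intro p y hy h
      obtain ⟨F', hF', hs'⟩ := hy.supp
      have hg' : Good (v 0).A (fun r u => Mem r u y ∧ Mem r u (v 0)) (F ∪ F') := by
        refine ⟨hF.union hF', (hv 0).elt, ?_, ?_, ?_, ?_⟩
        · rintro p q y hq ⟨h1, h2⟩
          exact ⟨h1.mono hq, h2.mono hq⟩
        · rintro p y y' _ _ e ⟨h1, h2⟩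
          exact ⟨h1.congr_left e, h2.congr_left e⟩
        · rintro π hπ p y _ ⟨h1, h2⟩
          exact ⟨(h1.smul π).congr_right (hs' π (fun a ha => hπ a (Or.inr ha)) _),
            (h2.smul π).congr_right (hs π (fun a ha => hπ a (Or.inl ha)) _)⟩
        · rintro p y _ ⟨-, h1⟩
          obtain ⟨q, hq, i, -, e⟩ := h1 p le_rfl
          exact ⟨q, hq, i, e⟩
      refine ⟨p, le_rfl, ⟨_, hg'.hs_comp⟩, Eqv.ext hy hg'.hs_comp fun t ht q hq =>
        ⟨fun h1 => hg'.mem_of ht ⟨h1, h t ht q hq h1⟩, fun h1 => Mem.reg fun r hr => ?_⟩⟩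
      obtain ⟨s, hs, h2, -⟩ := (hg'.mem_comp ht).1 h1 r hr
      exact ⟨s, hs, h2⟩
  refine forces_ex_of hg.hs_comp fun t ht => forces_biimp.2 fun q _ => ?_
  refine (hg.mem_comp ht).trans ⟨fun h => Forces.reg fun r hr => h r hr,
    fun h r hr => ⟨r, le_rfl, Forces.mono h hr⟩⟩

/-- Plan: `x = v 0`, `v' n = v (n+1)`,
`Φ p t := Forces (fReplH φ) p v ∧ ∃ u, HS u ∧ Mem p u x ∧ Forces φ p (cons t (cons u v'))`.
Candidates indexed by `x.ι × P`: for `(i, r)` a chosen `HS` name `t` with
`Forces φ r (cons t (cons (x.A i) v'))` if there is one, else `emp`. Cover: pass to `q` with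
`u = x.A i`; single valuedness identifies `y` with the candidate `(i, q)`. -/
theorem forces_fRepl (φ : Fm) (hv : ∀ i, HS (v i)) : Forces (Fm.fRepl φ) p v := by
  classical
  obtain ⟨F, hF, hs⟩ := exists_common_supp hv
  let C : (v 0).ι × P → Nm P := fun k =>
    if h : ∃ t, HS t ∧ Forces φ k.2 (cons t (cons ((v 0).A k.1) fun n => v (n + 1))) then h.choose
    else emp
  have hC : ∀ k, HS (C k) := fun k => by
    simp only [C]
    split_ifs with h
    · exact h.choose_spec.1
    · exact hs_emp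
  have hg : Good C (fun p t => Forces (Fm.fReplH φ) p v ∧ ∃ u, HS u ∧ Mem p u (v 0) ∧
      Forces φ p (cons t (cons u fun n => v (n + 1)))) F := by
    refine ⟨hF, hC, ?_, ?_, ?_, ?_⟩
    · rintro p q y hq ⟨h0, u, hu, h1, h2⟩
      exact ⟨h0.mono hq, u, hu, h1.mono hq, h2.mono hq⟩
    · rintro p y y' _ _ e ⟨h0, u, hu, h1, h2⟩
      exact ⟨h0, u, hu, h1, h2.congr (eqv_cons e fun _ => Eqv.refl _ _)⟩
    · rintro π hπ p y _ ⟨h0, u, hu, h1, h2⟩
      refine ⟨(h0.smul π).congr fun i => hs i π hπ _, π • u, hu.smul π,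
        (h1.smul π).congr_right (hs 0 π hπ _), (h2.smul π).congr fun i => ?_⟩
      rcases i with _ | _ | i
      · exact Eqv.refl _ _
      · exact Eqv.refl _ _
      · exact hs (i + 1) π hπ _
    · rintro p y hy ⟨h0, u, _, h1, h2⟩
      obtain ⟨q, hq, i, -, e⟩ := h1 p le_rfl
      have h3 : Forces φ q (cons y (cons ((v 0).A i) fun n => v (n + 1))) :=
        (h2.mono hq).congr (eqv_cons (Eqv.refl _ _) (eqv_cons e fun _ => Eqv.refl _ _))
      have h4 : ∃ t, HS t ∧ Forces φ q (cons t (cons ((v 0).A i) fun n => v (n + 1))) :=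
        ⟨y, hy, h3⟩
      refine ⟨q, hq, (i, q), forces_fReplH_elim (h0.mono hq) ((hv 0).elt i) hy (hC _)
        ((h1.mono hq).congr_left e) h3 ?_⟩
      simp only [C, dif_pos h4]
      exact h4.choose_spec.2
  intro p' _ hH
  refine forces_ex_of hg.hs_comp fun t ht => forces_biimp.2 fun q hq => ?_
  rw [forces_ex]
  refine (hg.mem_comp ht).trans (forall₂_congr fun r hr => exists_congr fun s =>
    and_congr_right fun hs => ?_)
  refine (and_iff_right (hH.mono (hs.trans (hr.trans hq)))).trans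
    (exists_congr fun u => and_congr_right fun _ => ?_)
  rw [forces_conj, forces_ren_of (w := cons t (cons u fun n => v (n + 1)))
    fun n => by rcases n with _ | _ | n <;> rfl]
  rfl

end Vale.Agent.P323
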