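import Vale.Agent.P323.Henkin
import Vale.Agent.P323.ZFa
import Vale.Agent.P323.ZFb
import Vale.Agent.P323.PP
import Vale.Agent.P323.NotAC

/-! P323: assembly. -/

namespace Vale.Agent.P323

theorem exists_model :
    ∃ (M : Type) (_ : Nonempty M) (mem : M → M → Prop), ZF mem ∧ PP mem ∧ ¬ AC mem := by
  obtain ⟨M, hM, mem, h⟩ := henkin Cond
  refine ⟨M, hM, mem, model_of_ax mem fun φ hφ => h φ fun v hv => ?_⟩
  cases hφ with
  | ext => exact forces_fExt hv
  | found => exact forces_fFound hv
  | pair => exact forces_fPair hv
  | union => exact forces_fUnion hv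
  | power => exact forces_fPower hv
  | inf => exact forces_fInf hv
  | sep φ => exact forces_fSep φ hv
  | repl φ => exact forces_fRepl φ hv
  | pp => exact forces_fPP pp_core hv
  | nac => exact forces_fNAC famN hs_famN famN_ne famN_nc hv

end Vale.Agent.P323
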