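import Mathlib.Algebra.Group.Action.Defs
import Mathlib.Order.BoundedOrder.Basic
import Mathlib.Data.Set.Countable

/-! P323: names over a preorder `P`, forced equality and membership, the group action. -/

namespace Vale.Agent.P323

/-- A symmetric system: `G` acts on the conditions `P` by automorphisms. -/
class Sys (P : Type) (G : outParam Type) [Preorder P] [OrderTop P] [Group G] [MulAction G P] :
    Prop where
  smul_mono : ∀ (π : G) {p q : P}, p ≤ q → π • p ≤ π • q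
  smul_top : ∀ π : G, π • (⊤ : P) = ⊤

/-- Marker class: `A` is the type of atoms attached to `P`. -/
class Atoms (P : Type) (A : outParam Type) : Prop where

/-- Names. -/
inductive Nm (P : Type) : Type 1
  | mk (ι : Type) (A : ι → Nm P) (B : ι → P) : Nm P

namespace Nm

variable {P : Type}

def ι : Nm P → Type
  | mk ι _ _ => ι

def A : (x : Nm P) → x.ι → Nm P
  | mk _ A _ => A

def B : (x : Nm P) → x.ι → P
  | mk _ _ B => B

def act {G : Type} [SMul G P] (π : G) : Nm P → Nm P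
  | mk ι A B => mk ι (fun i => act π (A i)) (fun i => π • B i)

instance {G : Type} [SMul G P] : SMul G (Nm P) := ⟨act⟩

theorem smul_mk {G : Type} [SMul G P] (π : G) (ι : Type) (A : ι → Nm P) (B : ι → P) :
    π • mk ι A B = mk ι (fun i => π • A i) (fun i => π • B i) := rfl

instance {G : Type} [Group G] [MulAction G P] : MulAction G (Nm P) where
  one_smul x := by
    induction x with
    | mk ι A B ih => rw [smul_mk]; simp only [ih, one_smul]
  mul_smul π ρ x := by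
    induction x with
    | mk ι A B ih => rw [smul_mk, smul_mk, smul_mk]; simp only [ih, mul_smul]

end Nm

variable {P : Type} [Preorder P]

/-- Auxiliary structural recursion for forced equality. -/
def EqvA : Nm P → Nm P → P → Prop
  | .mk _ A B, .mk _ A' B', p =>
    (∀ i q, q ≤ p → q ≤ B i → ∃ r, r ≤ q ∧ ∃ j, r ≤ B' j ∧ EqvA (A i) (A' j) r) ∧
    (∀ j q, q ≤ p → q ≤ B' j → ∃ r, r ≤ q ∧ ∃ i, r ≤ B i ∧ EqvA (A i) (A' j) r)

/-- `p` forces `x = y`. -/
def Eqv (p : P) (x y : Nm P) : Prop := EqvA x y p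

/-- `p` forces `x ∈ y`. -/
def Mem (p : P) (x y : Nm P) : Prop :=
  ∀ q, q ≤ p → ∃ r, r ≤ q ∧ ∃ j, r ≤ y.B j ∧ Eqv r x (y.A j)

theorem eqv_iff {p : P} {x y : Nm P} : Eqv p x y ↔
    (∀ i q, q ≤ p → q ≤ x.B i → ∃ r, r ≤ q ∧ ∃ j, r ≤ y.B j ∧ Eqv r (x.A i) (y.A j)) ∧
    (∀ j q, q ≤ p → q ≤ y.B j → ∃ r, r ≤ q ∧ ∃ i, r ≤ x.B i ∧ Eqv r (x.A i) (y.A j)) := by
  cases x; cases y; rfl

theorem Eqv.mono {p q : P} {x y : Nm P} (h : Eqv p x y) (hq : q ≤ p) : Eqv q x y := by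
  rw [eqv_iff] at h ⊢
  exact ⟨fun i r hr hB => h.1 i r (hr.trans hq) hB, fun i r hr hB => h.2 i r (hr.trans hq) hB⟩

theorem Eqv.refl (p : P) (x : Nm P) : Eqv p x x := by
  induction x generalizing p with
  | mk ι A B ih =>
    exact ⟨fun i q _ hB => ⟨q, le_rfl, i, hB, ih i q⟩, fun i q _ hB => ⟨q, le_rfl, i, hB, ih i q⟩⟩

theorem Eqv.symm {p : P} {x y : Nm P} (h : Eqv p x y) : Eqv p y x := by
  induction x generalizing p y with
  | mk ι A B ih =>
    rw [eqv_iff] at h ⊢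
    refine ⟨fun j q hq hB => ?_, fun i q hq hB => ?_⟩
    · obtain ⟨r, hr, i, hi, e⟩ := h.2 j q hq hB
      exact ⟨r, hr, i, hi, ih i e⟩
    · obtain ⟨r, hr, j, hj, e⟩ := h.1 i q hq hB
      exact ⟨r, hr, j, hj, ih i e⟩

theorem Eqv.trans {p : P} {x y z : Nm P} (h : Eqv p x y) (h' : Eqv p y z) : Eqv p x z := by
  induction x generalizing p y z with
  | mk ι A B ih =>
    rw [eqv_iff] at h h' ⊢
    refine ⟨fun i q hq hB => ?_, fun k q hq hB => ?_⟩
    · obtain ⟨r, hr, j, hj, e⟩ := h.1 i q hq hB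
      obtain ⟨s, hs, k, hk, e'⟩ := h'.1 j r (hr.trans hq) hj
      exact ⟨s, hs.trans hr, k, hk, ih i (e.mono hs) e'⟩
    · obtain ⟨r, hr, j, hj, e⟩ := h'.2 k q hq hB
      obtain ⟨s, hs, i, hi, e'⟩ := h.2 j r (hr.trans hq) hj
      exact ⟨s, hs.trans hr, i, hi, ih i e' (e.mono hs)⟩

/-- Regularity: densely forced means forced. -/
theorem Eqv.reg {p : P} {x y : Nm P} (h : ∀ q, q ≤ p → ∃ r, r ≤ q ∧ Eqv r x y) : Eqv p x y := by
  rw [eqv_iff]
  refine ⟨fun i q hq hB => ?_, fun i q hq hB => ?_⟩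
  · obtain ⟨r, hr, e⟩ := h q hq
    obtain ⟨s, hs, t⟩ := (eqv_iff.1 e).1 i r le_rfl (hr.trans hB)
    exact ⟨s, hs.trans hr, t⟩
  · obtain ⟨r, hr, e⟩ := h q hq
    obtain ⟨s, hs, t⟩ := (eqv_iff.1 e).2 i r le_rfl (hr.trans hB)
    exact ⟨s, hs.trans hr, t⟩

theorem Mem.mono {p q : P} {x y : Nm P} (h : Mem p x y) (hq : q ≤ p) : Mem q x y :=
  fun r hr => h r (hr.trans hq)

theorem Mem.reg {p : P} {x y : Nm P} (h : ∀ q, q ≤ p → ∃ r, r ≤ q ∧ Mem r x y) : Mem p x y := by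
  intro q hq
  obtain ⟨r, hr, e⟩ := h q hq
  obtain ⟨s, hs, t⟩ := e r le_rfl
  exact ⟨s, hs.trans hr, t⟩

theorem Mem.of_le {p : P} {y : Nm P} {j : y.ι} (h : p ≤ y.B j) : Mem p (y.A j) y :=
  fun q hq => ⟨q, le_rfl, j, hq.trans h, Eqv.refl _ _⟩

theorem Mem.congr_left {p : P} {x x' y : Nm P} (h : Mem p x y) (e : Eqv p x x') : Mem p x' y := by
  intro q hq
  obtain ⟨r, hr, j, hj, t⟩ := h q hq
  exact ⟨r, hr, j, hj, (e.mono (hr.trans hq)).symm.trans t⟩

theorem Mem.congr_right {p : P} {x y y' : Nm P} (h : Mem p x y) (e : Eqv p y y') :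
    Mem p x y' := by
  intro q hq
  obtain ⟨r, hr, j, hj, t⟩ := h q hq
  obtain ⟨s, hs, k, hk, t'⟩ := (eqv_iff.1 e).1 j r (hr.trans hq) hj
  exact ⟨s, hs.trans hr, k, hk, (t.mono hs).trans t'⟩

/-- Extensionality in terms of the listed elements. -/
theorem Eqv.of_mem {p : P} {x y : Nm P}
    (h1 : ∀ i q, q ≤ p → q ≤ x.B i → Mem q (x.A i) y)
    (h2 : ∀ j q, q ≤ p → q ≤ y.B j → Mem q (y.A j) x) : Eqv p x y := by
  rw [eqv_iff]
  refine ⟨fun i q hq hB => h1 i q hq hB q le_rfl, fun j q hq hB => ?_⟩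
  obtain ⟨r, hr, i, hi, e⟩ := h2 j q hq hB q le_rfl
  exact ⟨r, hr, i, hi, e.symm⟩

theorem not_mem_self (p : P) (x : Nm P) : ¬ Mem p x x := by
  induction x generalizing p with
  | mk ι A B ih =>
    intro h
    obtain ⟨r, hr, j, hj, e⟩ := h p le_rfl
    exact ih j r ((h.mono hr).congr_left e |>.congr_right e)

section act

variable {G : Type} [OrderTop P] [Group G] [MulAction G P] [Sys P G]

theorem smul_le_smul_iff' (π : G) {p q : P} : π • p ≤ π • q ↔ p ≤ q := by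
  refine ⟨fun h => ?_, Sys.smul_mono π⟩
  simpa using Sys.smul_mono π⁻¹ h

theorem le_smul_iff' (π : G) {p q : P} : p ≤ π • q ↔ π⁻¹ • p ≤ q := by
  rw [← smul_le_smul_iff' π (p := π⁻¹ • p), smul_inv_smul]

theorem Eqv.smul {p : P} {x y : Nm P} (h : Eqv p x y) (π : G) :
    Eqv (π • p) (π • x) (π • y) := by
  induction x generalizing p y with
  | mk ι A B ih =>
    obtain ⟨κ, A', B'⟩ := y
    rw [Nm.smul_mk, Nm.smul_mk]
    refine ⟨fun i q hq hB => ?_, fun j q hq hB => ?_⟩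
    · obtain ⟨r, hr, j, hj, e⟩ := h.1 i (π⁻¹ • q) ((le_smul_iff' π).1 hq) ((le_smul_iff' π).1 hB)
      exact ⟨π • r, by simpa using Sys.smul_mono π hr, j, Sys.smul_mono π hj, ih i e⟩
    · obtain ⟨r, hr, i, hi, e⟩ := h.2 j (π⁻¹ • q) ((le_smul_iff' π).1 hq) ((le_smul_iff' π).1 hB)
      exact ⟨π • r, by simpa using Sys.smul_mono π hr, i, Sys.smul_mono π hi, ih i e⟩

theorem Mem.smul {p : P} {x y : Nm P} (h : Mem p x y) (π : G) :
    Mem (π • p) (π • x) (π • y) := by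
  obtain ⟨κ, A', B'⟩ := y
  intro q hq
  obtain ⟨r, hr, j, hj, e⟩ := h (π⁻¹ • q) ((le_smul_iff' π).1 hq)
  exact ⟨π • r, by simpa using Sys.smul_mono π hr, j, Sys.smul_mono π hj, e.smul π⟩

end act

end Vale.Agent.P323
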