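import Vale.Agent.P323.Cond

/-! P323: moving conditions by permutations; the relation `Over`. -/

namespace Vale.Agent.P323

open Filter

/-- Plan: `Cardinal.extend_function_of_lt` (the atoms are uncountable). First extend `f` to
`S ∪ K` by an injection of the countable set `K \ S` into the complement of the countable set
`N ∪ f '' S` (that complement is infinite, see `exists_fresh`), then extend to a permutation;
it fixes `z0` and `z1` since they lie in `S`. -/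
theorem exists_gam {S K N : Set At} (hS : S.Countable) (hK : K.Countable) (hN : N.Countable)
    (f : At → At) (hf : Set.InjOn f S) (h0 : z0 ∈ S) (h1 : z1 ∈ S) (e0 : f z0 = z0)
    (e1 : f z1 = z1) :
    ∃ π : Gam, (∀ x ∈ S, π • x = f x) ∧ ∀ x ∈ K, x ∉ S → π • x ∉ N := by
  classical
  have hC : (N ∪ f '' S)ᶜ.Infinite := fun h => by
    obtain ⟨x, hx⟩ := exists_fresh ((hN.union (hS.image f)).union h.countable)
    exact hx (by rw [Set.union_compl_self]; trivial)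
  have hU : Uncountable At := ⟨fun h => by
    obtain ⟨x, hx⟩ := exists_fresh (Set.countable_univ (α := At))
    exact hx trivial⟩
  obtain ⟨g, hg⟩ := Set.countable_iff_exists_injOn.1 hK
  let F : At → At := fun x => if x ∈ S then f x else (hC.natEmbedding _ (g x) : At)
  have hF : ∀ x, x ∉ S → F x ∉ N ∪ f '' S := fun x hx => by
    simp only [F, if_neg hx]
    exact (hC.natEmbedding _ (g x)).2
  have hFS : ∀ x ∈ S, F x = f x := fun x hx => if_pos hx
  have hinj : Function.Injective fun x : ↥(S ∪ K) => F x := by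
    rintro ⟨x, hx⟩ ⟨y, hy⟩ e
    dsimp only at e
    refine Subtype.ext ?_
    by_cases c1 : x ∈ S <;> by_cases c2 : y ∈ S
    · exact hf c1 c2 (by rwa [hFS x c1, hFS y c2] at e)
    · exact absurd (Or.inr ⟨x, c1, (hFS x c1).symm.trans e⟩) (hF y c2)
    · exact absurd (Or.inr ⟨y, c2, (hFS y c2).symm.trans e.symm⟩) (hF x c1)
    · simp only [F, if_neg c1, if_neg c2] at e
      exact hg (hx.resolve_left c1) (hy.resolve_left c2)
        ((hC.natEmbedding _).injective (Subtype.ext e))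
  obtain ⟨π, hπ⟩ := Cardinal.extend_function_of_lt ⟨_, hinj⟩
    ((Cardinal.le_aleph0_iff_set_countable.2 (hS.union hK)).trans_lt
      (Cardinal.aleph0_lt_mk_iff.2 hU)) ⟨Equiv.refl At⟩
  have hπ' : ∀ x ∈ S ∪ K, π x = F x := fun x hx => hπ ⟨x, hx⟩
  refine ⟨⟨π, ?_, ?_⟩, fun x hx => (hπ' x (Or.inl hx)).trans (hFS x hx), fun x hx hx' h => ?_⟩
  · rw [hπ' _ (Or.inl h0), hFS _ h0, e0]
  · rw [hπ' _ (Or.inl h1), hFS _ h1, e1]
  · exact hF x hx' (Or.inl (hπ' x (Or.inr hx) ▸ h))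

/-- `r` contains everything that `s` says below `β`. -/
structure Raw.Over (s : Raw) (β : At) (r : Raw) : Prop where
  le_iff : ∀ {x y}, s.le x β → s.le y β → (r.le x y ↔ s.le x y)
  meet : ∀ {m x y u}, s.le x β → s.le y β → s.IsMeet m x y → r.le u x → r.le u y → r.le u m
  lab : ∀ {z w c}, s.lab z w c → s.le w β → r.lab z w c
  g : ∀ {x c e}, s.g x c e → s.le x β → r.g x c e
  code : ∀ {x d}, s.code x d → s.le x β → ∃ d', r.code x d' ∧ ∀ᶠ n in atTop, d n = d' n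
  ent : ∀ {k b c x}, s.ent k b c x → s.le k β → s.le b β → r.ent k b c x
  germ : ∀ {Λ T O}, s.prom Λ T O → (∀ z ∈ Λ, s.le z β) → ∀ b, r.E b → (∀ z ∈ Λ, r.le z b) →
    ∀ n0, s.le (T n0) β → (∃ n, n0 ≤ n ∧ r.le (T n) b) ∨
      ∃ n, n0 ≤ n ∧ ∃ o ∈ O, ∃ m, s.le m o ∧ s.le m β ∧ ∀ y, r.le y b → r.le y (T n) → r.le y m
  gap : ∀ {Λ T O}, s.prom Λ T O → (∀ z ∈ Λ, s.le z β) → ∀ b, (∀ z ∈ Λ, r.le z b) →
    (∀ n, ∃ m, s.le m (T n) ∧ s.le m β ∧ r.le b m) → ∃ z ∈ Λ, r.le b z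

theorem Raw.Ord.chain_le {p : Raw} (h : p.Ord) {T : ℕ → At} (ha : ∀ n, p.le (T (n + 1)) (T n))
    {n m : ℕ} (hnm : n ≤ m) : p.le (T m) (T n) := by
  induction hnm with
  | refl => exact h.right (ha n)
  | step _ ih => exact h.trans (ha _) ih

/-- Plan: if `(σ • q).le x b` then `q.le (σ⁻¹ • x) b` (as `σ • b = b`), so `σ⁻¹ • x` is fixed by
`σ` and equals `x`. Codes: `q.code (σ⁻¹ • x) (σ⁻¹ • d)`; `CodeOK.cof` at `b` and antitonicity give
`σ⁻¹ • d n = d n` eventually. Entries: `EntOK.same` at `b` puts the last atom below `b`.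
Promises: `{z | σ • z ∈ Λ} = Λ`; the promise of `q` holds in `u`; in `germ` take for `m` the
`q`-meet of `σ⁻¹ • o` and `b`, and `n` the maximum with `n0`. -/
theorem over_of_fix {q u : Cond} {σ : Gam} {b : At} (hb : q.le z1 b) (hu : u ≤ q)
    (hσ : ∀ z, q.le z b → σ • z = z) : (σ • q).toRaw.Over b u.toRaw := by
  have hi : ∀ x, q.le (σ⁻¹ • x) b → σ⁻¹ • x = x := fun x hx => by
    have := hσ _ hx
    rw [smul_inv_smul] at this
    exact this.symm
  have hb' : σ⁻¹ • b = b := inv_smul_eq_iff.2 (hσ b (q.ok.right hb)).symm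
  have h1 : ∀ {x}, (σ • q).le x b → σ⁻¹ • x = x := fun {x} hx =>
    hi x (by have h : q.le (σ⁻¹ • x) (σ⁻¹ • b) := hx; rwa [hb'] at h)
  have h2 : ∀ {x}, (σ • q).le x b → q.le x b := fun {x} hx => by
    have h : q.le (σ⁻¹ • x) (σ⁻¹ • b) := hx
    rwa [hb', h1 hx] at h
  have hΛ : ∀ {Λ : Set At}, (∀ z ∈ Λ, (σ • q).le z b) → ∀ z, σ • z ∈ Λ → z ∈ Λ :=
    fun {Λ} h z hz => by
      have := h1 (h _ hz)
      rw [inv_smul_smul] at this
      rwa [this]
  have hE := Cond.ext_of_le hu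
  refine ⟨fun {x y} hx hy => ?_, fun {m x y v} hx hy hm => ?_, fun {z w c} hl hw => ?_,
    fun {x c e} hg hx => ?_, fun {x d} hc hx => ?_, fun {k b0 c x} he hk hb0 => ?_,
    fun {Λ T O} hp hl b0 hb0 hl' n0 hn0 => ?_, fun {Λ T O} hp hl b0 hl' hT => ?_⟩
  · rw [hE.le_iff (q.ok.left (h2 hx)) (q.ok.left (h2 hy)), Cond.smul_toRaw, Raw.smul_le,
      h1 hx, h1 hy]
  · have h3 := Raw.smul_isMeet.1 hm
    rw [h1 hx, h1 hy, h1 ((σ • q).ok.trans hm.1 hx)] at h3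
    exact (hE.meet h3).2.2 v
  · have h3 : q.lab (σ⁻¹ • z) (σ⁻¹ • w) c := hl
    rw [h1 hw, h1 ((σ • q).ok.trans ((σ • q).ok.lab_le hl) hw)] at h3
    exact hE.lab h3
  · have h3 : q.g (σ⁻¹ • x) c e := hg
    rw [h1 hx] at h3
    exact hE.g h3
  · have h3 : q.code (σ⁻¹ • x) fun n => σ⁻¹ • d n := hc
    rw [h1 hx] at h3
    have h4 := q.ok.code_ok h3
    obtain ⟨n, hn⟩ := h4.cof b hb (h2 hx)
    refine ⟨_, hE.code h3, (eventually_ge_atTop n).mono fun m hm => ?_⟩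
    exact (hi _ (q.ok.trans (q.ok.toOrd.chain_le (T := fun n => σ⁻¹ • d n) h4.anti hm) hn)).symm
  · have h3 : q.ent (σ⁻¹ • k) (σ⁻¹ • b0) c (σ⁻¹ • x) := he
    rw [h1 hk, h1 hb0] at h3
    rw [hi x (((q.ok.ent_ok h3).same b (h2 hk)).1 (h2 hb0))] at h3
    exact hE.ent h3
  · have h3 : q.prom {z | σ • z ∈ Λ} (fun n => σ⁻¹ • T n) {z | σ • z ∈ O} := hp
    have h4 := q.ok.prom_ok h3
    have h5 := u.ok.prom_ok (hE.prom h3)
    have h6 : ∀ n, n0 ≤ n → q.le (σ⁻¹ • T n) b := fun n hn => by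
      have h : q.le (σ⁻¹ • T n0) (σ⁻¹ • b) := hn0
      rw [hb'] at h
      exact q.ok.trans (q.ok.toOrd.chain_le (T := fun n => σ⁻¹ • T n) h4.anti hn) h
    have h7 : ∀ n, u.le (T (max n n0)) (σ⁻¹ • T n) := fun n => by
      have : u.le (σ⁻¹ • T (max n n0)) (σ⁻¹ • T n) :=
        u.ok.toOrd.chain_le (T := fun n => σ⁻¹ • T n) h5.anti (le_max_left n n0)
      rwa [hi _ (h6 _ (le_max_right n n0))] at this
    rcases h5.germ b0 hb0 (fun z hz => hl' z (hΛ hl z hz)) with ⟨n, hn⟩ | ⟨n, o, ho, hn⟩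
    · exact Or.inl ⟨max n n0, le_max_right _ _, u.ok.trans (h7 n) hn⟩
    · obtain ⟨m, hm⟩ := q.ok.meet (h4.out o ho) (q.ok.right hb)
      have e1 := (Cond.smul_le_smul (π := σ)).2 hm.1
      have e2 := (Cond.smul_le_smul (π := σ)).2 hm.2.1
      rw [hσ m hm.2.1] at e1 e2
      rw [hσ b (q.ok.right hb)] at e2
      refine Or.inr ⟨max n n0, le_max_right _ _, σ • o, ho, m, e1, e2, fun y hy hy' => ?_⟩
      refine (hE.meet hm).2.2 y (hn y hy (u.ok.trans hy' (h7 n))) (u.ok.trans hy' ?_)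
      have := h6 _ (le_max_right n n0)
      rw [hi _ this] at this
      exact Cond.le_of_le hu this
  · have h3 : q.prom {z | σ • z ∈ Λ} (fun n => σ⁻¹ • T n) {z | σ • z ∈ O} := hp
    obtain ⟨z, hz, h4⟩ := (u.ok.prom_ok (hE.prom h3)).gap b0 (fun z hz => hl' z (hΛ hl z hz))
      fun n => by
        obtain ⟨m, a1, a2, a3⟩ := hT n
        have h : q.le (σ⁻¹ • m) (σ⁻¹ • T n) := a1
        rw [h1 a2] at h
        exact u.ok.trans a3 (Cond.le_of_le hu h)
    exact ⟨z, hΛ hl z hz, h4⟩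

/-- Plan: `over_of_fix` for `ρ • q`, `σ * ρ⁻¹` and `ρ • b`. -/
theorem over_of_le {q u : Cond} {σ ρ : Gam} {b : At} (hb : q.le z1 b) (hu : u ≤ ρ • q)
    (hσ : ∀ z, q.le z b → σ • z = ρ • z) : (σ • q).toRaw.Over (σ • b) u.toRaw := by
  have hb' := (Cond.smul_le_smul (π := ρ)).2 hb
  rw [smul_z1] at hb'
  have h := over_of_fix (σ := σ * ρ⁻¹) hb' hu fun z hz => by
    have h1 : q.le (ρ⁻¹ • z) (ρ⁻¹ • ρ • b) := hz
    rw [inv_smul_smul] at h1
    rw [mul_smul, hσ _ h1, smul_inv_smul]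
  rwa [mul_smul, inv_smul_smul, ← hσ b (q.ok.right hb)] at h

end Vale.Agent.P323
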