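import Vale.Agent.P323.Dense2
import Vale.Agent.P323.HS

/-! P323: one-atom supports form a filter. -/

namespace Vale.Agent.P323

/-- A permutation fixing `b` fixes everything labelled below `b`. -/
theorem fix_of_lab {q t : Cond} {π : Gam} {b z : At} {c : Set ℕ} (h1 : t ≤ q) (h2 : t ≤ π • q)
    (hb : π • b = b) (hl : q.lab z b c) : π • z = z := by
  have h3 := (Cond.ext_of_le h2).lab ((Cond.smul_lab_smul (π := π)).2 hl)
  rw [hb] at h3
  exact t.ok.lab_inj h3 ((Cond.ext_of_le h1).lab hl)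

/-- Plan: `mixing` with `{b}` and `fix_of_lab`. -/
theorem in_of_sym {q : Cond} {y : Nm Cond} {F : Set At} {b : At} (hy : HS y) (hF : Sym y F)
    (hl : ∀ z ∈ F, ∃ c, q.lab z b c) : In q b y := by
  refine mixing hy (Set.countable_singleton b) fun π hπ t h1 h2 => hF π (fun z hz => ?_) t
  obtain ⟨c, hc⟩ := hl z hz
  exact fix_of_lab h1 h2 (hπ b rfl) hc

/-- Plan: `add_lab`, `in_of_sym` for the witness, `In.congr`. -/
theorem in_up {q : Cond} {y : Nm Cond} {b b' : At} (h : In q b y) (hb : q.le b b') :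
    ∃ r, r ≤ q ∧ In r b' y := by
  obtain ⟨τ, h1, h2, h3⟩ := h
  obtain ⟨r, hr, c, hc⟩ := add_lab q hb
  refine ⟨r, hr, (in_of_sym h1 h2 fun z hz => ⟨c, ?_⟩).congr (h3.mono hr).symm⟩
  rw [Set.mem_singleton_iff.1 hz]
  exact hc

/-- Plan: `cover` a countable support, `label_all`, `in_of_sym`. -/
theorem exists_in (p : Cond) {y : Nm Cond} (hy : HS y) :
    ∃ q, q ≤ p ∧ ∃ b, q.le z1 b ∧ In q b y := by
  obtain ⟨F, hF, hs⟩ := hy.supp
  obtain ⟨q, hq, a, -, h1, h2⟩ := cover p hF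
  obtain ⟨r, hr, h3⟩ := label_all q
  exact ⟨r, hr.trans hq, a, Cond.le_of_le hr (h1 _ q.ok.e1),
    in_of_sym hy hs fun z hz => h3 z a (h1 z (h2 z hz))⟩

/-- Plan: by `Eqv.reg` pass to `t' ≤ t`, apply `copy_two`; `u` forces `σ₁ • τ = σ₁ • τ'` and
`σ₂ • τ = σ₂ • τ'`, while `σ₁ • τ = τ`, `σ₂ • τ = ρ • τ`, `σ₂ • τ' = σ₁ • τ'` by `Sym.agree`. -/
theorem eqv_of_indep {q t : Cond} {b b' d : At} {ρ : Gam} {τ τ' : Nm Cond} (hb : q.le z1 b)
    (hb' : q.le z1 b') (hd : q.IsMeet d b b') (hτ : Sym τ {b}) (hτ' : Sym τ' {b'})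
    (e : Eqv q τ τ') (hρ : ∀ z, q.le z d → ρ • z = z) (h1 : t ≤ q) (h2 : t ≤ ρ • q)
    (hm : t.IsMeet d b (ρ • b)) : Eqv t (ρ • τ) τ := by
  refine Eqv.reg fun t' ht' => ?_
  obtain ⟨σ₁, σ₂, u, hu, k1, k2, e1, e2, e3⟩ :=
    copy_two hb hb' hd hρ (ht'.trans h1) (ht'.trans h2) ((Cond.ext_of_le ht').meet hm)
  have a1 : Eqv u (σ₁ • τ) τ := hτ σ₁ (fun a ha => by rw [Set.mem_singleton_iff.1 ha, e1]) u
  have a2 : Eqv u (σ₂ • τ) (ρ • τ) :=
    hτ.agree (fun a ha => by rw [Set.mem_singleton_iff.1 ha, e2]) u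
  have a3 : Eqv u (σ₂ • τ') (σ₁ • τ') :=
    hτ'.agree (fun a ha => by rw [Set.mem_singleton_iff.1 ha, e3]) u
  exact ⟨u, hu, a2.symm.trans (((e.smul σ₂).mono k2).trans
    (a3.trans (((e.smul σ₁).mono k1).symm.trans a1)))⟩

/-- Finite intersection. Plan: `r` from `label_all q`; `mixing` at `r` with `{d}`: let `π` fix
`d`, `t ≤ r, π • r`; then `π` fixes all `z ≤ d` of `q`. Below any `t' ≤ t` take a third copy
`ρ • q` over `d` by `copy_am`; in the amalgam `u`, `d` is the meet of `b` and `ρ • b`, and of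
`π • b` and `ρ • b`. Apply `eqv_of_indep` to `(q, ρ)` and to `(π • q, ρ * π⁻¹)`. -/
theorem in_meet {q : Cond} {y : Nm Cond} {b b' d : At} (hy : HS y) (hb : q.le z1 b)
    (hb' : q.le z1 b') (hd : q.IsMeet d b b') (h : In q b y) (h' : In q b' y) :
    ∃ r, r ≤ q ∧ In r d y := by
  obtain ⟨τ, h1, h2, h3⟩ := h
  obtain ⟨τ', -, h2', h3'⟩ := h'
  have e : Eqv q τ τ' := h3.symm.trans h3'
  obtain ⟨r, hr, hl⟩ := label_all q
  refine ⟨r, hr, In.congr (y := τ) ?_ (h3.mono hr).symm⟩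
  refine mixing h1 (Set.countable_singleton d) fun π hπ t t1 t2 => Eqv.reg fun t' ht' => ?_
  have hπd : π • d = d := hπ d rfl
  have hfix : ∀ z, q.le z d → π • z = z := fun z hz => by
    obtain ⟨c, hc⟩ := hl z d hz
    exact fix_of_lab t1 t2 hπd hc
  have k1 : t' ≤ q := ht'.trans (t1.trans hr)
  have k2 : t' ≤ π • q := ht'.trans (t2.trans (Sys.smul_mono π hr))
  obtain ⟨ρ, u, hρ, -, u1, u2, A5, A6, -⟩ := copy_am k1 (hd.2.2 z1 hb hb')
  have hρd : ρ • d = d := hρ d (q.ok.left hd.1)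
  have l1 : u.le d (ρ • b) := by
    have := Cond.le_of_le u2 ((Cond.smul_le_smul (π := ρ)).2 hd.1)
    rwa [hρd] at this
  have key : ∀ w, t'.le d w → u.IsMeet d w (ρ • b) := fun w hw =>
    ⟨Cond.le_of_le u1 hw, l1, fun z z1 z2 => Cond.le_of_le u1
      (A6 z _ z2 (t'.ok.left (A5 z w z1 (t'.ok.right hw)))
        (Cond.smul_E_smul.2 (q.ok.right hb)))⟩
  have m1 := key b (Cond.le_of_le k1 hd.1)
  have m2 := key (π • b) (by
    have := Cond.le_of_le k2 ((Cond.smul_le_smul (π := π)).2 hd.1)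
    rwa [hπd] at this)
  have a1 := eqv_of_indep hb hb' hd h2 h2' e hρ (u1.trans k1) u2 m1
  have a2 := eqv_of_indep (q := π • q) (t := u) (b := π • b) (b' := π • b') (d := d)
    (ρ := ρ * π⁻¹) (τ := π • τ) (τ' := π • τ')
    (by simpa using (Cond.smul_le_smul (π := π)).2 hb)
    (by simpa using (Cond.smul_le_smul (π := π)).2 hb')
    (by simpa [hπd] using (Cond.smul_isMeet_smul (π := π)).2 hd)
    (h2.smul_single π) (h2'.smul_single π) (e.smul π)
    (fun z hz => by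
      have h4 : q.le (π⁻¹ • z) d := by
        rw [← Cond.smul_le_smul (π := π), smul_inv_smul, hπd]
        exact hz
      have h5 := hfix _ h4
      rw [smul_inv_smul] at h5
      rw [mul_smul, hρ _ h4, ← h5])
    (u1.trans k2) (by rwa [mul_smul, inv_smul_smul]) (by rwa [mul_smul, inv_smul_smul])
  rw [mul_smul, inv_smul_smul] at a2
  exact ⟨u, u1, a2.symm.trans a1⟩

end Vale.Agent.P323
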